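import Crest.Agent.R82.GT

/-!
# Row 82, task BARY: stability of the barycenters of Laguerre cells under an `L²` perturbation of the uniform source

Data: `ρ = rho K`, `‖x‖ ≤ D` on `K` (`D ≥ 1` wlog), `η` measurable, `|η| ≤ 1/2`; sites `S`, weights `ψ0`, `ψ1`,
`C⁰_y = cell S ψ0 y`, `C¹_y = cell S ψ1 y`, `ρ(C⁰_y) = m y = ∫_{C¹_y} (1+η) dρ`.

Blueprint (tilt + absorbing).  `lam = 1/(48 D²)`, `g = gw lam` (no normalisation needed), `e^{-1/96} ≤ g ≤ 1` on `K`.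
`mt y = ∫_{C⁰_y} g dρ`, `n y = ∫_{C¹_y} (1+η) g dρ`, `r y = mt y / n y ∈ [e^{-1/96}, e^{1/96}]`
(both lie in `[e^{-1/96} m y, m y]`).  `f x = r (T¹ x) (1 + η x)` with `T¹` a measurable selection of the cells `C¹` (`exists_selection`,
`map_selection`): `f = r y (1+η)` a.e. on `C¹_y`, `∫_{C¹_y} f g dρ = mt y`, `1/4 ≤ f ≤ 2`.  `X := ∫ (f-1)² g dρ`.
For a function `v` which is `L`-Lipschitz on `K` write `Δ_y[v] = ∫_{C¹_y} v f g dρ - ∫_{C⁰_y} v g dρ`; GT (applied to `u y = v / L`) gives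
`∑ (mt y)⁻¹ Δ_y[v_y]² ≤ (4 L²/lam) X`.
(1) `v = 1/g = exp((lam/2)‖x‖²)`: `L₁ = lam D e^{1/96}`;  `Δ_y[1/g] = r y ∫_{C¹_y}(1+η) dρ - ρ(C⁰_y) = (r y - 1) m y`.
    So `∑ (mt y)⁻¹ (r y - 1)² (m y)² ≤ (4 L₁²/lam) X = 4 lam D² e^{1/48} X = (e^{1/48}/12) X`, and `m y ≥ mt y`:
    `∑ mt y (r y - 1)² ≤ (e^{1/48}/12) X`.
(2) `f - 1 = (r-1)(1+η) + η`, so `X ≤ 2 ∑ (r y - 1)² ∫_{C¹_y} (1+η)² g dρ + 2 ∫ η² g dρ`, `∫_{C¹_y}(1+η)² g ≤ (3/2) n y = (3/2) mt y / r y ≤ (3/2) e^{1/96} mt y`.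
    Hence `X ≤ 3 e^{1/96} (e^{1/48}/12) X + 2 ∫ η² dρ ≤ (1/3) X + 2 ∫ η² dρ`, i.e. `X ≤ 3 ∫ η² dρ`   (`X < ∞` is clear).
(3) for a unit vector `e_y`, `v_y = ⟪x, e_y⟫ / g`: `L₂ = e^{1/96}(1 + lam D²) ≤ 2`;
    `Δ_y[v_y] = r y ⟪∫_{C¹_y} (1+η) x dρ, e_y⟫ - ⟪∫_{C⁰_y} x dρ, e_y⟫`.  With `β¹ = ∫_{C¹_y}(1+η) x dρ`, `β⁰ = ∫_{C⁰_y} x dρ`, `‖β¹‖ ≤ D m y`:
    `⟪β¹ - β⁰, e_y⟫ = Δ_y[v_y] - (r y - 1) ⟪β¹, e_y⟫`, choose `e_y` in the direction of `β¹ - β⁰`: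
    `‖β¹ - β⁰‖² ≤ 2 Δ_y[v_y]² + 2 D² (r y - 1)² (m y)²`.  Divide by `m y ≥ mt y` (and `m y ≤ e^{1/96} mt y`) and sum:
    `∑ (m y)⁻¹ ‖β¹ - β⁰‖² ≤ 2 (4 L₂²/lam) X + 2 D² e^{1/96} ∑ mt y (r y -1)² ≤ C D² ∫ η² dρ`.
-/

set_option autoImplicit false

namespace Crest.Agent.R82

open MeasureTheory
open scoped ENNReal NNReal InnerProductSpace

variable {d : ℕ}

/-- reciprocal Gaussian weight. -/
noncomputable def bs_gwi (lam : ℝ) (x : E d) : ℝ := Real.exp ((lam / 2) * ‖x‖ ^ 2)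

lemma bs_gw_pos (lam : ℝ) (x : E d) : 0 < gw lam x := Real.exp_pos _

lemma bs_gwi_pos (lam : ℝ) (x : E d) : 0 < bs_gwi lam x := Real.exp_pos _

lemma bs_gwi_mul_gw (lam : ℝ) (x : E d) : bs_gwi lam x * gw lam x = 1 := by
  unfold bs_gwi gw
  rw [← Real.exp_add]
  simp

lemma bs_measurable_gw (lam : ℝ) : Measurable (gw lam : E d → ℝ) := by
  unfold gw; fun_prop

lemma bs_measurable_gwi (lam : ℝ) : Measurable (bs_gwi lam : E d → ℝ) := by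
  unfold bs_gwi; fun_prop

lemma bs_gw_le_one (lam : ℝ) (hlam : 0 ≤ lam) (x : E d) : gw lam x ≤ 1 := by
  unfold gw
  rw [Real.exp_le_one_iff]
  have : 0 ≤ lam / 2 * ‖x‖ ^ 2 := by positivity
  linarith

/-- the constant `e^{1/96}`. -/
noncomputable def bs_kap : ℝ := Real.exp (1 / 96)

lemma bs_kap_pos : 0 < bs_kap := Real.exp_pos _

lemma bs_one_le_kap : 1 ≤ bs_kap := by
  unfold bs_kap; exact Real.one_le_exp (by norm_num)

lemma bs_kap_le : bs_kap ≤ 96 / 95 := by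
  have h := Real.one_sub_le_exp_neg (1 / 96)
  have h2 : Real.exp (-(1 / 96)) = bs_kap⁻¹ := by unfold bs_kap; rw [Real.exp_neg]
  rw [h2] at h
  have hk := bs_kap_pos
  rw [le_div_iff₀ (by norm_num)]
  have : (1 - 1 / 96) * bs_kap ≤ 1 := by
    calc (1 - 1 / 96) * bs_kap ≤ bs_kap⁻¹ * bs_kap := by gcongr
      _ = 1 := inv_mul_cancel₀ hk.ne'
  linarith

lemma bs_expo_le (D : ℝ) (hD : 1 ≤ D) (x : E d) (hx : ‖x‖ ≤ D) :
    (1 / (48 * D ^ 2)) / 2 * ‖x‖ ^ 2 ≤ 1 / 96 := by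
  have hD0 : 0 < D := by linarith
  have h1 : ‖x‖ ^ 2 ≤ D ^ 2 := by gcongr
  have : (1 / (48 * D ^ 2)) / 2 * ‖x‖ ^ 2 ≤ (1 / (48 * D ^ 2)) / 2 * D ^ 2 := by gcongr
  calc _ ≤ (1 / (48 * D ^ 2)) / 2 * D ^ 2 := this
    _ = 1 / 96 := by field_simp; norm_num

lemma bs_gwi_le_kap (D : ℝ) (hD : 1 ≤ D) (x : E d) (hx : ‖x‖ ≤ D) :
    bs_gwi (1 / (48 * D ^ 2)) x ≤ bs_kap := by
  unfold bs_gwi bs_kap
  exact Real.exp_le_exp.mpr (bs_expo_le D hD x hx)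

lemma bs_inv_kap_le_gw (D : ℝ) (hD : 1 ≤ D) (x : E d) (hx : ‖x‖ ≤ D) :
    bs_kap⁻¹ ≤ gw (1 / (48 * D ^ 2)) x := by
  have h := bs_gwi_le_kap D hD x hx
  have h2 := bs_gwi_mul_gw (1 / (48 * D ^ 2)) x
  have h3 : gw (1 / (48 * D ^ 2)) x = (bs_gwi (1 / (48 * D ^ 2)) x)⁻¹ := by
    field_simp [(bs_gwi_pos _ x).ne']
    linarith
  rw [h3]
  exact inv_anti₀ (bs_gwi_pos _ x) h

lemma bs_exp_sub_exp_le (a b c : ℝ) (ha : a ≤ c) (hb : b ≤ c) :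
    |Real.exp a - Real.exp b| ≤ Real.exp c * |a - b| := by
  have key : ∀ a b : ℝ, a ≤ c → Real.exp a - Real.exp b ≤ Real.exp c * |a - b| := by
    intro a b ha
    have h1 : Real.exp a * (b - a + 1) ≤ Real.exp b := by
      have := Real.add_one_le_exp (b - a)
      calc Real.exp a * (b - a + 1) ≤ Real.exp a * Real.exp (b - a) := by gcongr
        _ = Real.exp b := by rw [← Real.exp_add]; ring_nf
    have h2 : Real.exp a - Real.exp b ≤ Real.exp a * (a - b) := by nlinarith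
    calc Real.exp a - Real.exp b ≤ Real.exp a * (a - b) := h2
      _ ≤ Real.exp a * |a - b| := by gcongr; exact le_abs_self _
      _ ≤ Real.exp c * |a - b| := by gcongr
  rw [abs_le]
  constructor
  · have := key b a hb
    rw [abs_sub_comm] at this
    linarith
  · exact key a b ha

lemma bs_gwi_lip (D : ℝ) (hD : 1 ≤ D) (p q : E d) (hp : ‖p‖ ≤ D) (hq : ‖q‖ ≤ D) :
    |bs_gwi (1 / (48 * D ^ 2)) p - bs_gwi (1 / (48 * D ^ 2)) q| ≤ bs_kap * (1 / (48 * D ^ 2)) * D * ‖p - q‖ := by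
  have hD0 : 0 < D := by linarith
  have h := bs_exp_sub_exp_le _ _ _ (bs_expo_le D hD p hp) (bs_expo_le D hD q hq)
  have h2 : |(1 / (48 * D ^ 2)) / 2 * ‖p‖ ^ 2 - (1 / (48 * D ^ 2)) / 2 * ‖q‖ ^ 2|
      ≤ (1 / (48 * D ^ 2)) * D * ‖p - q‖ := by
    have e1 : (1 / (48 * D ^ 2)) / 2 * ‖p‖ ^ 2 - (1 / (48 * D ^ 2)) / 2 * ‖q‖ ^ 2
        = (1 / (48 * D ^ 2)) / 2 * ((‖p‖ - ‖q‖) * (‖p‖ + ‖q‖)) := by ring
    rw [e1, abs_mul, abs_mul, abs_of_nonneg (by positivity : (0:ℝ) ≤ (1 / (48 * D ^ 2)) / 2),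
      abs_of_nonneg (by positivity : (0:ℝ) ≤ ‖p‖ + ‖q‖)]
    have h3 : |‖p‖ - ‖q‖| ≤ ‖p - q‖ := abs_norm_sub_norm_le p q
    calc (1 / (48 * D ^ 2)) / 2 * (|‖p‖ - ‖q‖| * (‖p‖ + ‖q‖))
        ≤ (1 / (48 * D ^ 2)) / 2 * (‖p - q‖ * (D + D)) := by gcongr
      _ = (1 / (48 * D ^ 2)) * D * ‖p - q‖ := by ring
  unfold bs_gwi
  calc _ ≤ Real.exp (1 / 96) * |(1 / (48 * D ^ 2)) / 2 * ‖p‖ ^ 2 - (1 / (48 * D ^ 2)) / 2 * ‖q‖ ^ 2| := h
    _ ≤ bs_kap * ((1 / (48 * D ^ 2)) * D * ‖p - q‖) := by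
        unfold bs_kap; gcongr
    _ = _ := by ring

lemma bs_inner_gwi_lip (D : ℝ) (hD : 1 ≤ D) (e p q : E d) (he : ‖e‖ ≤ 1) (hp : ‖p‖ ≤ D) (hq : ‖q‖ ≤ D) :
    |⟪p, e⟫_ℝ * bs_gwi (1 / (48 * D ^ 2)) p - ⟪q, e⟫_ℝ * bs_gwi (1 / (48 * D ^ 2)) q| ≤ 2 * ‖p - q‖ := by
  have hD0 : 0 < D := by linarith
  set G := bs_gwi (d := d) (1 / (48 * D ^ 2)) with hG
  have e1 : ⟪p, e⟫_ℝ * G p - ⟪q, e⟫_ℝ * G q = ⟪p - q, e⟫_ℝ * G p + ⟪q, e⟫_ℝ * (G p - G q) := by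
    rw [inner_sub_left]; ring
  have h1 : |⟪p - q, e⟫_ℝ| ≤ ‖p - q‖ := by
    calc |⟪p - q, e⟫_ℝ| ≤ ‖p - q‖ * ‖e‖ := abs_real_inner_le_norm _ _
      _ ≤ ‖p - q‖ * 1 := by gcongr
      _ = _ := mul_one _
  have h2 : |⟪q, e⟫_ℝ| ≤ D := by
    calc |⟪q, e⟫_ℝ| ≤ ‖q‖ * ‖e‖ := abs_real_inner_le_norm _ _
      _ ≤ D * 1 := by gcongr
      _ = _ := mul_one _
  have h3 := bs_gwi_lip D hD p q hp hq
  have h4 : |G p| ≤ bs_kap := by
    rw [abs_of_pos (bs_gwi_pos _ p)]; exact bs_gwi_le_kap D hD p hp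
  have hk := bs_kap_le
  have hk0 := bs_kap_pos
  rw [e1]
  calc |⟪p - q, e⟫_ℝ * G p + ⟪q, e⟫_ℝ * (G p - G q)|
      ≤ |⟪p - q, e⟫_ℝ| * |G p| + |⟪q, e⟫_ℝ| * |G p - G q| := by
        rw [← abs_mul, ← abs_mul]; exact abs_add_le _ _
    _ ≤ ‖p - q‖ * bs_kap + D * (bs_kap * (1 / (48 * D ^ 2)) * D * ‖p - q‖) := by gcongr
    _ = bs_kap * (1 + 1 / 48) * ‖p - q‖ := by field_simp
    _ ≤ 2 * ‖p - q‖ := by
        gcongr
        nlinarith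

/-! ### selections -/

lemma bs_measurable_comp_sel (S : Finset (E d)) (T : E d → E d) (hT : Measurable T) (hTS : ∀ x, T x ∈ S)
    (c : E d → ℝ) : Measurable (fun x => c (T x)) := by
  have : (fun x => c (T x)) = fun x => ∑ y ∈ S, if T x = y then c y else 0 := by
    ext x
    rw [Finset.sum_ite_eq]
    simp [hTS x]
  rw [this]
  refine Finset.measurable_sum _ (fun y _ => ?_)
  exact Measurable.ite (hT (measurableSet_singleton y)) measurable_const measurable_const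

lemma bs_setIntegral_sel_smul {V : Type*} [NormedAddCommGroup V] [NormedSpace ℝ V]
    (μ : Measure (E d)) (T : E d → E d) (hT : Measurable T) (A : Set (E d)) (y : E d)
    (hP : T ⁻¹' {y} =ᵐ[μ] A) (c : E d → ℝ) (F : E d → V) :
    ∫ x in A, c (T x) • F x ∂μ = c y • ∫ x in A, F x ∂μ := by
  rw [← setIntegral_congr_set hP, ← setIntegral_congr_set hP, ← integral_smul]
  refine setIntegral_congr_fun (hT (measurableSet_singleton y)) (fun x hx => ?_)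
  have : T x = y := hx
  simp [this]

lemma bs_integral_sel_smul {V : Type*} [NormedAddCommGroup V] [NormedSpace ℝ V]
    (μ : Measure (E d)) (S : Finset (E d)) (T : E d → E d) (hT : Measurable T) (hTS : ∀ x, T x ∈ S)
    (A : E d → Set (E d)) (hP : ∀ y ∈ S, T ⁻¹' {y} =ᵐ[μ] A y) (c : E d → ℝ) (F : E d → V)
    (hF : Integrable (fun x => c (T x) • F x) μ) :
    ∫ x, c (T x) • F x ∂μ = ∑ y ∈ S, c y • ∫ x in A y, F x ∂μ := by
  have hU : (⋃ y ∈ S, T ⁻¹' {y}) = Set.univ := by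
    ext x; simp [hTS x]
  rw [← setIntegral_univ, ← hU, integral_biUnion_finset S
    (fun y _ => hT (measurableSet_singleton y)) ?_ (fun y _ => hF.integrableOn)]
  · refine Finset.sum_congr rfl (fun y hy => ?_)
    rw [setIntegral_congr_set (hP y hy)]
    exact bs_setIntegral_sel_smul μ T hT (A y) y (hP y hy) c F
  · intro y _ y' _ hne
    refine Set.disjoint_left.mpr (fun x hx hx' => hne ?_)
    have h1 : T x = y := hx
    have h2 : T x = y' := hx'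
    rw [← h1, h2]

/-- scaled form of `gen_talagrand`. -/
theorem bs_gt_scaled (K : Set (E d)) (hKc : IsCompact K) (hKv : Convex ℝ K) (hKi : (interior K).Nonempty)
    (lam : ℝ) (hlam : 0 < lam) (S : Finset (E d)) (hS : S.Nonempty) (ψ0 ψ1 : E d → ℝ)
    (f : E d → ℝ) (hf : Measurable f) (a b : ℝ) (ha : 0 < a) (hfa : ∀ x, a ≤ f x) (hfb : ∀ x, f x ≤ b)
    (mt : E d → ℝ) (hmt : ∀ y ∈ S, 0 < mt y)
    (h0 : ∀ y ∈ S, ∫ x in cell S ψ0 y, gw lam x ∂(rho K) = mt y)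
    (h1 : ∀ y ∈ S, ∫ x in cell S ψ1 y, f x * gw lam x ∂(rho K) = mt y)
    (L : ℝ) (hL : 0 < L)
    (v : E d → E d → ℝ) (hvm : ∀ y, Measurable (v y))
    (hvl : ∀ y ∈ S, ∀ p ∈ K, ∀ q ∈ K, |v y p - v y q| ≤ L * ‖p - q‖) :
    ∑ y ∈ S, (mt y)⁻¹ *
        ((∫ x in cell S ψ1 y, v y x * (f x * gw lam x) ∂(rho K)) - ∫ x in cell S ψ0 y, v y x * gw lam x ∂(rho K)) ^ 2
      ≤ (4 * L ^ 2 / lam) * ∫ x, (f x - 1) ^ 2 * gw lam x ∂(rho K) := by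
  have h := gen_talagrand K hKc hKv hKi lam hlam S hS ψ0 ψ1 f hf a b ha hfa hfb mt hmt h0 h1
    (fun y x => L⁻¹ * v y x) (fun y => (hvm y).const_mul _) (by
      intro y hy p hp q hq
      rw [← mul_sub, abs_mul, abs_of_pos (inv_pos.mpr hL)]
      calc L⁻¹ * |v y p - v y q| ≤ L⁻¹ * (L * ‖p - q‖) := by
            gcongr; exact hvl y hy p hp q hq
        _ = ‖p - q‖ := by field_simp)
  have e : ∀ y, (∫ x in cell S ψ1 y, L⁻¹ * v y x * (f x * gw lam x) ∂(rho K))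
      - ∫ x in cell S ψ0 y, L⁻¹ * v y x * gw lam x ∂(rho K)
      = L⁻¹ * ((∫ x in cell S ψ1 y, v y x * (f x * gw lam x) ∂(rho K))
        - ∫ x in cell S ψ0 y, v y x * gw lam x ∂(rho K)) := by
    intro y
    rw [mul_sub, ← integral_const_mul, ← integral_const_mul]
    simp only [mul_assoc]
  simp only [e] at h
  have e2 : (lam / 4) * ∑ y ∈ S, (mt y)⁻¹ * (L⁻¹ * ((∫ x in cell S ψ1 y, v y x * (f x * gw lam x) ∂(rho K))
        - ∫ x in cell S ψ0 y, v y x * gw lam x ∂(rho K))) ^ 2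
      = (lam / (4 * L ^ 2)) * ∑ y ∈ S, (mt y)⁻¹ * ((∫ x in cell S ψ1 y, v y x * (f x * gw lam x) ∂(rho K))
        - ∫ x in cell S ψ0 y, v y x * gw lam x ∂(rho K)) ^ 2 := by
    rw [Finset.mul_sum, Finset.mul_sum]
    refine Finset.sum_congr rfl (fun y _ => ?_)
    field_simp
  rw [e2] at h
  have hpos : 0 < lam / (4 * L ^ 2) := by positivity
  calc _ = (4 * L ^ 2 / lam) * ((lam / (4 * L ^ 2)) * ∑ y ∈ S, (mt y)⁻¹ *
        ((∫ x in cell S ψ1 y, v y x * (f x * gw lam x) ∂(rho K))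
          - ∫ x in cell S ψ0 y, v y x * gw lam x ∂(rho K)) ^ 2) := by
        field_simp
    _ ≤ _ := by gcongr

set_option maxHeartbeats 4000000 in
theorem bary_stab (K : Set (E d)) (hKc : IsCompact K) (hKv : Convex ℝ K) (hKi : (interior K).Nonempty) :
    ∃ C : ℝ, 0 ≤ C ∧ ∀ (S : Finset (E d)) (ψ0 ψ1 : E d → ℝ) (η : E d → ℝ) (m : E d → ℝ),
      S.Nonempty → Measurable η → (∀ x, |η x| ≤ 1 / 2) →
      (∀ y ∈ S, 0 < m y) →
      (∀ y ∈ S, ∫ _x in cell S ψ0 y, (1 : ℝ) ∂(rho K) = m y) →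
      (∀ y ∈ S, ∫ x in cell S ψ1 y, (1 + η x) ∂(rho K) = m y) →
      ∑ y ∈ S, (m y)⁻¹ *
          ‖(∫ x in cell S ψ1 y, (1 + η x) • x ∂(rho K)) - ∫ x in cell S ψ0 y, x ∂(rho K)‖ ^ 2
        ≤ C * ∫ x, η x ^ 2 ∂(rho K) := by
  obtain ⟨D0, hD0⟩ := hKc.isBounded.exists_norm_le
  obtain ⟨D, hD, hKD⟩ : ∃ D : ℝ, 1 ≤ D ∧ ∀ x ∈ K, ‖x‖ ≤ D :=
    ⟨max D0 1, le_max_right _ _, fun x hx => (hD0 x hx).trans (le_max_left _ _)⟩
  have hDpos : 0 < D := by linarith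
  refine ⟨6148 * D ^ 2, by positivity, ?_⟩
  intro S ψ0 ψ1 η m hS hη hηb hm h0 h1
  have hprob := isProbabilityMeasure_rho K hKc hKi
  obtain ⟨lam, hlam⟩ : ∃ lam : ℝ, lam = 1 / (48 * D ^ 2) := ⟨_, rfl⟩
  have hlam0 : 0 < lam := by rw [hlam]; positivity
  have hKae : ∀ᵐ x ∂(rho K), x ∈ K := by
    have := rho_compl K hKc
    exact (measure_eq_zero_iff_ae_notMem.mp this).mono (fun x hx => by simpa using hx)
  have hη1 : ∀ x, 1 / 2 ≤ 1 + η x := fun x => by have := (abs_le.mp (hηb x)).1; linarith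
  have hη2 : ∀ x, 1 + η x ≤ 3 / 2 := fun x => by have := (abs_le.mp (hηb x)).2; linarith
  have hk0 := bs_kap_pos
  have hk1 := bs_one_le_kap
  have hk2 := bs_kap_le
  have hki : (95 : ℝ) / 96 ≤ bs_kap⁻¹ := by
    rw [le_inv_comm₀ (by norm_num) hk0]; norm_num; linarith
  have hki1 : bs_kap⁻¹ ≤ 1 := inv_le_one_of_one_le₀ hk1
  have hint : ∀ (F : E d → ℝ), Measurable F → ∀ B : ℝ, (∀ x ∈ K, |F x| ≤ B) → Integrable F (rho K) := by
    intro F hF B hB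
    exact Integrable.of_bound hF.aestronglyMeasurable B (hKae.mono fun x hx => by
      rw [Real.norm_eq_abs]; exact hB x hx)
  have hmono : ∀ (A : Set (E d)) (F G : E d → ℝ), Integrable F (rho K) → Integrable G (rho K) →
      (∀ x ∈ K, F x ≤ G x) → ∫ x in A, F x ∂(rho K) ≤ ∫ x in A, G x ∂(rho K) := by
    intro A F G hF hG h
    exact setIntegral_mono_ae hF.integrableOn hG.integrableOn (hKae.mono h)
  have hgw1 : ∀ x : E d, gw lam x ≤ 1 := bs_gw_le_one lam hlam0.le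
  have hgwk : ∀ x ∈ K, bs_kap⁻¹ ≤ gw lam x := fun x hx => by
    rw [hlam]; exact bs_inv_kap_le_gw D hD x (hKD x hx)
  have hmη : Measurable (fun x => 1 + η x) := measurable_const.add hη
  have hi_gw : Integrable (gw lam : E d → ℝ) (rho K) := hint _ (bs_measurable_gw lam) 1
    (fun x _ => by rw [abs_of_pos (bs_gw_pos _ _)]; exact hgw1 x)
  have hi_one : Integrable (fun _ : E d => (1 : ℝ)) (rho K) := integrable_const _
  have hi_η : Integrable (fun x => 1 + η x) (rho K) := hint _ hmη (3 / 2)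
    (fun x _ => by rw [abs_of_nonneg (by linarith [hη1 x])]; exact hη2 x)
  have hi_ηgw : Integrable (fun x => (1 + η x) * gw lam x) (rho K) :=
    hint _ (hmη.mul (bs_measurable_gw lam)) (3 / 2) (fun x _ => by
      have h1 := hη1 x; have h2 := hη2 x; have h3 := bs_gw_pos lam x; have h4 := hgw1 x
      rw [abs_of_nonneg (by positivity)]
      nlinarith)
  obtain ⟨T, hT, hTS, hsel⟩ := exists_selection S hS ψ1
  have hac : rho K ≪ volume :=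
    (rho_absolutelyContinuous K).trans Measure.restrict_le_self.absolutelyContinuous
  have hP := (map_selection (rho K) hac S ψ1 T hT hTS hsel).1
  obtain ⟨mt, hmt⟩ : ∃ mt : E d → ℝ, mt = fun y => ∫ x in cell S ψ0 y, gw lam x ∂(rho K) := ⟨_, rfl⟩
  obtain ⟨nn, hnn⟩ : ∃ nn : E d → ℝ,
    nn = fun y => ∫ x in cell S ψ1 y, (1 + η x) * gw lam x ∂(rho K) := ⟨_, rfl⟩
  have hmt_le : ∀ y ∈ S, mt y ≤ m y := by
    intro y hy
    rw [← h0 y hy, hmt]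
    exact hmono _ _ _ hi_gw hi_one (fun x _ => hgw1 x)
  have hmt_ge : ∀ y ∈ S, bs_kap⁻¹ * m y ≤ mt y := by
    intro y hy
    rw [← h0 y hy, hmt, ← integral_const_mul]
    exact hmono _ _ _ (hi_one.const_mul _) hi_gw (fun x hx => by simpa using hgwk x hx)
  have hnn_le : ∀ y ∈ S, nn y ≤ m y := by
    intro y hy
    rw [← h1 y hy, hnn]
    exact hmono _ _ _ hi_ηgw hi_η (fun x _ => by
      have h1 := hη1 x; have h4 := hgw1 x; nlinarith)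
  have hnn_ge : ∀ y ∈ S, bs_kap⁻¹ * m y ≤ nn y := by
    intro y hy
    rw [← h1 y hy, hnn, ← integral_const_mul]
    exact hmono _ _ _ (hi_η.const_mul _) hi_ηgw (fun x hx => by
      have h1 := hη1 x; have h4 := hgwk x hx; nlinarith)
  have hmt0 : ∀ y ∈ S, 0 < mt y := fun y hy =>
    lt_of_lt_of_le (mul_pos (inv_pos.mpr hk0) (hm y hy)) (hmt_ge y hy)
  have hnn0 : ∀ y ∈ S, 0 < nn y := fun y hy =>
    lt_of_lt_of_le (mul_pos (inv_pos.mpr hk0) (hm y hy)) (hnn_ge y hy)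
  obtain ⟨r, hr⟩ : ∃ r : E d → ℝ, r = fun y => mt y / nn y := ⟨_, rfl⟩
  have hr_le : ∀ y ∈ S, r y ≤ bs_kap := by
    intro y hy
    rw [hr]; show mt y / nn y ≤ bs_kap
    rw [div_le_iff₀ (hnn0 y hy)]
    calc mt y ≤ m y := hmt_le y hy
      _ = bs_kap * (bs_kap⁻¹ * m y) := by field_simp
      _ ≤ bs_kap * nn y := by gcongr; exact hnn_ge y hy
  have hr_ge : ∀ y ∈ S, bs_kap⁻¹ ≤ r y := by
    intro y hy
    rw [hr]; show bs_kap⁻¹ ≤ mt y / nn y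
    rw [le_div_iff₀ (hnn0 y hy)]
    calc bs_kap⁻¹ * nn y ≤ bs_kap⁻¹ * m y := by gcongr; exact hnn_le y hy
      _ ≤ mt y := hmt_ge y hy
  have hrnn : ∀ y ∈ S, r y * nn y = mt y := by
    intro y hy
    rw [hr]; exact div_mul_cancel₀ _ (hnn0 y hy).ne'
  obtain ⟨f, hf⟩ : ∃ f : E d → ℝ, f = fun x => r (T x) * (1 + η x) := ⟨_, rfl⟩
  have hrTm : Measurable (fun x => r (T x)) := bs_measurable_comp_sel S T hT hTS r
  have hfm : Measurable f := by rw [hf]; exact hrTm.mul hmη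
  have hfa : ∀ x, 1 / 4 ≤ f x := by
    intro x
    rw [hf]; show 1 / 4 ≤ r (T x) * (1 + η x)
    have h1 := hη1 x; have h2 := hr_ge (T x) (hTS x)
    nlinarith
  have hfb : ∀ x, f x ≤ 2 := by
    intro x
    rw [hf]; show r (T x) * (1 + η x) ≤ 2
    have h1 := hη1 x; have h1' := hη2 x; have h2 := hr_le (T x) (hTS x)
    have h3 := hr_ge (T x) (hTS x)
    nlinarith
  have h0' : ∀ y ∈ S, ∫ x in cell S ψ0 y, gw lam x ∂(rho K) = mt y := fun y _ => by rw [hmt]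
  have h1' : ∀ y ∈ S, ∫ x in cell S ψ1 y, f x * gw lam x ∂(rho K) = mt y := by
    intro y hy
    have := bs_setIntegral_sel_smul (rho K) T hT (cell S ψ1 y) y (hP y hy) r
      (fun x => (1 + η x) * gw lam x)
    simp only [smul_eq_mul] at this
    rw [← hrnn y hy, hnn, ← this, hf]
    simp only [mul_assoc]
  -- the quantity `X`
  obtain ⟨X, hX⟩ : ∃ X : ℝ, X = ∫ x, (f x - 1) ^ 2 * gw lam x ∂(rho K) := ⟨_, rfl⟩
  obtain ⟨I, hI⟩ : ∃ I : ℝ, I = ∫ x, η x ^ 2 ∂(rho K) := ⟨_, rfl⟩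
  obtain ⟨A, hA⟩ : ∃ A : ℝ, A = ∑ y ∈ S, (r y - 1) ^ 2 * m y := ⟨_, rfl⟩
  have hX0 : 0 ≤ X := by
    rw [hX]; exact integral_nonneg (fun x => mul_nonneg (sq_nonneg _) (bs_gw_pos _ _).le)
  have hgg : ∀ x : E d, bs_gwi lam x * gw lam x = 1 := bs_gwi_mul_gw lam
  have hintf : ∀ y ∈ S, ∫ x in cell S ψ1 y, f x ∂(rho K) = r y * m y := by
    intro y hy
    have := bs_setIntegral_sel_smul (rho K) T hT (cell S ψ1 y) y (hP y hy) r (fun x => 1 + η x)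
    simp only [smul_eq_mul] at this
    rw [← h1 y hy, ← this, hf]
  -- Step 1
  have G1 := bs_gt_scaled K hKc hKv hKi lam hlam0 S hS ψ0 ψ1 f hfm (1 / 4) 2 (by norm_num) hfa hfb mt hmt0
    h0' h1' (bs_kap * lam * D) (by positivity) (fun _ => bs_gwi lam) (fun _ => bs_measurable_gwi lam)
    (fun y _ p hp q hq => by rw [hlam]; exact bs_gwi_lip D hD p q (hKD p hp) (hKD q hq))
  have hΔ1 : ∀ y ∈ S, (∫ x in cell S ψ1 y, bs_gwi lam x * (f x * gw lam x) ∂(rho K))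
      - ∫ x in cell S ψ0 y, bs_gwi lam x * gw lam x ∂(rho K) = (r y - 1) * m y := by
    intro y hy
    have e1 : ∀ x : E d, bs_gwi lam x * (f x * gw lam x) = f x := fun x => by
      calc bs_gwi lam x * (f x * gw lam x) = f x * (bs_gwi lam x * gw lam x) := by ring
        _ = f x := by rw [hgg]; ring
    simp only [e1, hgg]
    rw [hintf y hy, h0 y hy]; ring
  have hA_le : A ≤ bs_kap ^ 2 / 12 * X := by
    have e : 4 * (bs_kap * lam * D) ^ 2 / lam = bs_kap ^ 2 / 12 := by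
      rw [hlam]; field_simp; norm_num
    rw [e, ← hX] at G1
    refine le_trans ?_ G1
    rw [hA]
    refine Finset.sum_le_sum (fun y hy => ?_)
    rw [hΔ1 y hy]
    have h1 := hmt0 y hy; have h2 := hmt_le y hy; have h3 := hm y hy
    have h4 : 1 ≤ (mt y)⁻¹ * m y := by
      rw [← div_eq_inv_mul, le_div_iff₀ h1]; linarith
    calc (r y - 1) ^ 2 * m y = (r y - 1) ^ 2 * m y * 1 := by ring
      _ ≤ (r y - 1) ^ 2 * m y * ((mt y)⁻¹ * m y) := by gcongr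
      _ = (mt y)⁻¹ * ((r y - 1) * m y) ^ 2 := by ring
  -- Step 2
  have hr1 : ∀ x, (r (T x) - 1) ^ 2 ≤ 1 := by
    intro x
    have h2 := hr_le (T x) (hTS x); have h3 := hr_ge (T x) (hTS x)
    have : |r (T x) - 1| ≤ 1 := by rw [abs_le]; constructor <;> linarith
    calc (r (T x) - 1) ^ 2 = |r (T x) - 1| ^ 2 := (sq_abs _).symm
      _ ≤ 1 ^ 2 := by gcongr
      _ = 1 := by norm_num
  have hi_c : Integrable (fun x => (r (T x) - 1) ^ 2 • (1 + η x)) (rho K) := by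
    refine hint _ (((hrTm.sub_const 1).pow_const 2).smul hmη) (3 / 2) (fun x _ => ?_)
    have h1 := hη1 x; have h2 := hη2 x; have h3 := hr1 x
    rw [smul_eq_mul, abs_of_nonneg (by positivity)]
    nlinarith [sq_nonneg (r (T x) - 1)]
  have hi_η2 : Integrable (fun x => η x ^ 2) (rho K) := by
    refine hint _ (hη.pow_const 2) (1 / 4) (fun x _ => ?_)
    rw [abs_of_nonneg (sq_nonneg _), ← sq_abs]
    calc |η x| ^ 2 ≤ (1 / 2) ^ 2 := by gcongr; exact hηb x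
      _ = 1 / 4 := by norm_num
  have hi_X : Integrable (fun x => (f x - 1) ^ 2 * gw lam x) (rho K) := by
    refine hint _ (((hfm.sub_const 1).pow_const 2).mul (bs_measurable_gw lam)) 1 (fun x _ => ?_)
    have h1 := hfa x; have h2 := hfb x; have h3 := bs_gw_pos lam x; have h4 := hgw1 x
    rw [abs_of_nonneg (by positivity)]
    have : (f x - 1) ^ 2 ≤ 1 := by nlinarith
    nlinarith [sq_nonneg (f x - 1)]
  have hsumA : ∫ x, (r (T x) - 1) ^ 2 • (1 + η x) ∂(rho K) = A := by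
    have := bs_integral_sel_smul (rho K) S T hT hTS (fun y => cell S ψ1 y) hP (fun y => (r y - 1) ^ 2)
      (fun x => 1 + η x) hi_c
    rw [this, hA]
    refine Finset.sum_congr rfl (fun y hy => ?_)
    rw [h1 y hy, smul_eq_mul]
  have hX_le : X ≤ 3 * A + 2 * I := by
    rw [hX, ← hsumA, hI, ← integral_const_mul, ← integral_const_mul, ← integral_add
      (hi_c.const_mul 3) (hi_η2.const_mul 2)]
    refine integral_mono hi_X ((hi_c.const_mul 3).add (hi_η2.const_mul 2)) (fun x => ?_)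
    have h1 := hη1 x; have h2 := hη2 x; have h3 := bs_gw_pos lam x; have h4 := hgw1 x
    show (f x - 1) ^ 2 * gw lam x ≤ 3 * ((r (T x) - 1) ^ 2 • (1 + η x)) + 2 * η x ^ 2
    rw [smul_eq_mul]
    have e : f x - 1 = (r (T x) - 1) * (1 + η x) + η x := by rw [hf]; ring
    have h5 : (f x - 1) ^ 2 ≤ 2 * ((r (T x) - 1) * (1 + η x)) ^ 2 + 2 * η x ^ 2 := by
      rw [e]; nlinarith [sq_nonneg ((r (T x) - 1) * (1 + η x) - η x)]
    have h6 : ((r (T x) - 1) * (1 + η x)) ^ 2 ≤ (r (T x) - 1) ^ 2 * ((3 / 2) * (1 + η x)) := by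
      rw [mul_pow]
      have : (1 + η x) ^ 2 ≤ (3 / 2) * (1 + η x) := by nlinarith
      gcongr
    calc (f x - 1) ^ 2 * gw lam x ≤ (f x - 1) ^ 2 * 1 := by gcongr
      _ ≤ 3 * ((r (T x) - 1) ^ 2 * (1 + η x)) + 2 * η x ^ 2 := by linarith
  have hk22 : bs_kap ^ 2 ≤ 2 := by nlinarith
  have hX4 : X ≤ 4 * I := by nlinarith
  -- Step 3
  obtain ⟨β1, hβ1⟩ : ∃ β1 : E d → E d,
    β1 = fun y => ∫ x in cell S ψ1 y, (1 + η x) • x ∂(rho K) := ⟨_, rfl⟩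
  obtain ⟨β0, hβ0⟩ : ∃ β0 : E d → E d, β0 = fun y => ∫ x in cell S ψ0 y, x ∂(rho K) := ⟨_, rfl⟩
  obtain ⟨e, he⟩ : ∃ e : E d → E d, e = fun y => ‖β1 y - β0 y‖⁻¹ • (β1 y - β0 y) := ⟨_, rfl⟩
  have he1 : ∀ y, ‖e y‖ ≤ 1 := by
    intro y
    rw [he]; show ‖‖β1 y - β0 y‖⁻¹ • (β1 y - β0 y)‖ ≤ 1
    rw [norm_smul, norm_inv, norm_norm]
    exact inv_mul_le_one
  have hwe : ∀ y, ⟪β1 y - β0 y, e y⟫_ℝ = ‖β1 y - β0 y‖ := by
    intro y
    rw [he]; show ⟪β1 y - β0 y, ‖β1 y - β0 y‖⁻¹ • (β1 y - β0 y)⟫_ℝ = ‖β1 y - β0 y‖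
    rw [inner_smul_right, real_inner_self_eq_norm_sq]
    by_cases h : ‖β1 y - β0 y‖ = 0
    · rw [h]; simp
    · field_simp
  have hi_x : Integrable (fun x : E d => x) (rho K) :=
    Integrable.of_bound measurable_id.aestronglyMeasurable D (hKae.mono fun x hx => hKD x hx)
  have hi_ηx : Integrable (fun x : E d => (1 + η x) • x) (rho K) := by
    refine Integrable.of_bound (hmη.smul measurable_id).aestronglyMeasurable (3 / 2 * D)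
      (hKae.mono fun x hx => ?_)
    rw [norm_smul, Real.norm_eq_abs, abs_of_nonneg (by linarith [hη1 x])]
    have := hKD x hx; have h2 := hη2 x
    gcongr
  have G2 := bs_gt_scaled K hKc hKv hKi lam hlam0 S hS ψ0 ψ1 f hfm (1 / 4) 2 (by norm_num) hfa hfb mt hmt0
    h0' h1' 2 (by norm_num) (fun y x => ⟪x, e y⟫_ℝ * bs_gwi lam x)
    (fun y => (measurable_id.inner measurable_const).mul (bs_measurable_gwi lam))
    (fun y _ p hp q hq => by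
      rw [hlam]; exact bs_inner_gwi_lip D hD (e y) p q (he1 y) (hKD p hp) (hKD q hq))
  have hΔ2 : ∀ y ∈ S, (∫ x in cell S ψ1 y, ⟪x, e y⟫_ℝ * bs_gwi lam x * (f x * gw lam x) ∂(rho K))
      - ∫ x in cell S ψ0 y, ⟪x, e y⟫_ℝ * bs_gwi lam x * gw lam x ∂(rho K)
      = r y * ⟪β1 y, e y⟫_ℝ - ⟪β0 y, e y⟫_ℝ := by
    intro y hy
    have e1 : ∀ x : E d, ⟪x, e y⟫_ℝ * bs_gwi lam x * (f x * gw lam x)
        = r (T x) • ⟪e y, (1 + η x) • x⟫_ℝ := fun x => by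
      have hfx : f x = r (T x) * (1 + η x) := by rw [hf]
      rw [inner_smul_right, smul_eq_mul, real_inner_comm x (e y), hfx]
      calc ⟪x, e y⟫_ℝ * bs_gwi lam x * (r (T x) * (1 + η x) * gw lam x)
          = r (T x) * ((1 + η x) * ⟪x, e y⟫_ℝ) * (bs_gwi lam x * gw lam x) := by ring
        _ = _ := by rw [hgg]; ring
    have e2 : ∀ x : E d, ⟪x, e y⟫_ℝ * bs_gwi lam x * gw lam x = ⟪e y, x⟫_ℝ := fun x => by
      rw [mul_assoc, hgg, mul_one, real_inner_comm]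
    simp only [e1, e2]
    rw [bs_setIntegral_sel_smul (rho K) T hT (cell S ψ1 y) y (hP y hy) r,
      integral_inner hi_ηx.integrableOn, integral_inner hi_x.integrableOn, smul_eq_mul,
      real_inner_comm (e y) (β1 y), real_inner_comm (e y) (β0 y), hβ1, hβ0]
  have hβ1n : ∀ y ∈ S, ‖β1 y‖ ≤ D * m y := by
    intro y hy
    rw [hβ1, ← h1 y hy, ← integral_const_mul]
    refine (norm_integral_le_integral_norm _).trans ?_
    refine hmono _ _ _ hi_ηx.norm (hi_η.const_mul D) (fun x hx => ?_)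
    rw [norm_smul, Real.norm_eq_abs, abs_of_nonneg (by linarith [hη1 x]), mul_comm]
    have := hKD x hx; have h2 := hη1 x
    gcongr
  have hterm : ∀ y ∈ S, (m y)⁻¹ * ‖β1 y - β0 y‖ ^ 2
      ≤ 2 * ((mt y)⁻¹ * ((∫ x in cell S ψ1 y, ⟪x, e y⟫_ℝ * bs_gwi lam x * (f x * gw lam x) ∂(rho K))
      - ∫ x in cell S ψ0 y, ⟪x, e y⟫_ℝ * bs_gwi lam x * gw lam x ∂(rho K)) ^ 2)
        + 2 * D ^ 2 * ((r y - 1) ^ 2 * m y) := by
    intro y hy
    rw [hΔ2 y hy]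
    set Δ := r y * ⟪β1 y, e y⟫_ℝ - ⟪β0 y, e y⟫_ℝ with hΔ
    have hmy := hm y hy
    have h1 : ‖β1 y - β0 y‖ = Δ - (r y - 1) * ⟪β1 y, e y⟫_ℝ := by
      rw [← hwe y, inner_sub_left, hΔ]; ring
    have h2 : |⟪β1 y, e y⟫_ℝ| ≤ D * m y := by
      calc |⟪β1 y, e y⟫_ℝ| ≤ ‖β1 y‖ * ‖e y‖ := abs_real_inner_le_norm _ _
        _ ≤ (D * m y) * 1 := by
            gcongr
            · exact hβ1n y hy
            · exact he1 y
        _ = _ := mul_one _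
    have h3 : ⟪β1 y, e y⟫_ℝ ^ 2 ≤ (D * m y) ^ 2 := by
      rw [← sq_abs]; gcongr
    have h4 : ‖β1 y - β0 y‖ ^ 2 ≤ 2 * Δ ^ 2 + 2 * ((r y - 1) ^ 2 * (D * m y) ^ 2) := by
      rw [h1]
      have : ((r y - 1) * ⟪β1 y, e y⟫_ℝ) ^ 2 ≤ (r y - 1) ^ 2 * (D * m y) ^ 2 := by
        rw [mul_pow]; gcongr
      nlinarith [sq_nonneg (Δ + (r y - 1) * ⟪β1 y, e y⟫_ℝ)]
    have h5 : (m y)⁻¹ ≤ (mt y)⁻¹ := inv_anti₀ (hmt0 y hy) (hmt_le y hy)
    calc (m y)⁻¹ * ‖β1 y - β0 y‖ ^ 2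
        ≤ (m y)⁻¹ * (2 * Δ ^ 2 + 2 * ((r y - 1) ^ 2 * (D * m y) ^ 2)) := by gcongr
      _ = 2 * ((m y)⁻¹ * Δ ^ 2) + 2 * D ^ 2 * ((r y - 1) ^ 2 * m y) := by field_simp
      _ ≤ 2 * ((mt y)⁻¹ * Δ ^ 2) + 2 * D ^ 2 * ((r y - 1) ^ 2 * m y) := by gcongr
  have hI0 : 0 ≤ I := by rw [hI]; exact integral_nonneg (fun x => sq_nonneg _)
  have e48 : 4 * (2 : ℝ) ^ 2 / lam = 768 * D ^ 2 := by
    rw [hlam]; field_simp; norm_num
  rw [e48, ← hX] at G2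
  have hfinal : ∑ y ∈ S, (m y)⁻¹ * ‖β1 y - β0 y‖ ^ 2 ≤ 6148 * D ^ 2 * I := by
    calc ∑ y ∈ S, (m y)⁻¹ * ‖β1 y - β0 y‖ ^ 2
        ≤ ∑ y ∈ S, (2 * ((mt y)⁻¹ * ((∫ x in cell S ψ1 y, ⟪x, e y⟫_ℝ * bs_gwi lam x * (f x * gw lam x) ∂(rho K))
      - ∫ x in cell S ψ0 y, ⟪x, e y⟫_ℝ * bs_gwi lam x * gw lam x ∂(rho K)) ^ 2)
        + 2 * D ^ 2 * ((r y - 1) ^ 2 * m y)) := Finset.sum_le_sum hterm
      _ = 2 * ∑ y ∈ S, ((mt y)⁻¹ * ((∫ x in cell S ψ1 y, ⟪x, e y⟫_ℝ * bs_gwi lam x * (f x * gw lam x) ∂(rho K))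
      - ∫ x in cell S ψ0 y, ⟪x, e y⟫_ℝ * bs_gwi lam x * gw lam x ∂(rho K)) ^ 2)
        + 2 * D ^ 2 * A := by
          rw [Finset.sum_add_distrib, ← Finset.mul_sum, ← Finset.mul_sum, hA]
      _ ≤ 2 * (768 * D ^ 2 * X) + 2 * D ^ 2 * (bs_kap ^ 2 / 12 * X) := by gcongr
      _ = D ^ 2 * X * (1536 + bs_kap ^ 2 / 6) := by ring
      _ ≤ D ^ 2 * (4 * I) * (1536 + 2 / 6) := by gcongr
      _ ≤ 6148 * D ^ 2 * I := by nlinarith [mul_nonneg (sq_nonneg D) hI0]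
  rw [hβ1, hβ0, hI] at hfinal
  exact hfinal

end Crest.Agent.R82
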