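import Crest.Agent.R82.Defs

/-!
# Row 82, task CONJ: the conjugate `conj K φ z = sup_{w ∈ K} (⟪w,z⟫ - φ w)`
All statements are elementary (`K` compact nonempty, `φ` Lipschitz hence continuous, so the image set is bounded above).
-/

set_option autoImplicit false

namespace Crest.Agent.R82

open MeasureTheory
open scoped ENNReal NNReal InnerProductSpace

variable {d : ℕ}

theorem conj_bddAbove (K : Set (E d)) (hKc : IsCompact K) (φ : E d → ℝ) (hφ : Continuous φ) (z : E d) :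
    BddAbove ((fun w => ⟪w, z⟫_ℝ - φ w) '' K) :=
  (hKc.image (by fun_prop)).bddAbove

theorem fenchel (K : Set (E d)) (hKc : IsCompact K) (φ : E d → ℝ) (hφ : Continuous φ) (w z : E d) (hw : w ∈ K) :
    ⟪w, z⟫_ℝ ≤ φ w + conj K φ z := by
  have : ⟪w, z⟫_ℝ - φ w ≤ conj K φ z := le_csSup (conj_bddAbove K hKc φ hφ z) ⟨w, hw, rfl⟩
  linarith

theorem conj_le_add (K : Set (E d)) (hKc : IsCompact K) (hKn : K.Nonempty) (φ : E d → ℝ) (hφ : Continuous φ)
    (D : ℝ) (hD : ∀ x ∈ K, ‖x‖ ≤ D) (z z' : E d) :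
    conj K φ z ≤ conj K φ z' + D * ‖z - z'‖ := by
  apply csSup_le (hKn.image _)
  rintro _ ⟨w, hw, rfl⟩
  have h1 := fenchel K hKc φ hφ w z' hw
  have h2 : ⟪w, z⟫_ℝ = ⟪w, z'⟫_ℝ + ⟪w, z - z'⟫_ℝ := by rw [← inner_add_right]; congr 1; abel
  have h3 : ⟪w, z - z'⟫_ℝ ≤ D * ‖z - z'‖ :=
    (real_inner_le_norm _ _).trans (by gcongr; exact hD w hw)
  simp only
  linarith

theorem conj_lip (K : Set (E d)) (hKc : IsCompact K) (hKn : K.Nonempty) (φ : E d → ℝ) (hφ : Continuous φ)
    (D : ℝ) (hD : ∀ x ∈ K, ‖x‖ ≤ D) (z z' : E d) :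
    |conj K φ z - conj K φ z'| ≤ D * ‖z - z'‖ := by
  have h1 := conj_le_add K hKc hKn φ hφ D hD z z'
  have h2 := conj_le_add K hKc hKn φ hφ D hD z' z
  rw [norm_sub_rev] at h2
  rw [abs_le]; constructor <;> linarith

theorem continuous_conj (K : Set (E d)) (hKc : IsCompact K) (hKn : K.Nonempty) (φ : E d → ℝ) (hφ : Continuous φ) :
    Continuous (conj K φ) := by
  obtain ⟨D, hD⟩ := hKc.isBounded.exists_norm_le
  have : LipschitzWith (Real.toNNReal D) (conj K φ) := by
    apply LipschitzWith.of_dist_le_mul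
    intro x y
    rw [Real.dist_eq, dist_eq_norm]
    calc |conj K φ x - conj K φ y| ≤ D * ‖x - y‖ := conj_lip K hKc hKn φ hφ D hD x y
      _ ≤ (Real.toNNReal D : ℝ) * ‖x - y‖ := by
        gcongr
        exact Real.le_coe_toNNReal D
  exact this.continuous

theorem conj_eq (K : Set (E d)) (hKc : IsCompact K) (φ : E d → ℝ) (hφ : Continuous φ) (x y : E d) (hx : x ∈ K)
    (h : ∀ w, φ x + ⟪y, w - x⟫_ℝ ≤ φ w) : φ x + conj K φ y = ⟪x, y⟫_ℝ := by
  apply le_antisymm
  · have : conj K φ y ≤ ⟪x, y⟫_ℝ - φ x := by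
      apply csSup_le (Set.Nonempty.image _ ⟨x, hx⟩)
      rintro _ ⟨w, _, rfl⟩
      have h1 := h w
      rw [inner_sub_right, real_inner_comm w y, real_inner_comm x y] at h1
      simp only
      linarith
    linarith
  · exact fenchel K hKc φ hφ x y hx

theorem IsPot.continuous {K : Set (E d)} {R : ℝ} {φ : E d → ℝ} {T : E d → E d} (h : IsPot K R φ T) :
    Continuous φ := by
  have : LipschitzWith (Real.toNNReal R) φ := by
    apply LipschitzWith.of_dist_le_mul
    intro x y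
    rw [Real.dist_eq, dist_eq_norm]
    calc |φ x - φ y| ≤ R * ‖x - y‖ := h.lip x y
      _ ≤ (Real.toNNReal R : ℝ) * ‖x - y‖ := by
        gcongr
        exact Real.le_coe_toNNReal R
  exact this.continuous

theorem IsPot.mono {K : Set (E d)} {R R' : ℝ} {φ : E d → ℝ} {T : E d → E d} (h : IsPot K R φ T) (hR : R ≤ R') :
    IsPot K R' φ T := by
  refine ⟨h.measT, ?_, ?_, h.sub⟩
  · filter_upwards [h.bdd] with x hx using hx.trans hR
  · intro x w
    exact (h.lip x w).trans (by gcongr)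

theorem IsPot.conj_eq {K : Set (E d)} {R : ℝ} {φ : E d → ℝ} {T : E d → E d} (h : IsPot K R φ T)
    (hKc : IsCompact K) :
    ∀ᵐ x ∂(volume.restrict K), φ x + conj K φ (T x) = ⟪x, T x⟫_ℝ := by
  filter_upwards [h.sub, ae_restrict_mem hKc.measurableSet] with x hx hxK
  exact Crest.Agent.R82.conj_eq K hKc φ h.continuous x (T x) hxK hx

end Crest.Agent.R82
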