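import Crest.Agent.R82.Defs

/-!
# Row 82, tasks CYC + ROCK: an optimal map (optimal among MAPS) has a convex potential

Blueprint.  `ρ = rho K`, `T` optimal among measurable maps pushing `ρ` to `μ`, `μ` carried by `Y ⊆ closedBall 0 R`.
Let `Γ = supp ((id,T)_# ρ) ⊆ K × Y` (closed; `(x, T x) ∈ Γ` for `ρ`-a.e. `x`).

* `cyc_mono` : `Γ` is cyclically monotone: for every `n` and `(x_k,y_k) ∈ Γ` (`k : Fin (n+1)` or `ZMod`, cyclic successor),
  `∑ ⟪x_{k+1} - x_k, y_k⟫ ≤ 0`.
  Proof by contradiction: if the sum is `> δ > 0`, by continuity the same holds (with `δ/2`) on balls `B(x_k,r) × B(y_k,r)`.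
  `A_k = {x ∈ K ∩ B(x_k,r) | T x ∈ B(y_k,r)}` has positive volume.  Choose inductively translations `τ_k` (pairwise distinct,
  `τ_0 = 0`) with `F_k = F_{k-1} ∩ (A_k - τ_k)` of positive volume: `∫ vol(F ∩ (A - τ)) dτ = vol F * vol A > 0` (Tonelli), so the set of good
  `τ` has positive measure and is not contained in a finite set.  Shrink `F = F_n` to a small ball so that the sets `F + τ_k` are pairwise disjoint.
  Let `s` be the map which sends `F + τ_{k+1}` to `F + τ_k` by translation (cyclically) and is the identity elsewhere: it is measurable,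
  preserves `ρ`, hence `S = T ∘ s` pushes `ρ` to `μ`; `∫ ⟪x, S x⟫ - ⟪x, T x⟫ dρ = (vol K)⁻¹ ∫_F ∑_k ⟪(u+τ_{k+1}) - (u+τ_k), T (u+τ_k)⟫ du > 0`
  while `∫ ‖S x‖² dρ = ∫ ‖T x‖² dρ`, so `S` has strictly smaller cost: contradiction.
* `rockafellar` : fix `(x₀,y₀) ∈ Γ`, `φ w = sup` over finite chains in `Γ` of
  `⟪w - x_n, y_n⟫ + ⟪x_n - x_{n-1}, y_{n-1}⟫ + ... + ⟪x_1 - x_0, y_0⟫`.  Bounded above by `R * ‖w - x₀‖` (close the chain at `x₀`),
  `R`-Lipschitz as a sup of `R`-Lipschitz functions, and `φ w ≥ φ x + ⟪w - x, y⟫` for `(x,y) ∈ Γ`.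
-/

set_option autoImplicit false

namespace Crest.Agent.R82

open MeasureTheory Crest.AnalysisR.OT
open scoped ENNReal NNReal InnerProductSpace

variable {d : ℕ}

/-- cyclical monotonicity of a subset of `E d × E d`, chain form:
for every list of points of `Γ`, going around the cycle does not increase the correlation. -/
def CycMono (Γ : Set (E d × E d)) : Prop :=
  ∀ (n : ℕ) (z : Fin (n + 1) → E d × E d), (∀ k, z k ∈ Γ) →
    ∑ k : Fin (n + 1), ⟪(z (k + 1)).1 - (z k).1, (z k).2⟫_ℝ ≤ 0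

end Crest.Agent.R82
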