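-- Row 82, task CYC. Blueprint: see the header of CycDef.lean
import Crest.Agent.R82.CycDef

set_option autoImplicit false

namespace Crest.Agent.R82

open MeasureTheory Crest.AnalysisR.OT
open scoped ENNReal NNReal InnerProductSpace

variable {d : ℕ}

/-! ### Part 1: choice of translations -/

lemma lintegral_measure_inter_translate (F A : Set (E d)) (hF : MeasurableSet F)
    (hA : MeasurableSet A) :
    ∫⁻ t : E d, volume (F ∩ (fun u => u + t) ⁻¹' A) = volume F * volume A := by
  have h1 : ∀ t : E d, volume (F ∩ (fun u => u + t) ⁻¹' A)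
      = ∫⁻ u : E d, F.indicator 1 u * A.indicator 1 (u + t) := by
    intro t
    rw [← lintegral_indicator_one (hF.inter ((measurable_add_const t) hA))]
    refine lintegral_congr fun u => ?_
    by_cases h1 : u ∈ F <;> by_cases h2 : u + t ∈ A <;> simp [Set.indicator, h1, h2]
  simp_rw [h1]
  rw [lintegral_lintegral_swap]
  · have h2 : ∀ u : E d, ∫⁻ t : E d, F.indicator 1 u * A.indicator 1 (u + t)
        = F.indicator 1 u * volume A := by
      intro u
      rw [lintegral_const_mul' _ _ (by by_cases h : u ∈ F <;> simp [h]),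
        lintegral_add_left_eq_self (fun x => A.indicator (1 : E d → ℝ≥0∞) x) u,
        lintegral_indicator_one hA]
    simp_rw [h2]
    rw [lintegral_mul_const _ (measurable_one.indicator hF), lintegral_indicator_one hF]
  · refine Measurable.aemeasurable ?_
    exact ((measurable_one.indicator hF).comp measurable_snd).mul
      ((measurable_one.indicator hA).comp (measurable_snd.add measurable_fst))

lemma exists_translate_pos (F A : Set (E d)) (hF : MeasurableSet F)
    (hA : MeasurableSet A) (hF0 : 0 < volume F) (hA0 : 0 < volume A) :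
    0 < volume {t : E d | 0 < volume (F ∩ (fun u => u + t) ⁻¹' A)} := by
  rw [pos_iff_ne_zero]
  intro h0
  have h1 : ∀ᵐ t : E d, volume (F ∩ (fun u => u + t) ⁻¹' A) = 0 := by
    have : ∀ᵐ t : E d, t ∉ {t : E d | 0 < volume (F ∩ (fun u => u + t) ⁻¹' A)} :=
      measure_eq_zero_iff_ae_notMem.1 h0
    filter_upwards [this] with t ht
    simpa using ht
  have h2 := lintegral_measure_inter_translate F A hF hA
  rw [lintegral_congr_ae h1] at h2
  simp only [lintegral_zero] at h2
  have := ENNReal.mul_pos hF0.ne' hA0.ne'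
  rw [← h2] at this
  exact lt_irrefl _ this

lemma exists_common_translates [NullSingletonClass (volume : Measure (E d))] {ι : Type*} [DecidableEq ι]
    (A : ι → Set (E d))
    (hA : ∀ k, MeasurableSet (A k)) (hA0 : ∀ k, 0 < volume (A k)) (s : Finset ι) :
    ∃ τ : ι → E d, Set.InjOn τ s ∧ ∃ F : Set (E d), MeasurableSet F ∧ 0 < volume F ∧
      ∀ k ∈ s, ∀ u ∈ F, u + τ k ∈ A k := by
  induction s using Finset.induction_on with
  | empty =>
    refine ⟨fun _ => 0, by simp, Set.univ, MeasurableSet.univ, ?_, by simp⟩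
    exact Measure.measure_univ_pos.2 (NeZero.ne _)
  | insert a s has ih =>
    obtain ⟨τ, hinj, F, hF, hF0, hmem⟩ := ih
    have hG := exists_translate_pos F (A a) hF (hA a) hF0 (hA0 a)
    have hfin : volume (τ '' (s : Set ι)) = 0 := (s.finite_toSet.image τ).measure_zero _
    obtain ⟨t, htG, hts⟩ : ∃ t, t ∈ {t : E d | 0 < volume (F ∩ (fun u => u + t) ⁻¹' A a)} ∧
        t ∉ τ '' (s : Set ι) := by
      by_contra hcon
      push Not at hcon
      have : volume {t : E d | 0 < volume (F ∩ (fun u => u + t) ⁻¹' A a)} ≤ volume (τ '' (s : Set ι)) :=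
        measure_mono hcon
      rw [hfin] at this
      exact absurd hG (not_lt.2 this)
    have hEq : Set.EqOn (Function.update τ a t) τ (s : Set ι) := by
      intro k hk
      have : k ≠ a := fun h => has (h ▸ hk)
      simp [Function.update_of_ne this]
    refine ⟨Function.update τ a t, ?_, F ∩ (fun u => u + t) ⁻¹' A a,
      hF.inter ((measurable_add_const t) (hA a)), htG, ?_⟩
    · rw [Finset.coe_insert, Set.injOn_insert (by simpa using has)]
      refine ⟨(hEq.injOn_iff).2 hinj, ?_⟩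
      rw [hEq.image_eq]
      simpa using hts
    · intro k hk u hu
      rcases Finset.mem_insert.1 hk with rfl | hk
      · simpa using hu.2
      · rw [hEq hk]
        exact hmem k hk u hu.1

/-- final form: finitely many sets of positive measure contain pairwise disjoint translates of a
common set of positive measure. -/
lemma exists_disjoint_translates [NullSingletonClass (volume : Measure (E d))] {ι : Type*} [Fintype ι]
    (A : ι → Set (E d))
    (hA : ∀ k, MeasurableSet (A k)) (hA0 : ∀ k, 0 < volume (A k)) :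
    ∃ τ : ι → E d, ∃ F : Set (E d), MeasurableSet F ∧ 0 < volume F ∧
      (∀ k, ∀ u ∈ F, u + τ k ∈ A k) ∧
      ∀ j k, ∀ u ∈ F, ∀ u' ∈ F, u + τ j = u' + τ k → j = k := by
  classical
  obtain ⟨τ, hinj, F, hF, hF0, hmem⟩ := exists_common_translates A hA hA0 Finset.univ
  have hinj' : Function.Injective τ := by
    intro j k h
    exact hinj (by simp) (by simp) h
  set D : Set (E d) := {v | ∃ j k, j ≠ k ∧ v = τ j - τ k} with hD
  have hDfin : D.Finite := by
    refine (Set.finite_range (fun p : ι × ι => τ p.1 - τ p.2)).subset ?_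
    rintro v ⟨j, k, -, rfl⟩
    exact ⟨(j, k), rfl⟩
  have h0 : (0 : E d) ∈ Dᶜ := by
    rintro ⟨j, k, hjk, h⟩
    exact hjk (hinj' (sub_eq_zero.1 h.symm))
  obtain ⟨ε, hε, hball⟩ := Metric.isOpen_iff.1 hDfin.isClosed.isOpen_compl 0 h0
  obtain ⟨c, -, hc⟩ := exists_mem_forall_mem_nhdsWithin_pos_measure hF0.ne'
  have hpos : 0 < volume (F ∩ Metric.ball c (ε / 2)) := by
    apply hc
    exact inter_mem_nhdsWithin _ (Metric.ball_mem_nhds c (by positivity))
  refine ⟨τ, F ∩ Metric.ball c (ε / 2), hF.inter measurableSet_ball, hpos,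
    fun k u hu => hmem k (by simp) u hu.1, ?_⟩
  intro j k u hu u' hu' h
  by_contra hjk
  have h1 : τ j - τ k ∈ D := ⟨j, k, hjk, rfl⟩
  have h2 : τ j - τ k = u' - u := by
    rw [sub_eq_sub_iff_add_eq_add, add_comm, h, add_comm]
  have h3 : τ j - τ k ∈ Metric.ball (0 : E d) ε := by
    rw [h2, mem_ball_zero_iff, ← dist_eq_norm]
    have h4 := Metric.mem_ball.1 hu.2
    have h5 := Metric.mem_ball.1 hu'.2
    calc dist u' u ≤ dist u' c + dist c u := dist_triangle _ _ _
      _ < ε / 2 + ε / 2 := by rw [dist_comm c u]; exact add_lt_add h5 h4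
      _ = ε := by ring
  exact hball h3 h1

/-! ### Part 2: the cyclic rearrangement -/

section rearr

variable {n : ℕ} (τ : Fin (n + 1) → E d) (F : Set (E d))

/-- the translate `F + τ k`. -/
def piece (k : Fin (n + 1)) : Set (E d) := {x | x - τ k ∈ F}

/-- the cyclic rearrangement: `F + τ (k+1) → F + τ k` by translation, identity elsewhere. -/
noncomputable def smap (x : E d) : E d :=
  x + ∑ k : Fin (n + 1), (piece τ F (k + 1)).indicator (fun _ => τ k - τ (k + 1)) x

variable {τ F}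

lemma measurableSet_piece (hF : MeasurableSet F) (k : Fin (n + 1)) :
    MeasurableSet (piece τ F k) :=
  (measurable_sub_const (τ k)) hF

lemma measurable_smap (hF : MeasurableSet F) : Measurable (smap τ F) := by
  unfold smap
  refine measurable_id.add (Finset.measurable_sum _ fun k _ => ?_)
  exact measurable_const.indicator (measurableSet_piece hF _)

lemma smap_of_notMem {x : E d} (hx : x ∉ ⋃ k, piece τ F k) : smap τ F x = x := by
  unfold smap
  rw [Finset.sum_eq_zero, add_zero]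
  intro k _
  refine Set.indicator_of_notMem ?_ _
  intro h
  exact hx (Set.mem_iUnion.2 ⟨_, h⟩)

lemma smap_add (hdisj : ∀ j k, ∀ u ∈ F, ∀ u' ∈ F, u + τ j = u' + τ k → j = k)
    {u : E d} (hu : u ∈ F) (k : Fin (n + 1)) : smap τ F (u + τ (k + 1)) = u + τ k := by
  unfold smap
  rw [Finset.sum_eq_single k]
  · rw [Set.indicator_of_mem]
    · abel
    · simpa [piece] using hu
  · intro j _ hjk
    refine Set.indicator_of_notMem ?_ _
    intro h
    have h1 : k + 1 = j + 1 := hdisj _ _ u hu _ h (by abel)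
    exact hjk (add_right_cancel h1).symm
  · intro h; exact absurd (Finset.mem_univ _) h

lemma lintegral_piece (hF : MeasurableSet F) (k : Fin (n + 1)) (f : E d → ℝ≥0∞) :
    ∫⁻ x in piece τ F k, f x = ∫⁻ u in F, f (u + τ k) := by
  rw [← lintegral_indicator (measurableSet_piece hF k), ← lintegral_indicator hF,
    ← lintegral_add_right_eq_self _ (τ k)]
  refine lintegral_congr fun u => ?_
  by_cases h : u ∈ F
  · rw [Set.indicator_of_mem h, Set.indicator_of_mem (by simpa [piece] using h)]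
  · rw [Set.indicator_of_notMem h, Set.indicator_of_notMem (by simpa [piece] using h)]

lemma lintegral_decomp (hF : MeasurableSet F)
    (hdisj : ∀ j k, ∀ u ∈ F, ∀ u' ∈ F, u + τ j = u' + τ k → j = k)
    (K : Set (E d)) (hK : ∀ k, piece τ F k ⊆ K) (f : E d → ℝ≥0∞) :
    ∫⁻ x in K, f x = (∫⁻ x in K \ ⋃ k, piece τ F k, f x) + ∑ k, ∫⁻ u in F, f (u + τ k) := by
  have hU : MeasurableSet (⋃ k, piece τ F k) := MeasurableSet.iUnion fun k => measurableSet_piece hF k
  rw [← lintegral_inter_add_sdiff f K hU, add_comm]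
  congr 1
  rw [Set.inter_eq_right.2 (Set.iUnion_subset hK), lintegral_iUnion (fun k => measurableSet_piece hF k),
    tsum_fintype]
  · exact Finset.sum_congr rfl fun k _ => lintegral_piece hF k f
  · intro j k hjk
    rw [Function.onFun, Set.disjoint_left]
    intro x hxj hxk
    exact hjk (hdisj j k _ hxj _ hxk (by abel))

/-- integral of a function of `(x, s x)`. -/
lemma lintegral_smap (hF : MeasurableSet F)
    (hdisj : ∀ j k, ∀ u ∈ F, ∀ u' ∈ F, u + τ j = u' + τ k → j = k)
    (K : Set (E d)) (hK : ∀ k, piece τ F k ⊆ K) (hKm : MeasurableSet K) (H : E d → E d → ℝ≥0∞) :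
    ∫⁻ x in K, H x (smap τ F x)
      = (∫⁻ x in K \ ⋃ k, piece τ F k, H x x) + ∑ k, ∫⁻ u in F, H (u + τ (k + 1)) (u + τ k) := by
  have hU : MeasurableSet (⋃ k, piece τ F k) := MeasurableSet.iUnion fun k => measurableSet_piece hF k
  rw [lintegral_decomp hF hdisj K hK]
  congr 1
  · refine setLIntegral_congr_fun (hKm.diff hU) fun x hx => ?_
    rw [smap_of_notMem hx.2]
  · rw [← Equiv.sum_comp (Equiv.addRight (1 : Fin (n + 1)))]
    refine Finset.sum_congr rfl fun k _ => ?_
    refine setLIntegral_congr_fun hF fun u hu => ?_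
    simp only [Equiv.coe_addRight]
    rw [smap_add hdisj hu]

lemma map_smap (hF : MeasurableSet F)
    (hdisj : ∀ j k, ∀ u ∈ F, ∀ u' ∈ F, u + τ j = u' + τ k → j = k)
    (K : Set (E d)) (hK : ∀ k, piece τ F k ⊆ K) (hKm : MeasurableSet K) :
    (volume.restrict K).map (smap τ F) = volume.restrict K := by
  ext B hB
  rw [Measure.map_apply (measurable_smap hF) hB,
    ← lintegral_indicator_one ((measurable_smap hF) hB), ← lintegral_indicator_one hB]
  have h1 := lintegral_smap hF hdisj K hK hKm (fun _ y => B.indicator 1 y)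
  have h2 := lintegral_decomp hF hdisj K hK (fun y => B.indicator 1 y)
  have h3 : ∀ x, (smap τ F ⁻¹' B).indicator (1 : E d → ℝ≥0∞) x = B.indicator 1 (smap τ F x) := by
    intro x; rfl
  simp_rw [h3]
  rw [h1, h2]

end rearr

/-! ### Part 3: a cycle with positive gain contradicts optimality -/

lemma sum_norm_sq_shift {n : ℕ} (x y : Fin (n + 1) → E d) :
    ∑ k, ‖x (k + 1) - y k‖ ^ 2 = ∑ k, ‖x k - y k‖ ^ 2 - 2 * ∑ k, ⟪x (k + 1) - x k, y k⟫_ℝ := by
  have h : ∑ k, ‖x (k + 1)‖ ^ 2 = ∑ k, ‖x k‖ ^ 2 :=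
    Equiv.sum_comp (Equiv.addRight (1 : Fin (n + 1))) (fun k => ‖x k‖ ^ 2)
  simp only [norm_sub_sq_real, inner_sub_left, Finset.sum_add_distrib, Finset.sum_sub_distrib,
    ← Finset.mul_sum]
  rw [h]
  ring

lemma enorm_sq_eq (v : E d) : ‖v‖ₑ ^ 2 = ENNReal.ofReal (‖v‖ ^ 2) := by
  rw [← ofReal_norm, ENNReal.ofReal_pow (norm_nonneg _)]

lemma cost_contra (K : Set (E d)) (hKm : MeasurableSet K) (hK0 : volume K ≠ 0)
    (hKfin : volume K ≠ ∞) (μ : Measure (E d)) (T : E d → E d) (hT : IsOptimalMap (rho K) μ T)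
    (hfin : ∫⁻ x in K, ‖x - T x‖ₑ ^ 2 ≠ ∞) {n : ℕ} (τ : Fin (n + 1) → E d) (F : Set (E d))
    (hF : MeasurableSet F) (hF0 : 0 < volume F)
    (hdisj : ∀ j k, ∀ u ∈ F, ∀ u' ∈ F, u + τ j = u' + τ k → j = k)
    (hK : ∀ k, ∀ u ∈ F, u + τ k ∈ K) (δ : ℝ) (hδ : 0 < δ)
    (hgain : ∀ u ∈ F, δ ≤ ∑ k, ⟪(u + τ (k + 1)) - (u + τ k), T (u + τ k)⟫_ℝ) : False := by
  obtain ⟨hTm, hTmap, hopt⟩ := hT
  have hK' : ∀ k, piece τ F k ⊆ K := by
    intro k x hx
    have := hK k _ hx
    simpa using this
  have hsm := measurable_smap (τ := τ) hF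
  have hmap : (rho K).map (T ∘ smap τ F) = μ := by
    rw [← Measure.map_map hTm hsm, ← hTmap]
    congr 1
    show ((volume K)⁻¹ • volume.restrict K).map (smap τ F) = (volume K)⁻¹ • volume.restrict K
    rw [Measure.map_smul, map_smap hF hdisj K hK' hKm]
  have h1 := hopt _ (hTm.comp hsm) hmap
  have hc0 : (volume K)⁻¹ ≠ 0 := ENNReal.inv_ne_zero.2 hKfin
  have hc1 : (volume K)⁻¹ ≠ ∞ := ENNReal.inv_ne_top.2 hK0
  have h2 : ∫⁻ x in K, ‖x - T x‖ₑ ^ 2 ≤ ∫⁻ x in K, ‖x - T (smap τ F x)‖ₑ ^ 2 := by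
    have h1' : ∫⁻ x, ‖x - T x‖ₑ ^ 2 ∂((volume K)⁻¹ • volume.restrict K)
        ≤ ∫⁻ x, ‖x - (T ∘ smap τ F) x‖ₑ ^ 2 ∂((volume K)⁻¹ • volume.restrict K) := h1
    rw [lintegral_smul_measure, lintegral_smul_measure, smul_eq_mul, smul_eq_mul,
      ENNReal.mul_le_mul_iff_right hc0 hc1] at h1'
    exact h1'
  have ha := lintegral_decomp hF hdisj K hK' (fun x => ‖x - T x‖ₑ ^ 2)
  have hb := lintegral_smap hF hdisj K hK' hKm (fun x y => ‖x - T y‖ₑ ^ 2)
  rw [← lintegral_finsetSum] at ha hb
  rotate_left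
  · intro k _
    exact (((measurable_id.add_const _).sub (hTm.comp (measurable_id.add_const _))).enorm).pow_const 2
  · intro k _
    exact (((measurable_id.add_const _).sub (hTm.comp (measurable_id.add_const _))).enorm).pow_const 2
  have hpt : ∀ u ∈ F, ∑ k, ‖u + τ (k + 1) - T (u + τ k)‖ₑ ^ 2 + ENNReal.ofReal (2 * δ)
      ≤ ∑ k, ‖u + τ k - T (u + τ k)‖ₑ ^ 2 := by
    intro u hu
    simp_rw [enorm_sq_eq]
    rw [← ENNReal.ofReal_sum_of_nonneg (fun _ _ => by positivity),
      ← ENNReal.ofReal_sum_of_nonneg (fun _ _ => by positivity),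
      ← ENNReal.ofReal_add (Finset.sum_nonneg fun _ _ => by positivity) (by positivity)]
    apply ENNReal.ofReal_le_ofReal
    have h3 := sum_norm_sq_shift (fun k => u + τ k) (fun k => T (u + τ k))
    have h4 := hgain u hu
    rw [h3]
    linarith
  have hint : (∫⁻ u in F, ∑ k, ‖u + τ (k + 1) - T (u + τ k)‖ₑ ^ 2) + ENNReal.ofReal (2 * δ) * volume F
      ≤ ∫⁻ u in F, ∑ k, ‖u + τ k - T (u + τ k)‖ₑ ^ 2 := by
    rw [← setLIntegral_const, ← lintegral_add_right _ measurable_const]
    exact setLIntegral_mono' hF hpt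
  set C0 := ∫⁻ x in K \ ⋃ k, piece τ F k, ‖x - T x‖ₑ ^ 2
  set a := ∫⁻ x in K, ‖x - T x‖ₑ ^ 2
  set b := ∫⁻ x in K, ‖x - T (smap τ F x)‖ₑ ^ 2
  have h5 : b + ENNReal.ofReal (2 * δ) * volume F ≤ a := by
    rw [ha, hb, add_assoc]
    gcongr
  have hbfin : b ≠ ∞ := ne_top_of_le_ne_top hfin (le_trans le_self_add h5)
  have h6 : b + ENNReal.ofReal (2 * δ) * volume F ≤ b + 0 := by
    rw [add_zero]; exact h5.trans h2
  have h7 := (ENNReal.add_le_add_iff_left hbfin).1 h6
  have h8 : 0 < ENNReal.ofReal (2 * δ) * volume F :=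
    ENNReal.mul_pos (by simpa using hδ) hF0.ne'
  exact absurd h8 (not_lt.2 h7)

/-! ### Part 4: the support of the graph measure -/

lemma continuous_cycSum (n : ℕ) : Continuous (fun z : Fin (n + 1) → E d × E d =>
    ∑ k : Fin (n + 1), ⟪(z (k + 1)).1 - (z k).1, (z k).2⟫_ℝ) := by
  refine continuous_finsetSum _ fun k _ => ?_
  exact Continuous.inner (((continuous_apply (k + 1)).fst).sub ((continuous_apply k).fst))
    ((continuous_apply k).snd)

/-- task CYC -/
theorem cyc_mono (K : Set (E d)) (hKc : IsCompact K) (hKi : (interior K).Nonempty)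
    (Y : Set (E d)) (hYc : IsCompact Y) (μ : Measure (E d)) (hμ : IsProbabilityOn Y μ)
    (T : E d → E d) (hT : IsOptimalMap (rho K) μ T) :
    ∃ Γ : Set (E d × E d), CycMono Γ ∧ Γ ⊆ K ×ˢ Y ∧ Γ.Nonempty ∧ ∀ᵐ x ∂(volume.restrict K), (x, T x) ∈ Γ := by
  have hTm : Measurable T := hT.1
  have hKm : MeasurableSet K := hKc.measurableSet
  have hKfin : volume K ≠ ∞ := hKc.measure_lt_top.ne
  have hK0 : volume K ≠ 0 := by
    have h1 : 0 < volume (interior K) := isOpen_interior.measure_pos _ hKi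
    exact (lt_of_lt_of_le h1 (measure_mono interior_subset)).ne'
  have hc0 : (volume K)⁻¹ ≠ 0 := ENNReal.inv_ne_zero.2 hKfin
  -- `T x ∈ Y` a.e.
  have hTY : ∀ᵐ x ∂(volume.restrict K), T x ∈ Y := by
    have h1 : μ Yᶜ = 0 := hμ.2
    rw [← hT.2.1, Measure.map_apply hTm hYc.measurableSet.compl] at h1
    have h2 : ((volume K)⁻¹ • volume.restrict K) (T ⁻¹' Yᶜ) = 0 := h1
    rw [Measure.smul_apply, smul_eq_mul, mul_eq_zero] at h2
    have h3 := h2.resolve_left hc0
    have h4 := measure_eq_zero_iff_ae_notMem.1 h3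
    filter_upwards [h4] with x hx
    simpa using hx
  have hgm : Measurable (fun x : E d => (x, T x)) := measurable_id.prodMk hTm
  set γ : Measure (E d × E d) := (volume.restrict K).map (fun x => (x, T x)) with hγ
  have hclosed : IsClosed (K ×ˢ Y) := hKc.isClosed.prod hYc.isClosed
  have hsub : γ.support ⊆ K ×ˢ Y := by
    refine Measure.support_subset_of_isClosed hclosed ?_
    rw [hγ, mem_ae_map_iff hgm.aemeasurable hclosed.measurableSet]
    filter_upwards [hTY, ae_restrict_mem hKm] with x hx1 hx2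
    exact ⟨hx2, hx1⟩
  have hae : ∀ᵐ x ∂(volume.restrict K), (x, T x) ∈ γ.support := by
    have h1 : γ.support ∈ ae γ := Measure.support_mem_ae
    rw [hγ, mem_ae_map_iff hgm.aemeasurable Measure.isClosed_support.measurableSet] at h1
    exact h1
  have hne : γ.support.Nonempty := by
    have : (ae (volume.restrict K)).NeBot := by
      rw [ae_neBot]
      intro h
      have : volume.restrict K Set.univ = 0 := by rw [h]; simp
      rw [Measure.restrict_apply_univ] at this
      exact hK0 this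
    obtain ⟨x, hx⟩ := hae.exists
    exact ⟨_, hx⟩
  refine ⟨γ.support, ?_, hsub, hne, hae⟩
  -- cyclical monotonicity
  intro n z hz
  rcases Nat.eq_zero_or_pos d with hd | hd
  · subst hd
    refine le_of_eq (Finset.sum_eq_zero fun k _ => ?_)
    have : (z k).2 = 0 := Subsingleton.elim _ _
    rw [this, inner_zero_right]
  have : Nonempty (Fin d) := ⟨⟨0, hd⟩⟩
  by_contra hcon
  push Not at hcon
  set Φ : (Fin (n + 1) → E d × E d) → ℝ := fun z =>
    ∑ k : Fin (n + 1), ⟪(z (k + 1)).1 - (z k).1, (z k).2⟫_ℝ with hΦ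
  set δ : ℝ := Φ z / 2 with hδ
  have hδ0 : 0 < δ := by positivity
  have hopen : IsOpen {w | δ < Φ w} := isOpen_lt continuous_const (continuous_cycSum n)
  have hzmem : z ∈ {w | δ < Φ w} := by
    show δ < Φ z
    rw [hδ]; linarith
  obtain ⟨r, hr, hball⟩ := Metric.isOpen_iff.1 hopen z hzmem
  set A : Fin (n + 1) → Set (E d) := fun k => K ∩ (fun x => (x, T x)) ⁻¹' Metric.ball (z k) r with hA
  have hAm : ∀ k, MeasurableSet (A k) := fun k => hKm.inter (hgm measurableSet_ball)
  have hA0 : ∀ k, 0 < volume (A k) := by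
    intro k
    have h1 := (Measure.mem_support_iff_forall (μ := γ) (z k)).1 (hz k) _ (Metric.ball_mem_nhds _ hr)
    rw [hγ, Measure.map_apply hgm measurableSet_ball,
      Measure.restrict_apply (hgm measurableSet_ball), Set.inter_comm] at h1
    exact h1
  obtain ⟨τ, F, hF, hF0, hmem, hdisj⟩ := exists_disjoint_translates A hAm hA0
  -- finiteness of the cost
  have hfin : ∫⁻ x in K, ‖x - T x‖ₑ ^ 2 ≠ ∞ := by
    obtain ⟨R1, hR1⟩ := hKc.isBounded.exists_norm_le
    obtain ⟨R2, hR2⟩ := hYc.isBounded.exists_norm_le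
    have h1 : ∫⁻ x in K, ‖x - T x‖ₑ ^ 2 ≤ ∫⁻ x in K, ENNReal.ofReal ((R1 + R2) ^ 2) := by
      refine lintegral_mono_ae ?_
      filter_upwards [hTY, ae_restrict_mem hKm] with x hx1 hx2
      rw [enorm_sq_eq]
      apply ENNReal.ofReal_le_ofReal
      have h2 : ‖x - T x‖ ≤ R1 + R2 := (norm_sub_le _ _).trans (add_le_add (hR1 x hx2) (hR2 _ hx1))
      exact pow_le_pow_left₀ (norm_nonneg _) h2 2
    rw [setLIntegral_const] at h1
    exact ne_top_of_le_ne_top (ENNReal.mul_ne_top ENNReal.ofReal_ne_top hKfin) h1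
  refine cost_contra K hKm hK0 hKfin μ T hT hfin τ F hF hF0 hdisj (fun k u hu => (hmem k u hu).1)
    δ hδ0 ?_
  intro u hu
  have h1 : (fun k => (u + τ k, T (u + τ k))) ∈ Metric.ball z r := by
    rw [Metric.mem_ball, dist_pi_lt_iff hr]
    intro k
    exact (hmem k u hu).2
  exact (hball h1).le

end Crest.Agent.R82
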