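import Mathlib
import Crest.Prelude.Def_QuadraticTransport

/-!
# Row 82 (S0109, S0110): shared definitions

Notation of the blueprint:
* `E d`      : Euclidean space
* `rho K`    : uniform probability measure on `K`
* `IsPot K R φ T` : `φ` is an `R`-Lipschitz function, `T` a measurable map with `‖T‖ ≤ R` a.e. on `K`
                 and `T x ∈ ∂φ(x)` (global subgradient inequality) for a.e. `x ∈ K`.
* `cell S ψ y` : Laguerre cell of the site `y` among the finite set of sites `S` with weights `ψ`.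
* `lagPot S ψ` : `x ↦ max_{y ∈ S} (⟪x,y⟫ - ψ y)`.
* `conj K φ`   : `z ↦ sup_{w ∈ K} (⟪w,z⟫ - φ w)`.
* `Kin K r`    : inner parallel body `{x | closedBall x r ⊆ K}`.
-/

set_option autoImplicit false

namespace Crest.Agent.R82

open MeasureTheory
open scoped ENNReal NNReal InnerProductSpace

/-- Euclidean space of dimension `d`. -/
abbrev E (d : ℕ) := EuclideanSpace ℝ (Fin d)

variable {d : ℕ}

/-- the uniform probability measure on `K`. -/
noncomputable abbrev rho (K : Set (E d)) : Measure (E d) := Crest.AnalysisR.OT.uniformProbOn K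

/-- `(φ, T)` is a potential pair on `K` with slope bound `R`. -/
structure IsPot (K : Set (E d)) (R : ℝ) (φ : E d → ℝ) (T : E d → E d) : Prop where
  measT : Measurable T
  bdd : ∀ᵐ x ∂(volume.restrict K), ‖T x‖ ≤ R
  lip : ∀ x w, |φ x - φ w| ≤ R * ‖x - w‖
  sub : ∀ᵐ x ∂(volume.restrict K), ∀ w, φ x + ⟪T x, w - x⟫_ℝ ≤ φ w

/-- Laguerre cell of the site `y` (sites `S`, weights `ψ`). -/
def cell (S : Finset (E d)) (ψ : E d → ℝ) (y : E d) : Set (E d) :=
  {x | ∀ y' ∈ S, ⟪x, y'⟫_ℝ - ψ y' ≤ ⟪x, y⟫_ℝ - ψ y}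

/-- the Laguerre potential `x ↦ max_{y ∈ S} (⟪x,y⟫ - ψ y)` (junk value `0` if `S = ∅`). -/
noncomputable def lagPot (S : Finset (E d)) (ψ : E d → ℝ) (x : E d) : ℝ :=
  if h : S.Nonempty then S.sup' h (fun y => ⟪x, y⟫_ℝ - ψ y) else 0

/-- conjugate relative to `K`. -/
noncomputable def conj (K : Set (E d)) (φ : E d → ℝ) (z : E d) : ℝ :=
  sSup ((fun w => ⟪w, z⟫_ℝ - φ w) '' K)

/-- inner parallel body. -/
def Kin (K : Set (E d)) (r : ℝ) : Set (E d) := {x | Metric.closedBall x r ⊆ K}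

/-- the finitely supported measure `∑ p k • δ_{Y k}`. -/
noncomputable def discMeas {ι : Type*} [Fintype ι] (p : ι → ℝ) (Y : ι → E d) : Measure (E d) :=
  ∑ k, ENNReal.ofReal (p k) • Measure.dirac (Y k)

end Crest.Agent.R82
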