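import Crest.Agent.R82.Geo
import Crest.Agent.R82.Conj

/-!
# Row 82, task GN: from the pairing estimate (P) to `∫ ‖T₀ - T₁‖² dρ ≤ C W^(2/3)`

Blueprint.  `h = φ₀ - φ₁`, `ΔT = T₀ - T₁`, `D₁(x,v) = φ₁ (x+v) - φ₁ x - ⟪T₁ x, v⟫ ≥ 0`.  For a.e. `x ∈ Kin K r`, coordinate `k`, sign `σ`:
`h (x + σ r e_k) - h x ≥ σ r (ΔT x)_k - D₁(x, σ r e_k)`     (subgradient inequality for `φ₀` at `x`, definition of `D₁`).
Let `a_k x = |(ΔT x)_k|`, `A_{k,σ} = {x ∈ Kin K r | sign (ΔT x)_k = σ}` (say `σ = +` when `(ΔT x)_k ≥ 0`, `σ = -` otherwise).  Then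
`r ∑_k ∫_{Kin} a_k² dρ ≤ ∑_{k,σ} ∫_{A_{k,σ}} a_k(x) (h (x + σ r e_k) - h x) dρ + 2R ∑_{k,σ} ∫_{Kin} D₁(x, σ r e_k) dρ`.
The first sum equals `∫ η h dρ` with `η w = ∑_{k,σ} (b_{k,σ}(w - σ r e_k) - b_{k,σ}(w))`, `b_{k,σ} = a_k 1_{A_{k,σ}}`
(translation invariance of the volume; `A_{k,σ} + σ r e_k ⊆ K`).  `η` is measurable, bounded by `8 d R`... , `∫ η dρ = 0` and
`(∫ η² dρ)^(1/2) ≤ 2 ∑_{k,σ} ‖b_{k,σ}‖_{L²(ρ)} ≤ 4 d S^(1/2)`, `S = ∫ ‖ΔT‖² dρ`.
(If `T_i` is not bounded everywhere, first replace `a_k` by `min a_k (2R)`: they agree a.e.)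
With (P), `integral_bregman_le`, `rho_diff_Kin_le` and `‖ΔT‖² ≤ 4R²` on the layer:  for `0 < r ≤ r₀`
`S ≤ (4 d CP / r) √S W + C₁ r`.
If `W = 0` let `r → 0`.  If `0 < W ≤ r₀^(3/2)` take `r = W^(2/3)`: either `S ≤ 2 C₁ r` or `√S ≤ 8 d CP W / r`, i.e. `S ≤ 64 d² CP² W^(2/3)`.
If `W > r₀^(3/2)`: `S ≤ 4R² ≤ 4 R² W^(2/3) / r₀`.
-/

set_option autoImplicit false

namespace Crest.Agent.R82

open MeasureTheory
open scoped ENNReal NNReal InnerProductSpace

variable {d : ℕ}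

theorem gn_ae_mem (K : Set (E d)) (hKc : IsCompact K) : ∀ᵐ x ∂(rho K), x ∈ K := by
  have h := (measure_eq_zero_iff_ae_notMem).1 (rho_compl K hKc)
  filter_upwards [h] with x hx
  simpa using hx

theorem gn_ae_of_restrict (K : Set (E d)) {p : E d → Prop} (h : ∀ᵐ x ∂(volume.restrict K), p x) :
    ∀ᵐ x ∂(rho K), p x := (rho_absolutelyContinuous K).ae_le h

/-- translation lemma -/
theorem gn_translate (K : Set (E d)) (r : ℝ) (hr : 0 ≤ r) (v : E d) (hv : ‖v‖ ≤ r) (f g : E d → ℝ)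
    (hf : ∀ x, x ∉ Kin K r → f x = 0) :
    ∫ x, f x * g (x + v) ∂(rho K) = ∫ w, f (w - v) * g w ∂(rho K) := by
  rw [integral_rho, integral_rho]
  congr 1
  rw [setIntegral_eq_integral_of_forall_compl_eq_zero, setIntegral_eq_integral_of_forall_compl_eq_zero]
  · rw [← integral_add_right_eq_self (fun w => f (w - v) * g w) v]
    simp
  · intro x hx
    have : x - v ∉ Kin K r := by
      intro hmem
      apply hx
      have := add_mem_of_mem_Kin K r (x - v) v hmem hv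
      simpa using this
    rw [hf _ this, zero_mul]
  · intro x hx
    have : x ∉ Kin K r := fun hmem => hx (Kin_subset K r hr hmem)
    rw [hf _ this, zero_mul]


theorem gn_int_bdd (K : Set (E d)) (hKc : IsCompact K) (hKi : (interior K).Nonempty) (f : E d → ℝ)
    (hf : Measurable f) (B : ℝ) (hB : ∀ᵐ x ∂(rho K), |f x| ≤ B) : Integrable f (rho K) := by
  have := isProbabilityMeasure_rho K hKc hKi
  exact Integrable.of_bound hf.aestronglyMeasurable B (by simpa [Real.norm_eq_abs] using hB)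

theorem gn_core (K : Set (E d)) (hKc : IsCompact K) (hKi : (interior K).Nonempty) (CP W : ℝ)
    (hCP : 0 ≤ CP) (hW : 0 ≤ W) (h : E d → ℝ) (hh : Continuous h)
    (hP : ∀ η : E d → ℝ, Measurable η → (∃ B, ∀ x, |η x| ≤ B) → ∫ x, η x ∂(rho K) = 0 →
        |∫ x, η x * h x ∂(rho K)| ≤ CP * Real.sqrt (∫ x, η x ^ 2 ∂(rho K)) * W)
    (r : ℝ) (hr : 0 ≤ r) (v : E d) (hv : ‖v‖ ≤ r) (b : E d → ℝ) (hbm : Measurable b) (B : ℝ)
    (hb0 : ∀ x, 0 ≤ b x) (hbB : ∀ x, b x ≤ B) (hbK : ∀ x, x ∉ Kin K r → b x = 0) :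
    ∫ x, b x * (h (x + v) - h x) ∂(rho K) ≤ 2 * CP * Real.sqrt (∫ x, b x ^ 2 ∂(rho K)) * W := by
  have := isProbabilityMeasure_rho K hKc hKi
  obtain ⟨M, hM⟩ : ∃ M, ∀ x ∈ K, |h x| ≤ M := by
    obtain ⟨M, hM⟩ := hKc.exists_bound_of_continuousOn hh.continuousOn
    exact ⟨M, fun x hx => by simpa using hM x hx⟩
  have hB0 : 0 ≤ B := (hb0 0).trans (hbB 0)
  have habs : ∀ x, |b x| ≤ B := fun x => by rw [abs_of_nonneg (hb0 x)]; exact hbB x
  have hbvm : Measurable (fun w => b (w - v)) := hbm.comp (measurable_id.sub_const v)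
  have hηm : Measurable (fun w => b (w - v) - b w) := hbvm.sub hbm
  have hηB : ∀ x, |b (x - v) - b x| ≤ B := by
    intro x
    rw [abs_le]; constructor <;> linarith [hb0 x, hbB x, hb0 (x - v), hbB (x - v)]
  have hmemK := gn_ae_mem K hKc
  -- integrability
  have ib : Integrable b (rho K) := gn_int_bdd K hKc hKi b hbm B (Filter.Eventually.of_forall habs)
  have ibv : Integrable (fun w => b (w - v)) (rho K) :=
    gn_int_bdd K hKc hKi _ hbvm B (Filter.Eventually.of_forall fun x => habs _)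
  have ib2 : Integrable (fun w => b w ^ 2) (rho K) :=
    gn_int_bdd K hKc hKi _ (hbm.pow_const 2) (B ^ 2) (Filter.Eventually.of_forall fun x => by
      rw [abs_pow]; exact pow_le_pow_left₀ (abs_nonneg _) (habs x) 2)
  have ibv2 : Integrable (fun w => b (w - v) ^ 2) (rho K) :=
    gn_int_bdd K hKc hKi _ (hbvm.pow_const 2) (B ^ 2) (Filter.Eventually.of_forall fun x => by
      rw [abs_pow]; exact pow_le_pow_left₀ (abs_nonneg _) (habs _) 2)
  have ibh : Integrable (fun w => b w * h w) (rho K) :=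
    gn_int_bdd K hKc hKi _ (hbm.mul hh.measurable) (B * M) (by
      filter_upwards [hmemK] with x hx
      rw [abs_mul]; exact mul_le_mul (habs x) (hM x hx) (abs_nonneg _) hB0)
  have ibvh : Integrable (fun w => b (w - v) * h w) (rho K) :=
    gn_int_bdd K hKc hKi _ (hbvm.mul hh.measurable) (B * M) (by
      filter_upwards [hmemK] with x hx
      rw [abs_mul]; exact mul_le_mul (habs _) (hM x hx) (abs_nonneg _) hB0)
  have ibhv : Integrable (fun w => b w * h (w + v)) (rho K) :=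
    gn_int_bdd K hKc hKi _ (hbm.mul (hh.measurable.comp (measurable_id.add_const v))) (B * M) (by
      refine Filter.Eventually.of_forall fun x => ?_
      by_cases hx : x ∈ Kin K r
      · rw [abs_mul]
        exact mul_le_mul (habs _) (hM _ (add_mem_of_mem_Kin K r x v hx hv)) (abs_nonneg _) hB0
      · obtain ⟨x0, hx0⟩ := hKi
        have hM0 : 0 ≤ M := (abs_nonneg _).trans (hM x0 (interior_subset hx0))
        simp only [hbK x hx, zero_mul, abs_zero]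
        positivity)
  have hη0 : ∫ x, (b (x - v) - b x) ∂(rho K) = 0 := by
    rw [integral_sub ibv ib]
    have := gn_translate K r hr v hv b (fun _ => 1) hbK
    simp only [mul_one] at this
    linarith
  have hη2 : ∫ x, (b (x - v) - b x) ^ 2 ∂(rho K) ≤ 4 * ∫ x, b x ^ 2 ∂(rho K) := by
    have h1 : ∫ x, (b (x - v) - b x) ^ 2 ∂(rho K) ≤ ∫ x, (2 * b (x - v) ^ 2 + 2 * b x ^ 2) ∂(rho K) := by
      apply integral_mono_of_nonneg
      · exact Filter.Eventually.of_forall fun x => sq_nonneg _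
      · exact (ibv2.const_mul 2).add (ib2.const_mul 2)
      · exact Filter.Eventually.of_forall fun x => by
          show (b (x - v) - b x) ^ 2 ≤ 2 * b (x - v) ^ 2 + 2 * b x ^ 2
          nlinarith [sq_nonneg (b (x - v) + b x)]
    rw [integral_add (ibv2.const_mul 2) (ib2.const_mul 2), integral_const_mul, integral_const_mul] at h1
    have := gn_translate K r hr v hv (fun x => b x ^ 2) (fun _ => 1) (fun x hx => by simp [hbK x hx])
    simp only [mul_one] at this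
    linarith
  have hPη := hP _ hηm ⟨B, hηB⟩ hη0
  have heq : ∫ x, (b (x - v) - b x) * h x ∂(rho K) = ∫ x, b x * (h (x + v) - h x) ∂(rho K) := by
    have e1 : ∫ x, (b (x - v) - b x) * h x ∂(rho K)
        = ∫ x, b (x - v) * h x ∂(rho K) - ∫ x, b x * h x ∂(rho K) := by
      rw [← integral_sub ibvh ibh]
      congr 1; ext x; ring
    have e2 : ∫ x, b x * (h (x + v) - h x) ∂(rho K)
        = ∫ x, b x * h (x + v) ∂(rho K) - ∫ x, b x * h x ∂(rho K) := by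
      rw [← integral_sub ibhv ibh]
      congr 1; ext x; ring
    rw [e1, e2, gn_translate K r hr v hv b h hbK]
  rw [heq] at hPη
  have hsq : Real.sqrt (∫ x, (b (x - v) - b x) ^ 2 ∂(rho K)) ≤ 2 * Real.sqrt (∫ x, b x ^ 2 ∂(rho K)) := by
    calc Real.sqrt (∫ x, (b (x - v) - b x) ^ 2 ∂(rho K)) ≤ Real.sqrt (4 * ∫ x, b x ^ 2 ∂(rho K)) :=
          Real.sqrt_le_sqrt hη2
      _ = 2 * Real.sqrt (∫ x, b x ^ 2 ∂(rho K)) := by
          rw [Real.sqrt_mul (by norm_num), show (4:ℝ) = 2 ^ 2 by norm_num, Real.sqrt_sq (by norm_num)]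
  calc ∫ x, b x * (h (x + v) - h x) ∂(rho K) ≤ |∫ x, b x * (h (x + v) - h x) ∂(rho K)| := le_abs_self _
    _ ≤ CP * Real.sqrt (∫ x, (b (x - v) - b x) ^ 2 ∂(rho K)) * W := hPη
    _ ≤ CP * (2 * Real.sqrt (∫ x, b x ^ 2 ∂(rho K))) * W := by gcongr
    _ = 2 * CP * Real.sqrt (∫ x, b x ^ 2 ∂(rho K)) * W := by ring


/-- clamped coordinate of `T₀ - T₁`. -/
noncomputable def gnC (R : ℝ) (T₀ T₁ : E d → E d) (k : Fin d) (x : E d) : ℝ :=
  max (-(2 * R)) (min (2 * R) ((T₀ x - T₁ x) k))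

/-- the test weight. -/
noncomputable def gnB (K : Set (E d)) (r R : ℝ) (T₀ T₁ : E d → E d) (k : Fin d) (s : ℝ) (x : E d) : ℝ :=
  (Kin K r).indicator (fun x => max 0 (s * gnC R T₀ T₁ k x)) x

theorem gnC_abs_le (R : ℝ) (hR : 0 ≤ R) (T₀ T₁ : E d → E d) (k : Fin d) (x : E d) :
    |gnC R T₀ T₁ k x| ≤ 2 * R := by
  unfold gnC
  rw [abs_le]
  constructor
  · exact le_max_left _ _
  · exact max_le (by linarith) (min_le_left _ _)

theorem gnC_eq (R : ℝ) (T₀ T₁ : E d → E d) (k : Fin d) (x : E d) (h0 : ‖T₀ x‖ ≤ R) (h1 : ‖T₁ x‖ ≤ R) :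
    gnC R T₀ T₁ k x = (T₀ x - T₁ x) k := by
  have h2 : |(T₀ x - T₁ x) k| ≤ 2 * R := by
    have := PiLp.norm_apply_le (T₀ x - T₁ x) k
    rw [Real.norm_eq_abs] at this
    have h3 := norm_sub_le (T₀ x) (T₁ x)
    linarith
  rw [abs_le] at h2
  unfold gnC
  rw [min_eq_right h2.2, max_eq_right h2.1]

theorem gnC_measurable (R : ℝ) (T₀ T₁ : E d → E d) (hT₀ : Measurable T₀) (hT₁ : Measurable T₁) (k : Fin d) :
    Measurable (gnC R T₀ T₁ k) := by
  unfold gnC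
  have : Measurable (fun x => (T₀ x - T₁ x) k) :=
    (EuclideanSpace.proj k : E d →L[ℝ] ℝ).continuous.measurable.comp (hT₀.sub hT₁)
  exact measurable_const.max (measurable_const.min this)

theorem gnB_measurable (K : Set (E d)) (hK : IsClosed K) (r R : ℝ) (T₀ T₁ : E d → E d) (hT₀ : Measurable T₀)
    (hT₁ : Measurable T₁) (k : Fin d) (s : ℝ) : Measurable (gnB K r R T₀ T₁ k s) := by
  unfold gnB
  exact (measurable_const.max ((gnC_measurable R T₀ T₁ hT₀ hT₁ k).const_mul s)).indicator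
    (isClosed_Kin K hK r).measurableSet

theorem gnB_nonneg (K : Set (E d)) (r R : ℝ) (T₀ T₁ : E d → E d) (k : Fin d) (s : ℝ) (x : E d) :
    0 ≤ gnB K r R T₀ T₁ k s x := by
  unfold gnB
  exact Set.indicator_nonneg (fun x _ => le_max_left _ _) x

theorem gnB_le (K : Set (E d)) (r R : ℝ) (hR : 0 ≤ R) (T₀ T₁ : E d → E d) (k : Fin d) (s : ℝ)
    (hs : s = 1 ∨ s = -1) (x : E d) : gnB K r R T₀ T₁ k s x ≤ 2 * R := by
  unfold gnB
  by_cases hx : x ∈ Kin K r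
  · rw [Set.indicator_of_mem hx]
    have := abs_le.1 (gnC_abs_le R hR T₀ T₁ k x)
    rcases hs with rfl | rfl
    · exact max_le (by linarith) (by linarith [this.2])
    · exact max_le (by linarith) (by linarith [this.1])
  · rw [Set.indicator_of_notMem hx]; linarith

theorem gnB_zero (K : Set (E d)) (r R : ℝ) (T₀ T₁ : E d → E d) (k : Fin d) (s : ℝ) (x : E d)
    (hx : x ∉ Kin K r) : gnB K r R T₀ T₁ k s x = 0 := by
  unfold gnB
  exact Set.indicator_of_notMem hx _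

theorem gnB_of_mem (K : Set (E d)) (r R : ℝ) (T₀ T₁ : E d → E d) (k : Fin d) (s : ℝ) (x : E d)
    (hx : x ∈ Kin K r) : gnB K r R T₀ T₁ k s x = max 0 (s * gnC R T₀ T₁ k x) := by
  unfold gnB
  exact Set.indicator_of_mem hx _


theorem gn_ks (K : Set (E d)) (hKc : IsCompact K) (hKi : (interior K).Nonempty)
    (R : ℝ) (hR : 0 ≤ R) (CP W : ℝ) (hCP : 0 ≤ CP) (hW : 0 ≤ W)
    (φ₀ φ₁ : E d → ℝ) (T₀ T₁ : E d → E d) (h₀ : IsPot K R φ₀ T₀) (h₁ : IsPot K R φ₁ T₁)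
    (hP : ∀ η : E d → ℝ, Measurable η → (∃ B, ∀ x, |η x| ≤ B) → ∫ x, η x ∂(rho K) = 0 →
        |∫ x, η x * (φ₀ x - φ₁ x) ∂(rho K)| ≤ CP * Real.sqrt (∫ x, η x ^ 2 ∂(rho K)) * W)
    (r : ℝ) (hr : 0 ≤ r) (k : Fin d) (s : ℝ) (hs : s = 1 ∨ s = -1) :
    r * ∫ x, gnB K r R T₀ T₁ k s x ^ 2 ∂(rho K)
      ≤ 2 * CP * Real.sqrt (∫ x, gnB K r R T₀ T₁ k s x ^ 2 ∂(rho K)) * W
        + 4 * R ^ 2 * r * (rho K (K \ Kin K r)).toReal := by
  have hprob := isProbabilityMeasure_rho K hKc hKi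
  set b := gnB K r R T₀ T₁ k s with hb
  set v : E d := EuclideanSpace.single k (s * r) with hv
  have hs2 : |s| = 1 := by rcases hs with rfl | rfl <;> simp
  have hvn : ‖v‖ = r := by
    rw [hv, PiLp.norm_single, Real.norm_eq_abs, abs_mul, hs2, one_mul, abs_of_nonneg hr]
  have hbm : Measurable b := gnB_measurable K hKc.isClosed r R T₀ T₁ h₀.measT h₁.measT k s
  have hb0 : ∀ x, 0 ≤ b x := gnB_nonneg K r R T₀ T₁ k s
  have hbB : ∀ x, b x ≤ 2 * R := gnB_le K r R hR T₀ T₁ k s hs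
  have hbK : ∀ x, x ∉ Kin K r → b x = 0 := gnB_zero K r R T₀ T₁ k s
  have hcont : Continuous (fun x => φ₀ x - φ₁ x) := h₀.continuous.sub h₁.continuous
  have core := gn_core K hKc hKi CP W hCP hW (fun x => φ₀ x - φ₁ x) hcont hP r hr v hvn.le b hbm (2 * R)
    hb0 hbB hbK
  have breg := integral_bregman_le K hKc hKi R φ₁ T₁ h₁ r hr v hvn.le
  rw [hvn] at breg
  have hKinm : MeasurableSet (Kin K r) := (isClosed_Kin K hKc.isClosed r).measurableSet
  rw [← integral_indicator hKinm] at breg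
  -- measurability / integrability
  have habs : ∀ x, |b x| ≤ 2 * R := fun x => by rw [abs_of_nonneg (hb0 x)]; exact hbB x
  have ib2 : Integrable (fun w => b w ^ 2) (rho K) :=
    gn_int_bdd K hKc hKi _ (hbm.pow_const 2) ((2 * R) ^ 2) (Filter.Eventually.of_forall fun x => by
      rw [abs_pow]; exact pow_le_pow_left₀ (abs_nonneg _) (habs x) 2)
  have hlip : ∀ x, |(φ₀ (x + v) - φ₁ (x + v)) - (φ₀ x - φ₁ x)| ≤ 2 * R * r := by
    intro x
    have e0 := h₀.lip (x + v) x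
    have e1 := h₁.lip (x + v) x
    rw [add_sub_cancel_left, hvn] at e0 e1
    rw [abs_le] at e0 e1 ⊢
    constructor <;> linarith [e0.1, e0.2, e1.1, e1.2]
  have i1 : Integrable (fun x => b x * ((φ₀ (x + v) - φ₁ (x + v)) - (φ₀ x - φ₁ x))) (rho K) :=
    gn_int_bdd K hKc hKi _ (hbm.mul ((hcont.measurable.comp (measurable_id.add_const v)).sub hcont.measurable))
      (2 * R * (2 * R * r)) (Filter.Eventually.of_forall fun x => by
        rw [abs_mul]; exact mul_le_mul (habs x) (hlip x) (abs_nonneg _) (by positivity))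
  have hDm : Measurable (fun x => φ₁ (x + v) - φ₁ x - ⟪T₁ x, v⟫_ℝ) :=
    ((h₁.continuous.measurable.comp (measurable_id.add_const v)).sub h₁.continuous.measurable).sub
      (h₁.measT.inner measurable_const)
  have i2 : Integrable ((Kin K r).indicator (fun x => φ₁ (x + v) - φ₁ x - ⟪T₁ x, v⟫_ℝ)) (rho K) := by
    refine gn_int_bdd K hKc hKi _ (hDm.indicator hKinm) (2 * R * r) ?_
    filter_upwards [gn_ae_of_restrict K h₁.bdd] with x hx
    refine (norm_indicator_le_norm_self (s := Kin K r) (fun x => φ₁ (x + v) - φ₁ x - ⟪T₁ x, v⟫_ℝ) x).trans ?_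
    rw [Real.norm_eq_abs]
    have e1 := h₁.lip (x + v) x
    rw [add_sub_cancel_left, hvn] at e1
    have e2 := abs_real_inner_le_norm (T₁ x) v
    rw [hvn] at e2
    have e3 : ‖T₁ x‖ * r ≤ R * r := mul_le_mul_of_nonneg_right hx hr
    rw [abs_le] at e1 e2 ⊢
    constructor <;> linarith [e1.1, e1.2, e2.1, e2.2]
  -- pointwise inequality
  have hpt : ∀ᵐ x ∂(rho K), r * b x ^ 2 ≤ b x * ((φ₀ (x + v) - φ₁ (x + v)) - (φ₀ x - φ₁ x))
      + 2 * R * (Kin K r).indicator (fun x => φ₁ (x + v) - φ₁ x - ⟪T₁ x, v⟫_ℝ) x := by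
    filter_upwards [gn_ae_of_restrict K h₀.bdd, gn_ae_of_restrict K h₁.bdd, gn_ae_of_restrict K h₀.sub,
      gn_ae_of_restrict K (bregman_nonneg K R φ₁ T₁ h₁ v)] with x hx0 hx1 hsub hD
    by_cases hx : x ∈ Kin K r
    · rw [Set.indicator_of_mem hx]
      have hbx : b x = max 0 (s * (T₀ x - T₁ x) k) := by
        rw [hb, gnB_of_mem K r R T₀ T₁ k s x hx, gnC_eq R T₀ T₁ k x hx0 hx1]
      have hsub' := hsub (x + v)
      rw [add_sub_cancel_left] at hsub'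
      have hin : ⟪T₀ x, v⟫_ℝ - ⟪T₁ x, v⟫_ℝ = s * r * (T₀ x - T₁ x) k := by
        rw [← inner_sub_left, hv, EuclideanSpace.inner_single_right]
        simp
      set t := (T₀ x - T₁ x) k with ht
      set D := φ₁ (x + v) - φ₁ x - ⟪T₁ x, v⟫_ℝ with hDdef
      have hge : s * r * t - D ≤ (φ₀ (x + v) - φ₁ (x + v)) - (φ₀ x - φ₁ x) := by
        rw [← hin, hDdef]; linarith
      have hβ0 := hb0 x
      have hβB := hbB x
      have hββ : b x * (s * t) = b x ^ 2 := by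
        rcases le_total 0 (s * t) with h | h
        · rw [hbx, max_eq_right h]; ring
        · rw [hbx, max_eq_left h]; ring
      have h1 : b x * (s * r * t - D) ≤ b x * ((φ₀ (x + v) - φ₁ (x + v)) - (φ₀ x - φ₁ x)) :=
        mul_le_mul_of_nonneg_left hge hβ0
      have h2 : b x * D ≤ 2 * R * D := mul_le_mul_of_nonneg_right hβB hD
      have h3 : b x * (s * r * t - D) = r * b x ^ 2 - b x * D := by
        rw [← hββ]; ring
      linarith
    · rw [Set.indicator_of_notMem hx, hbK x hx]; simp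
  have hint := integral_mono_ae (ib2.const_mul r) (i1.add (i2.const_mul (2 * R))) hpt
  rw [integral_const_mul] at hint
  have hadd := integral_add i1 (i2.const_mul (2 * R))
  rw [integral_const_mul] at hadd
  have hint' : r * ∫ x, b x ^ 2 ∂(rho K) ≤ ∫ x, b x * ((φ₀ (x + v) - φ₁ (x + v)) - (φ₀ x - φ₁ x)) ∂(rho K)
      + 2 * R * ∫ x, (Kin K r).indicator (fun x => φ₁ (x + v) - φ₁ x - ⟪T₁ x, v⟫_ℝ) x ∂(rho K) := by
    rw [← hadd]; exact hint
  have h4 : 2 * R * ∫ x, (Kin K r).indicator (fun x => φ₁ (x + v) - φ₁ x - ⟪T₁ x, v⟫_ℝ) x ∂(rho K)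
      ≤ 2 * R * (2 * R * r * (rho K (K \ Kin K r)).toReal) :=
    mul_le_mul_of_nonneg_left breg (by positivity)
  calc r * ∫ x, b x ^ 2 ∂(rho K) ≤ _ := hint'
    _ ≤ 2 * CP * Real.sqrt (∫ x, b x ^ 2 ∂(rho K)) * W + 2 * R * (2 * R * r * (rho K (K \ Kin K r)).toReal) :=
        add_le_add core h4
    _ = _ := by ring


theorem gn_arith (S W A C₁ r₀ M : ℝ) (hS : 0 ≤ S) (hW : 0 ≤ W) (hC₁ : 0 ≤ C₁) (hr₀ : 0 < r₀)
    (hM : 0 ≤ M) (hSM : S ≤ M)
    (h : ∀ r, 0 < r → r ≤ r₀ → r * S ≤ A * Real.sqrt S * W + C₁ * r ^ 2) :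
    S ≤ (A ^ 2 + 2 * C₁ + M / r₀) * W ^ (2 / 3 : ℝ) := by
  set q := W ^ (2 / 3 : ℝ) with hq
  have hq0 : 0 ≤ q := Real.rpow_nonneg hW _
  have hq3 : q ^ 3 = W ^ 2 := by
    rw [hq, ← Real.rpow_natCast, ← Real.rpow_mul hW, ← Real.rpow_natCast]
    norm_num
  have hMr : 0 ≤ M / r₀ := div_nonneg hM hr₀.le
  rcases hq0.eq_or_lt with hq00 | hqpos
  · -- q = 0, so W = 0
    have hW0 : W = 0 := by
      have : W ^ 2 = 0 := by rw [← hq3, ← hq00]; norm_num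
      exact pow_eq_zero_iff (by norm_num) |>.1 this
    rw [← hq00, mul_zero]
    by_contra hcon
    push Not at hcon
    have hr1 : 0 < min r₀ (S / (2 * (C₁ + 1))) := lt_min hr₀ (by positivity)
    have h1 := h _ hr1 (min_le_left _ _)
    rw [hW0, mul_zero, zero_add] at h1
    have h2 : S ≤ C₁ * min r₀ (S / (2 * (C₁ + 1))) := by
      have : min r₀ (S / (2 * (C₁ + 1))) * S ≤ min r₀ (S / (2 * (C₁ + 1))) * (C₁ * min r₀ (S / (2 * (C₁ + 1)))) := by
        calc _ ≤ _ := h1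
          _ = _ := by ring
      exact le_of_mul_le_mul_left this hr1
    have h3 : C₁ * min r₀ (S / (2 * (C₁ + 1))) ≤ C₁ * (S / (2 * (C₁ + 1))) :=
      mul_le_mul_of_nonneg_left (min_le_right _ _) hC₁
    have h4 : C₁ * (S / (2 * (C₁ + 1))) ≤ S / 2 := by
      rw [mul_div_assoc', div_le_div_iff₀ (by positivity) (by norm_num)]
      nlinarith
    linarith
  · rcases le_or_gt q r₀ with hqr | hqr
    · have h1 := h q hqpos hqr
      set σ := Real.sqrt S with hσ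
      have hσ2 : σ ^ 2 = S := Real.sq_sqrt hS
      have h2 : 0 ≤ (q * σ - A * W) ^ 2 := sq_nonneg _
      have h3 : q ^ 2 * S ≤ q ^ 2 * ((A ^ 2 + 2 * C₁) * q) := by
        have e1 : 2 * q * (q * S) ≤ 2 * q * (A * σ * W + C₁ * q ^ 2) :=
          mul_le_mul_of_nonneg_left h1 (by positivity)
        have e2 : (q * σ - A * W) ^ 2 = q ^ 2 * S - 2 * q * (A * σ * W) + A ^ 2 * q ^ 3 := by
          rw [hq3, ← hσ2]; ring
        nlinarith
      have h4 : S ≤ (A ^ 2 + 2 * C₁) * q := le_of_mul_le_mul_left h3 (by positivity)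
      have h5 : 0 ≤ M / r₀ * q := by positivity
      linarith
    · have h1 : M ≤ M / r₀ * q := by
        calc M = M / r₀ * r₀ := by field_simp
          _ ≤ M / r₀ * q := mul_le_mul_of_nonneg_left hqr.le hMr
      have h2 : 0 ≤ (A ^ 2 + 2 * C₁) * q := by positivity
      linarith

theorem gn_sum (K : Set (E d)) (hKc : IsCompact K) (hKi : (interior K).Nonempty)
    (R : ℝ) (hR : 0 ≤ R) (CP W : ℝ) (hCP : 0 ≤ CP) (hW : 0 ≤ W)
    (φ₀ φ₁ : E d → ℝ) (T₀ T₁ : E d → E d) (h₀ : IsPot K R φ₀ T₀) (h₁ : IsPot K R φ₁ T₁)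
    (hP : ∀ η : E d → ℝ, Measurable η → (∃ B, ∀ x, |η x| ≤ B) → ∫ x, η x ∂(rho K) = 0 →
        |∫ x, η x * (φ₀ x - φ₁ x) ∂(rho K)| ≤ CP * Real.sqrt (∫ x, η x ^ 2 ∂(rho K)) * W)
    (r : ℝ) (hr : 0 ≤ r) (c : ℝ) (hc : (rho K (K \ Kin K r)).toReal ≤ c * r) :
    r * ∫ x, ‖T₀ x - T₁ x‖ ^ 2 ∂(rho K)
      ≤ (4 * d * CP) * Real.sqrt (∫ x, ‖T₀ x - T₁ x‖ ^ 2 ∂(rho K)) * W + ((8 * d + 4) * R ^ 2 * c) * r ^ 2 := by
  have hprob := isProbabilityMeasure_rho K hKc hKi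
  set S := ∫ x, ‖T₀ x - T₁ x‖ ^ 2 ∂(rho K) with hS
  have hKinm : MeasurableSet (Kin K r) := (isClosed_Kin K hKc.isClosed r).measurableSet
  have hKm : MeasurableSet K := hKc.isClosed.measurableSet
  have hbd : ∀ᵐ x ∂(rho K), ‖T₀ x - T₁ x‖ ≤ 2 * R := by
    filter_upwards [gn_ae_of_restrict K h₀.bdd, gn_ae_of_restrict K h₁.bdd] with x hx0 hx1
    have h3 := norm_sub_le (T₀ x) (T₁ x)
    linarith
  have iS : Integrable (fun x => ‖T₀ x - T₁ x‖ ^ 2) (rho K) := by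
    refine gn_int_bdd K hKc hKi _ ((h₀.measT.sub h₁.measT).norm.pow_const 2) ((2 * R) ^ 2) ?_
    filter_upwards [hbd] with x hx
    rw [abs_pow, abs_norm]
    exact pow_le_pow_left₀ (norm_nonneg _) hx 2
  have ib2 : ∀ (k : Fin d) (s : ℝ), (s = 1 ∨ s = -1) →
      Integrable (fun w => gnB K r R T₀ T₁ k s w ^ 2) (rho K) := by
    intro k s hs
    refine gn_int_bdd K hKc hKi _ ((gnB_measurable K hKc.isClosed r R T₀ T₁ h₀.measT h₁.measT k s).pow_const 2)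
      ((2 * R) ^ 2) (Filter.Eventually.of_forall fun x => ?_)
    rw [abs_pow, abs_of_nonneg (gnB_nonneg K r R T₀ T₁ k s x)]
    exact pow_le_pow_left₀ (gnB_nonneg K r R T₀ T₁ k s x) (gnB_le K r R hR T₀ T₁ k s hs x) 2
  -- each piece is at most `S`
  have hle : ∀ (k : Fin d) (s : ℝ), (s = 1 ∨ s = -1) → ∫ w, gnB K r R T₀ T₁ k s w ^ 2 ∂(rho K) ≤ S := by
    intro k s hs
    refine integral_mono_ae (ib2 k s hs) iS ?_
    filter_upwards [gn_ae_of_restrict K h₀.bdd, gn_ae_of_restrict K h₁.bdd] with x hx0 hx1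
    show gnB K r R T₀ T₁ k s x ^ 2 ≤ ‖T₀ x - T₁ x‖ ^ 2
    refine pow_le_pow_left₀ (gnB_nonneg K r R T₀ T₁ k s x) ?_ 2
    by_cases hx : x ∈ Kin K r
    · rw [gnB_of_mem K r R T₀ T₁ k s x hx, gnC_eq R T₀ T₁ k x hx0 hx1]
      have := PiLp.norm_apply_le (T₀ x - T₁ x) k
      rw [Real.norm_eq_abs] at this
      have h2 := abs_le.1 this
      rcases hs with rfl | rfl
      · exact max_le (norm_nonneg _) (by linarith [h2.2])
      · exact max_le (norm_nonneg _) (by linarith [h2.1])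
    · rw [gnB_zero K r R T₀ T₁ k s x hx]; exact norm_nonneg _
  -- each piece estimate
  have hpiece : ∀ (k : Fin d) (s : ℝ), (s = 1 ∨ s = -1) →
      r * ∫ w, gnB K r R T₀ T₁ k s w ^ 2 ∂(rho K) ≤ 2 * CP * Real.sqrt S * W + 4 * R ^ 2 * r * (c * r) := by
    intro k s hs
    have h1 := gn_ks K hKc hKi R hR CP W hCP hW φ₀ φ₁ T₀ T₁ h₀ h₁ hP r hr k s hs
    have h2 : Real.sqrt (∫ w, gnB K r R T₀ T₁ k s w ^ 2 ∂(rho K)) ≤ Real.sqrt S :=
      Real.sqrt_le_sqrt (hle k s hs)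
    have h3 : 2 * CP * Real.sqrt (∫ w, gnB K r R T₀ T₁ k s w ^ 2 ∂(rho K)) * W ≤ 2 * CP * Real.sqrt S * W := by
      gcongr
    have h4 : 4 * R ^ 2 * r * (rho K (K \ Kin K r)).toReal ≤ 4 * R ^ 2 * r * (c * r) :=
      mul_le_mul_of_nonneg_left hc (by positivity)
    linarith
  -- pointwise decomposition
  have hpt : ∀ᵐ x ∂(rho K), ‖T₀ x - T₁ x‖ ^ 2 ≤
      (∑ k : Fin d, (gnB K r R T₀ T₁ k 1 x ^ 2 + gnB K r R T₀ T₁ k (-1) x ^ 2))
        + (K \ Kin K r).indicator (fun _ => 4 * R ^ 2) x := by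
    filter_upwards [gn_ae_of_restrict K h₀.bdd, gn_ae_of_restrict K h₁.bdd, gn_ae_mem K hKc, hbd]
      with x hx0 hx1 hxK hxb
    by_cases hx : x ∈ Kin K r
    · have hnot : x ∉ K \ Kin K r := fun h => h.2 hx
      rw [Set.indicator_of_notMem hnot, add_zero, EuclideanSpace.norm_sq_eq]
      refine le_of_eq (Finset.sum_congr rfl fun k _ => ?_)
      rw [gnB_of_mem K r R T₀ T₁ k 1 x hx, gnB_of_mem K r R T₀ T₁ k (-1) x hx, gnC_eq R T₀ T₁ k x hx0 hx1,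
        Real.norm_eq_abs, sq_abs]
      rcases le_total 0 ((T₀ x - T₁ x) k) with h | h
      · rw [max_eq_right (by linarith), max_eq_left (by linarith)]; ring
      · rw [max_eq_left (by linarith), max_eq_right (by linarith)]; ring
    · have hmem : x ∈ K \ Kin K r := ⟨hxK, hx⟩
      rw [Set.indicator_of_mem hmem]
      have h1 : ‖T₀ x - T₁ x‖ ^ 2 ≤ (2 * R) ^ 2 := pow_le_pow_left₀ (norm_nonneg _) hxb 2
      have h2 : 0 ≤ ∑ k : Fin d, (gnB K r R T₀ T₁ k 1 x ^ 2 + gnB K r R T₀ T₁ k (-1) x ^ 2) :=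
        Finset.sum_nonneg fun k _ => by positivity
      nlinarith
  have isum : Integrable (fun x => ∑ k : Fin d, (gnB K r R T₀ T₁ k 1 x ^ 2 + gnB K r R T₀ T₁ k (-1) x ^ 2))
      (rho K) :=
    integrable_finsetSum _ fun k _ => (ib2 k 1 (Or.inl rfl)).add (ib2 k (-1) (Or.inr rfl))
  have iind : Integrable ((K \ Kin K r).indicator (fun _ => 4 * R ^ 2 : E d → ℝ)) (rho K) :=
    (integrable_const _).indicator (hKm.diff hKinm)
  have hint := integral_mono_ae iS (isum.add iind) hpt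
  have hadd := integral_add isum iind
  have hsum : ∫ x, ∑ k : Fin d, (gnB K r R T₀ T₁ k 1 x ^ 2 + gnB K r R T₀ T₁ k (-1) x ^ 2) ∂(rho K)
      = ∑ k : Fin d, (∫ x, gnB K r R T₀ T₁ k 1 x ^ 2 ∂(rho K) + ∫ x, gnB K r R T₀ T₁ k (-1) x ^ 2 ∂(rho K)) := by
    have e := integral_finsetSum (μ := rho K) (Finset.univ : Finset (Fin d))
      (f := fun k x => gnB K r R T₀ T₁ k 1 x ^ 2 + gnB K r R T₀ T₁ k (-1) x ^ 2)
      (fun k _ => (ib2 k 1 (Or.inl rfl)).add (ib2 k (-1) (Or.inr rfl)))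
    rw [e]
    exact Finset.sum_congr rfl fun k _ => integral_add (ib2 k 1 (Or.inl rfl)) (ib2 k (-1) (Or.inr rfl))
  have hind : ∫ x, (K \ Kin K r).indicator (fun _ => 4 * R ^ 2 : E d → ℝ) x ∂(rho K)
      = (rho K (K \ Kin K r)).toReal * (4 * R ^ 2) := by
    rw [integral_indicator_const _ (hKm.diff hKinm)]
    simp [Measure.real]
  have hS1 : S ≤ ∑ k : Fin d, (∫ x, gnB K r R T₀ T₁ k 1 x ^ 2 ∂(rho K) + ∫ x, gnB K r R T₀ T₁ k (-1) x ^ 2 ∂(rho K))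
      + (rho K (K \ Kin K r)).toReal * (4 * R ^ 2) := by
    rw [← hsum, ← hind, ← hadd]; exact hint
  have hS2 : r * S ≤ ∑ k : Fin d, (r * ∫ x, gnB K r R T₀ T₁ k 1 x ^ 2 ∂(rho K)
      + r * ∫ x, gnB K r R T₀ T₁ k (-1) x ^ 2 ∂(rho K)) + r * ((c * r) * (4 * R ^ 2)) := by
    have e1 := mul_le_mul_of_nonneg_left hS1 hr
    rw [mul_add, Finset.mul_sum] at e1
    have e2 : r * ((rho K (K \ Kin K r)).toReal * (4 * R ^ 2)) ≤ r * ((c * r) * (4 * R ^ 2)) := by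
      gcongr
    have e3 : ∑ k : Fin d, r * (∫ x, gnB K r R T₀ T₁ k 1 x ^ 2 ∂(rho K) + ∫ x, gnB K r R T₀ T₁ k (-1) x ^ 2 ∂(rho K))
        = ∑ k : Fin d, (r * ∫ x, gnB K r R T₀ T₁ k 1 x ^ 2 ∂(rho K)
      + r * ∫ x, gnB K r R T₀ T₁ k (-1) x ^ 2 ∂(rho K)) := Finset.sum_congr rfl fun k _ => by ring
    linarith
  have hS3 : ∑ k : Fin d, (r * ∫ x, gnB K r R T₀ T₁ k 1 x ^ 2 ∂(rho K)
      + r * ∫ x, gnB K r R T₀ T₁ k (-1) x ^ 2 ∂(rho K))
      ≤ ∑ _k : Fin d, (2 * (2 * CP * Real.sqrt S * W + 4 * R ^ 2 * r * (c * r))) :=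
    Finset.sum_le_sum fun k _ => by
      have a1 := hpiece k 1 (Or.inl rfl)
      have a2 := hpiece k (-1) (Or.inr rfl)
      linarith
  rw [Finset.sum_const, Finset.card_univ, Fintype.card_fin, nsmul_eq_mul] at hS3
  calc r * S ≤ _ := hS2
    _ ≤ (d : ℝ) * (2 * (2 * CP * Real.sqrt S * W + 4 * R ^ 2 * r * (c * r))) + r * ((c * r) * (4 * R ^ 2)) := by
        linarith
    _ = _ := by ring

theorem gn_step (K : Set (E d)) (hKc : IsCompact K) (hKv : Convex ℝ K) (hKi : (interior K).Nonempty)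
    (R : ℝ) (hR : 0 ≤ R) (CP : ℝ) (hCP : 0 ≤ CP) :
    ∃ C : ℝ, 0 ≤ C ∧ ∀ (φ₀ φ₁ : E d → ℝ) (T₀ T₁ : E d → E d) (W : ℝ), IsPot K R φ₀ T₀ → IsPot K R φ₁ T₁ → 0 ≤ W →
      (∀ η : E d → ℝ, Measurable η → (∃ B, ∀ x, |η x| ≤ B) → ∫ x, η x ∂(rho K) = 0 →
        |∫ x, η x * (φ₀ x - φ₁ x) ∂(rho K)| ≤ CP * Real.sqrt (∫ x, η x ^ 2 ∂(rho K)) * W) →
      ∫ x, ‖T₀ x - T₁ x‖ ^ 2 ∂(rho K) ≤ C * W ^ (2 / 3 : ℝ) := by
  obtain ⟨c, r₀, hc, hr₀, hcr⟩ := rho_diff_Kin_le K hKc hKv hKi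
  refine ⟨(4 * d * CP) ^ 2 + 2 * ((8 * d + 4) * R ^ 2 * c) + (2 * R) ^ 2 / r₀, by positivity, ?_⟩
  intro φ₀ φ₁ T₀ T₁ W h₀ h₁ hW hP
  have hprob := isProbabilityMeasure_rho K hKc hKi
  have hbd : ∀ᵐ x ∂(rho K), ‖T₀ x - T₁ x‖ ≤ 2 * R := by
    filter_upwards [gn_ae_of_restrict K h₀.bdd, gn_ae_of_restrict K h₁.bdd] with x hx0 hx1
    have h3 := norm_sub_le (T₀ x) (T₁ x)
    linarith
  have hSM : ∫ x, ‖T₀ x - T₁ x‖ ^ 2 ∂(rho K) ≤ (2 * R) ^ 2 := by
    have h1 : ∫ x, ‖T₀ x - T₁ x‖ ^ 2 ∂(rho K) ≤ ∫ _x, (2 * R) ^ 2 ∂(rho K) := by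
      refine integral_mono_of_nonneg (Filter.Eventually.of_forall fun x => by positivity) (integrable_const _) ?_
      filter_upwards [hbd] with x hx
      exact pow_le_pow_left₀ (norm_nonneg _) hx 2
    simpa using h1
  refine gn_arith _ W _ _ r₀ _ (integral_nonneg fun x => by positivity) hW (by positivity) hr₀ (by positivity)
    hSM ?_
  intro r hr hrr
  exact gn_sum K hKc hKi R hR CP W hCP hW φ₀ φ₁ T₀ T₁ h₀ h₁ hP r hr.le c (hcr r hr.le hrr)

end Crest.Agent.R82
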