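import Crest.Agent.R82.Defs

/-!
# Row 82, task GEO: the uniform measure, the inner parallel body, the Bregman integral estimate

Blueprint.
* `rho K = (vol K)⁻¹ • vol.restrict K`, `0 < vol K < ∞`.
* `rho_diff_Kin_le`: take `closedBall x₀ r₀ ⊆ K`.  For `t = r / r₀ ∈ [0,1]` the homothetic copy `x₀ + (1-t)(K - x₀)` is contained in `Kin K r`
  (`x + v = (1-t) k + t (x₀ + v / t)`), its volume is `(1-t)^d vol K ≥ (1 - d t) vol K`.  So `c = d / r₀`.
* `integral_bregman_le`: `D(x,v) = φ (x+v) - φ x - ⟪T x, v⟫`.  For a.e. `x ∈ Kin K r`, (`‖v‖ ≤ r`, so `x + v ∈ K`) the subgradient inequality at `x+v`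
  gives `D(x,v) ≤ ⟪T (x+v) - T x, v⟫`; `∫_{Kin} ⟪T(x+v),v⟫ dx = ∫_{Kin+v} ⟪T x, v⟫ dx`, `Kin + v ⊆ K`, and
  `vol((Kin+v) \ Kin) = vol(Kin \ (Kin+v)) ≤ vol(K \ Kin)`.
-/

set_option autoImplicit false

namespace Crest.Agent.R82

open MeasureTheory
open scoped ENNReal NNReal InnerProductSpace

variable {d : ℕ}

theorem volume_pos_of_interior (K : Set (E d)) (hKi : (interior K).Nonempty) : 0 < volume K := by
  have h1 : 0 < volume (interior K) := isOpen_interior.measure_pos volume hKi
  exact lt_of_lt_of_le h1 (measure_mono interior_subset)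

theorem isProbabilityMeasure_rho (K : Set (E d)) (hKc : IsCompact K) (hKi : (interior K).Nonempty) :
    IsProbabilityMeasure (rho K) := by
  constructor
  have h0 := (volume_pos_of_interior K hKi).ne'
  have h1 : volume K ≠ ∞ := hKc.measure_lt_top.ne
  simp [rho, Crest.AnalysisR.OT.uniformProbOn, ENNReal.inv_mul_cancel h0 h1]

theorem rho_compl (K : Set (E d)) (hKc : IsCompact K) : rho K Kᶜ = 0 := by
  have : (volume.restrict K) Kᶜ = 0 := by
    rw [Measure.restrict_apply hKc.measurableSet.compl]; simp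
  simp [rho, Crest.AnalysisR.OT.uniformProbOn, this]

theorem rho_absolutelyContinuous (K : Set (E d)) : rho K ≪ volume.restrict K := by
  exact Measure.smul_absolutelyContinuous

theorem restrict_absolutelyContinuous_rho (K : Set (E d)) (hKc : IsCompact K) (hKi : (interior K).Nonempty) :
    volume.restrict K ≪ rho K := by
  have h1 : volume K ≠ ∞ := hKc.measure_lt_top.ne
  exact Measure.absolutelyContinuous_smul (by simp [h1])

theorem integral_rho (K : Set (E d)) {F : Type*} [NormedAddCommGroup F] [NormedSpace ℝ F] (f : E d → F) :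
    ∫ x, f x ∂(rho K) = (volume K).toReal⁻¹ • ∫ x in K, f x := by
  simp [rho, Crest.AnalysisR.OT.uniformProbOn, integral_smul_measure, ENNReal.toReal_inv]

theorem isClosed_Kin (K : Set (E d)) (hK : IsClosed K) (r : ℝ) : IsClosed (Kin K r) := by
  have : Kin K r = ⋂ v ∈ Metric.closedBall (0 : E d) r, (fun x => x + v) ⁻¹' K := by
    ext x
    simp only [Kin, Set.mem_setOf_eq, Set.mem_iInter, Set.mem_preimage]
    constructor
    · intro h v hv
      apply h
      simpa [dist_eq_norm] using hv
    · intro h w hw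
      have := h (w - x) (by simpa [dist_eq_norm] using hw)
      simpa using this
  rw [this]
  exact isClosed_biInter (fun v _ => hK.preimage (by fun_prop))

theorem Kin_subset (K : Set (E d)) (r : ℝ) (hr : 0 ≤ r) : Kin K r ⊆ K := by
  intro x hx
  exact hx (Metric.mem_closedBall_self hr)

theorem add_mem_of_mem_Kin (K : Set (E d)) (r : ℝ) (x v : E d) (hx : x ∈ Kin K r) (hv : ‖v‖ ≤ r) :
    x + v ∈ K := by
  apply hx
  simpa [dist_eq_norm] using hv

theorem rho_apply (K : Set (E d)) (A : Set (E d)) (hA : A ⊆ K) :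
    (rho K A).toReal = (volume A).toReal / (volume K).toReal := by
  have : (volume.restrict K) A = volume A := by
    rw [Measure.restrict_eq_self _ hA]
  simp [rho, Crest.AnalysisR.OT.uniformProbOn, this, ENNReal.toReal_mul, ENNReal.toReal_inv, div_eq_inv_mul]

theorem homothety_subset_Kin (K : Set (E d)) (hKv : Convex ℝ K) (x₀ : E d) (r₀ : ℝ) (hr₀ : 0 < r₀)
    (hball : Metric.closedBall x₀ r₀ ⊆ K) (r : ℝ) (hr : 0 ≤ r) (hr' : r ≤ r₀) :
    (AffineMap.homothety x₀ (1 - r / r₀)) '' K ⊆ Kin K r := by
  rintro _ ⟨k, hk, rfl⟩ w hw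
  rcases hr.eq_or_lt with h0 | hpos
  · subst h0
    have : w = k := by
      have := Metric.mem_closedBall.1 hw
      have h2 : dist w ((AffineMap.homothety x₀ (1 - 0 / r₀ : ℝ)) k) = 0 := le_antisymm this dist_nonneg
      have h3 := eq_of_dist_eq_zero h2
      rw [h3]; simp [AffineMap.homothety_apply]
    rw [this]; exact hk
  · set t := r / r₀ with ht
    have ht0 : 0 < t := div_pos hpos hr₀
    have ht1 : t ≤ 1 := (div_le_one hr₀).2 hr'
    set v := w - (AffineMap.homothety x₀ (1 - t)) k with hv
    have hvn : ‖v‖ ≤ r := by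
      have := Metric.mem_closedBall.1 hw
      simpa [dist_eq_norm, hv] using this
    have hz : x₀ + (1 / t) • v ∈ K := by
      apply hball
      rw [Metric.mem_closedBall, dist_eq_norm]
      simp only [add_sub_cancel_left, norm_smul, Real.norm_eq_abs]
      rw [abs_of_pos (by positivity)]
      calc 1 / t * ‖v‖ ≤ 1 / t * r := by gcongr
        _ = r₀ := by rw [ht]; field_simp
    have : w = (1 - t) • k + t • (x₀ + (1 / t) • v) := by
      have h1 : w = (AffineMap.homothety x₀ (1 - t)) k + v := by rw [hv]; abel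
      rw [h1, AffineMap.homothety_apply]
      simp only [vsub_eq_sub, vadd_eq_add, smul_add, smul_smul, smul_sub]
      rw [mul_one_div_cancel ht0.ne', one_smul]
      simp only [sub_smul, one_smul]
      abel
    rw [this]
    exact hKv hk hz (by linarith) ht0.le (by ring)

/-- the boundary layer of width `r` has `rho`-measure `≤ c r`. -/
theorem rho_diff_Kin_le (K : Set (E d)) (hKc : IsCompact K) (hKv : Convex ℝ K)
    (hKi : (interior K).Nonempty) :
    ∃ c r₀ : ℝ, 0 ≤ c ∧ 0 < r₀ ∧ ∀ r, 0 ≤ r → r ≤ r₀ → (rho K (K \ Kin K r)).toReal ≤ c * r := by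
  obtain ⟨x₀, hx₀⟩ := hKi
  obtain ⟨r₀, hr₀, hball⟩ := Metric.nhds_basis_closedBall.mem_iff.1 (mem_interior_iff_mem_nhds.1 hx₀)
  refine ⟨d / r₀, r₀, by positivity, hr₀, fun r hr hr' => ?_⟩
  have hVpos : 0 < (volume K).toReal :=
    ENNReal.toReal_pos (volume_pos_of_interior K ⟨x₀, hx₀⟩).ne' hKc.measure_lt_top.ne
  rw [rho_apply K _ Set.sdiff_subset, div_le_iff₀ hVpos]
  have hsub := homothety_subset_Kin K hKv x₀ r₀ hr₀ hball r hr hr'
  have hKinm : MeasurableSet (Kin K r) := (isClosed_Kin K hKc.isClosed r).measurableSet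
  have hvd : volume (K \ Kin K r) = volume K - volume (Kin K r) :=
    measure_diff (Kin_subset K r hr) hKinm.nullMeasurableSet
      (measure_mono (Kin_subset K r hr) |>.trans_lt hKc.measure_lt_top).ne
  have hKinfin : volume (Kin K r) ≠ ∞ := (measure_mono (Kin_subset K r hr) |>.trans_lt hKc.measure_lt_top).ne
  rw [hvd, ENNReal.toReal_sub_of_le (measure_mono (Kin_subset K r hr)) hKc.measure_lt_top.ne]
  have himg : volume ((AffineMap.homothety x₀ (1 - r / r₀)) '' K)
      = ENNReal.ofReal (|(1 - r / r₀) ^ (Module.finrank ℝ (E d))|) * volume K :=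
    Measure.addHaar_image_homothety volume x₀ (1 - r / r₀) K
  have ht1 : r / r₀ ≤ 1 := (div_le_one hr₀).2 hr'
  have ht0 : 0 ≤ r / r₀ := div_nonneg hr hr₀.le
  have h1 : (1 - r / r₀) ^ d * (volume K).toReal ≤ (volume (Kin K r)).toReal := by
    have h2 : (volume ((AffineMap.homothety x₀ (1 - r / r₀)) '' K)).toReal ≤ (volume (Kin K r)).toReal :=
      ENNReal.toReal_mono hKinfin (measure_mono hsub)
    rw [himg, ENNReal.toReal_mul, ENNReal.toReal_ofReal (abs_nonneg _)] at h2
    simpa [abs_of_nonneg (pow_nonneg (sub_nonneg.2 ht1) _)] using h2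
  have hbern : 1 - d * (r / r₀) ≤ (1 - r / r₀) ^ d := by
    have := one_add_mul_le_pow (a := -(r / r₀)) (by linarith) d
    simpa [sub_eq_add_neg] using this
  have : (1 - d * (r / r₀)) * (volume K).toReal ≤ (volume (Kin K r)).toReal :=
    le_trans (mul_le_mul_of_nonneg_right hbern hVpos.le) h1
  have e : (d / r₀ * r : ℝ) = d * (r / r₀) := by ring
  rw [e]
  nlinarith

theorem bregman_nonneg (K : Set (E d)) (R : ℝ) (φ : E d → ℝ) (T : E d → E d) (h : IsPot K R φ T) (v : E d) :
    ∀ᵐ x ∂(volume.restrict K), 0 ≤ φ (x + v) - φ x - ⟪T x, v⟫_ℝ := by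
  filter_upwards [h.sub] with x hx
  have := hx (x + v)
  simp only [add_sub_cancel_left] at this
  linarith

theorem setIntegral_rho (K : Set (E d)) (hKc : IsCompact K) (A : Set (E d)) (hA : A ⊆ K) (f : E d → ℝ) :
    ∫ x in A, f x ∂(rho K) = (volume K).toReal⁻¹ * ∫ x in A, f x := by
  have : (rho K).restrict A = (volume K)⁻¹ • volume.restrict A := by
    simp only [rho, Crest.AnalysisR.OT.uniformProbOn]
    rw [Measure.restrict_smul, Measure.restrict_restrict_of_subset hA]
  rw [this, integral_smul_measure, ENNReal.toReal_inv, smul_eq_mul]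

theorem IsPot.continuous' {K : Set (E d)} {R : ℝ} {φ : E d → ℝ} {T : E d → E d} (h : IsPot K R φ T) :
    Continuous φ := by
  have : LipschitzWith (Real.toNNReal R) φ := by
    apply LipschitzWith.of_dist_le_mul
    intro x y
    rw [Real.dist_eq, dist_eq_norm]
    calc |φ x - φ y| ≤ R * ‖x - y‖ := h.lip x y
      _ ≤ (Real.toNNReal R : ℝ) * ‖x - y‖ := by
        gcongr
        exact Real.le_coe_toNNReal R
  exact this.continuous

theorem integral_bregman_le (K : Set (E d)) (hKc : IsCompact K) (hKi : (interior K).Nonempty)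
    (R : ℝ) (φ : E d → ℝ) (T : E d → E d) (h : IsPot K R φ T) (r : ℝ) (hr : 0 ≤ r) (v : E d) (hv : ‖v‖ ≤ r) :
    ∫ x in Kin K r, (φ (x + v) - φ x - ⟪T x, v⟫_ℝ) ∂(rho K) ≤ 2 * R * ‖v‖ * (rho K (K \ Kin K r)).toReal := by
  set A := Kin K r with hA
  have hAK : A ⊆ K := Kin_subset K r hr
  have hAcl : IsClosed A := isClosed_Kin K hKc.isClosed r
  have hAm : MeasurableSet A := hAcl.measurableSet
  have hAc : IsCompact A := hKc.of_isClosed_subset hAcl hAK
  have hVpos : 0 < (volume K).toReal :=
    ENNReal.toReal_pos (volume_pos_of_interior K hKi).ne' hKc.measure_lt_top.ne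
  set B := (fun x => x + v) '' A with hB
  have hBK : B ⊆ K := by
    rintro _ ⟨x, hx, rfl⟩
    exact add_mem_of_mem_Kin K r x v hx hv
  have hBc : IsCompact B := hAc.image (by fun_prop)
  have hBm : MeasurableSet B := hBc.measurableSet
  have hmp : MeasurePreserving (fun x : E d => x + v) volume volume := measurePreserving_add_right volume v
  have hemb : MeasurableEmbedding (fun x : E d => x + v) := measurableEmbedding_addRight v
  set F : E d → ℝ := fun y => ⟪T y, v⟫_ℝ with hF
  have hFm : Measurable F := by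
    have := h.measT
    fun_prop
  have hFb : ∀ᵐ y ∂(volume.restrict K), ‖F y‖ ≤ R * ‖v‖ := by
    filter_upwards [h.bdd] with y hy
    calc ‖F y‖ ≤ ‖T y‖ * ‖v‖ := by simpa [hF] using abs_real_inner_le_norm (T y) v
      _ ≤ R * ‖v‖ := by gcongr
  have hFbS : ∀ S : Set (E d), S ⊆ K → ∀ᵐ y ∂(volume.restrict S), ‖F y‖ ≤ R * ‖v‖ := fun S hS =>
    ae_mono (Measure.restrict_mono hS le_rfl) hFb
  have hfin : ∀ S : Set (E d), S ⊆ K → volume S < ∞ := fun S hS =>
    (measure_mono hS).trans_lt hKc.measure_lt_top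
  have hFint : ∀ S : Set (E d), S ⊆ K → IntegrableOn F S volume := fun S hS => by
    haveI : IsFiniteMeasure (volume.restrict S) := ⟨by simpa using hfin S hS⟩
    exact Integrable.of_bound hFm.aestronglyMeasurable (R * ‖v‖) (hFbS S hS)
  -- pointwise bound
  have hbad : ∀ᵐ x ∂(volume.restrict A), φ (x + v) - φ x - ⟪T x, v⟫_ℝ ≤ F (x + v) - F x := by
    have h1 : ∀ᵐ y ∂(volume.restrict B), ∀ w, φ y + ⟪T y, w - y⟫_ℝ ≤ φ w :=
      ae_mono (Measure.restrict_mono hBK le_rfl) h.sub
    have h2 : ∀ᵐ x ∂(volume.restrict A), ∀ w, φ (x + v) + ⟪T (x + v), w - (x + v)⟫_ℝ ≤ φ w := by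
      have hmpr : MeasurePreserving (fun x : E d => x + v) (volume.restrict A) (volume.restrict B) :=
        hmp.restrict_image_emb hemb A
      exact hmpr.quasiMeasurePreserving.ae h1
    filter_upwards [h2] with x hx
    have := hx x
    have e : x - (x + v) = -v := by abel
    rw [e, inner_neg_right] at this
    simp only [hF]
    linarith
  have hφc := h.continuous'
  have hD : IntegrableOn (fun x => φ (x + v) - φ x - ⟪T x, v⟫_ℝ) A volume := by
    have c1 : IntegrableOn (fun x => φ (x + v) - φ x) A volume :=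
      (ContinuousOn.integrableOn_compact hAc (by fun_prop))
    exact c1.sub (hFint A hAK)
  have hFs : IntegrableOn (fun x => F (x + v)) A volume := by
    have := (hmp.restrict_image_emb hemb A).integrable_comp_emb hemb (g := F)
    exact this.2 (hFint B hBK)
  rw [setIntegral_rho K hKc A hAK, rho_apply K _ Set.sdiff_subset]
  have key : ∫ x in A, (φ (x + v) - φ x - ⟪T x, v⟫_ℝ) ≤ 2 * R * ‖v‖ * (volume (K \ A)).toReal := by
    calc ∫ x in A, (φ (x + v) - φ x - ⟪T x, v⟫_ℝ) ≤ ∫ x in A, (F (x + v) - F x) :=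
          integral_mono_ae hD (hFs.sub (hFint A hAK)) hbad
      _ = (∫ x in A, F (x + v)) - ∫ x in A, F x := integral_sub hFs (hFint A hAK)
      _ = (∫ y in B, F y) - ∫ x in A, F x := by
          rw [← hmp.setIntegral_image_emb hemb F A]
      _ = (∫ y in B \ A, F y) - ∫ y in A \ B, F y := by
          rw [← integral_inter_add_sdiff hAm (hFint B hBK), ← integral_inter_add_sdiff hBm (hFint A hAK),
            Set.inter_comm A B]
          ring
      _ ≤ R * ‖v‖ * (volume (B \ A)).toReal + R * ‖v‖ * (volume (A \ B)).toReal := by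
          have a1 := norm_setIntegral_le_of_norm_le_const_ae (hfin (B \ A) (Set.sdiff_subset.trans hBK))
            (hFbS (B \ A) (Set.sdiff_subset.trans hBK))
          have a2 := norm_setIntegral_le_of_norm_le_const_ae (hfin (A \ B) (Set.sdiff_subset.trans hAK))
            (hFbS (A \ B) (Set.sdiff_subset.trans hAK))
          rw [Real.norm_eq_abs] at a1 a2
          have b1 := (abs_le.1 a1).2
          have b2 := (abs_le.1 a2).1
          simp only [Measure.real] at b1 b2
          linarith
      _ ≤ 2 * R * ‖v‖ * (volume (K \ A)).toReal := by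
          have hvolAB : volume A = volume B := (hmp.measure_preimage_emb hemb B ▸ by
            rw [hB, Set.preimage_image_eq _ (add_left_injective v)])
          have e1 : (volume (A \ B)).toReal = (volume (B \ A)).toReal := by
            have u1 : volume (A ∩ B) + volume (A \ B) = volume A := measure_inter_add_sdiff A hBm
            have u2 : volume (B ∩ A) + volume (B \ A) = volume B := measure_inter_add_sdiff B hAm
            rw [Set.inter_comm B A] at u2
            have f1 : volume (A ∩ B) ≠ ∞ := (hfin _ (Set.inter_subset_left.trans hAK)).ne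
            have : volume (A \ B) = volume (B \ A) := by
              have : volume (A ∩ B) + volume (A \ B) = volume (A ∩ B) + volume (B \ A) := by
                rw [u1, u2, hvolAB]
              exact (ENNReal.add_right_inj f1).1 this
            rw [this]
          have e2 : (volume (B \ A)).toReal ≤ (volume (K \ A)).toReal :=
            ENNReal.toReal_mono (hfin _ Set.sdiff_subset).ne (measure_mono (Set.sdiff_subset_sdiff_left hBK))
          have hRv : 0 ≤ R * ‖v‖ := by
            have hKpos : volume.restrict K ≠ 0 := by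
              intro h0
              have := volume_pos_of_interior K hKi
              rw [Measure.restrict_eq_zero] at h0
              exact this.ne' h0
            haveI : (ae (volume.restrict K)).NeBot := ae_neBot.2 hKpos
            obtain ⟨y, hy⟩ := hFb.exists
            exact le_trans (norm_nonneg _) hy
          rw [e1]
          nlinarith
  calc (volume K).toReal⁻¹ * ∫ x in A, (φ (x + v) - φ x - ⟪T x, v⟫_ℝ)
      ≤ (volume K).toReal⁻¹ * (2 * R * ‖v‖ * (volume (K \ A)).toReal) := by gcongr
    _ = 2 * R * ‖v‖ * ((volume (K \ A)).toReal / (volume K).toReal) := by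
        field_simp

end Crest.Agent.R82
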