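import Crest.Agent.R82.Defs

/-!
# Row 82, task SD1: Laguerre cells, basic lemmas (this file); task SD2 = `semidiscrete_exists` in SDex.lean

Blueprint for `semidiscrete_exists`.  `ϱ` probability measure, `ϱ ≪ volume`, carried by a bounded set `K` (`‖x‖ ≤ D`), sites `S`
(`‖y‖ ≤ R` for some `R`), masses `m y > 0`, `∑ m = 1`.
Minimise `Φ ψ = ∫ lagPot S ψ dϱ + ∑_{y ∈ S} m y * ψ y` over `ψ : S → ℝ` (or `E d → ℝ`, only the values on `S` matter).
`Φ` is continuous, invariant under adding constants; after normalising `min ψ = 0`, replacing `ψ y` by `min (ψ y) M` with `M = 2 D R + 1`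
does not increase `Φ` (a site with `ψ y > 2DR` never wins on `K`), so a minimiser exists on the compact box `[0,M]^S`.
At a minimiser, for `y ∈ S`, `t > 0`: `0 ≤ Φ(ψ + t 1_y) - Φ ψ ≤ t * m y - t * ϱ {x | ∀ y' ≠ y, val y' ≤ val y - t}`; let `t ↓ 0`:
`ϱ (strict cell y) ≤ m y`.  The strict cells are disjoint and cover everything up to the tie set, a finite union of hyperplanes (null).
So `∑ ϱ(strict cell) = 1 = ∑ m` and all inequalities are equalities; `cell = strict cell` a.e.
The selection `T`: order `S` as a list and take the first maximiser (measurable by induction on the list).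
-/

set_option autoImplicit false

namespace Crest.Agent.R82

open MeasureTheory
open scoped ENNReal NNReal InnerProductSpace

variable {d : ℕ}

theorem measurableSet_cell (S : Finset (E d)) (ψ : E d → ℝ) (y : E d) : MeasurableSet (cell S ψ y) := by
  have h : cell S ψ y = ⋂ y' ∈ S, {x | ⟪x, y'⟫_ℝ - ψ y' ≤ ⟪x, y⟫_ℝ - ψ y} := by
    ext x; simp [cell]
  rw [h]
  refine Finset.measurableSet_biInter S (fun y' _ => ?_)
  exact measurableSet_le (Continuous.measurable (by fun_prop)) (Continuous.measurable (by fun_prop))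

theorem convex_cell (S : Finset (E d)) (ψ : E d → ℝ) (y : E d) : Convex ℝ (cell S ψ y) := by
  intro a ha b hb s t hs ht hst y' hy'
  have h1 := mul_le_mul_of_nonneg_left (ha y' hy') hs
  have h2 := mul_le_mul_of_nonneg_left (hb y' hy') ht
  have e1 : ∀ z : E d, ⟪s • a + t • b, z⟫_ℝ - ψ z = s * (⟪a, z⟫_ℝ - ψ z) + t * (⟪b, z⟫_ℝ - ψ z) := by
    intro z
    rw [inner_add_left, real_inner_smul_left, real_inner_smul_left]
    linear_combination (ψ z) * hst
  rw [e1, e1]
  linarith

/-- midpoints of points of two cells (same site, same sites, weights `ψ0`, `ψ1`) lie in the cell of the averaged weights. -/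
theorem midpoint_mem_cell (S : Finset (E d)) (ψ0 ψ1 : E d → ℝ) (y a b : E d)
    (ha : a ∈ cell S ψ0 y) (hb : b ∈ cell S ψ1 y) :
    (1 / 2 : ℝ) • (a + b) ∈ cell S (fun z => (ψ0 z + ψ1 z) / 2) y := by
  intro y' hy'
  have h1 := ha y' hy'
  have h2 := hb y' hy'
  simp only [real_inner_smul_left, inner_add_left]
  linarith

/-- two different cells meet in a null set. -/
theorem volume_cell_inter (S : Finset (E d)) (ψ : E d → ℝ) (y y' : E d) (hy : y ∈ S) (hy' : y' ∈ S)
    (hne : y ≠ y') : volume (cell S ψ y ∩ cell S ψ y') = 0 := by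
  set f : E d →ₗ[ℝ] ℝ := (innerₛₗ ℝ (y - y')) with hf
  have hfx : ∀ x, f x = ⟪x, y⟫_ℝ - ⟪x, y'⟫_ℝ := by
    intro x
    simp [hf, real_inner_comm]
  have hker : LinearMap.ker f ≠ ⊤ := by
    intro htop
    have : f (y - y') = 0 := by
      have : (y - y') ∈ LinearMap.ker f := by rw [htop]; trivial
      exact this
    have h2 : ⟪y - y', y - y'⟫_ℝ = 0 := this
    rw [inner_self_eq_zero, sub_eq_zero] at h2
    exact hne h2
  have h0 : volume (LinearMap.ker f : Set (E d)) = 0 := Measure.addHaar_submodule volume _ hker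
  by_cases hemp : (cell S ψ y ∩ cell S ψ y').Nonempty
  · obtain ⟨x0, hx0, hx0'⟩ := hemp
    have hsub : cell S ψ y ∩ cell S ψ y' ⊆ (fun x => x + (-x0)) ⁻¹' (LinearMap.ker f : Set (E d)) := by
      rintro x ⟨hx, hx'⟩
      have a1 := hx y' hy'
      have a2 := hx' y hy
      have b1 := hx0 y' hy'
      have b2 := hx0' y hy
      simp only [Set.mem_preimage, SetLike.mem_coe, LinearMap.mem_ker, hfx, inner_add_left, inner_neg_left]
      linarith
    refine measure_mono_null hsub ?_
    rw [measure_preimage_add_right]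
    exact h0
  · rw [Set.not_nonempty_iff_eq_empty.mp hemp]; simp

/-- the cells cover the space. -/
theorem iUnion_cell (S : Finset (E d)) (hS : S.Nonempty) (ψ : E d → ℝ) :
    (⋃ y ∈ S, cell S ψ y) = Set.univ := by
  ext x
  simp only [Set.mem_iUnion, Set.mem_univ, iff_true]
  obtain ⟨y, hy, hmax⟩ := Finset.exists_max_image S (fun y => ⟪x, y⟫_ℝ - ψ y) hS
  exact ⟨y, hy, fun y' hy' => hmax y' hy'⟩

theorem lagPot_ge (S : Finset (E d)) (ψ : E d → ℝ) (x y : E d) (hy : y ∈ S) :
    ⟪x, y⟫_ℝ - ψ y ≤ lagPot S ψ x := by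
  have hS : S.Nonempty := ⟨y, hy⟩
  rw [lagPot, dif_pos hS]
  exact Finset.le_sup' (fun y => ⟪x, y⟫_ℝ - ψ y) hy

theorem lagPot_eq_of_mem_cell (S : Finset (E d)) (ψ : E d → ℝ) (x y : E d) (hy : y ∈ S)
    (hx : x ∈ cell S ψ y) : lagPot S ψ x = ⟪x, y⟫_ℝ - ψ y := by
  refine le_antisymm ?_ (lagPot_ge S ψ x y hy)
  have hS : S.Nonempty := ⟨y, hy⟩
  rw [lagPot, dif_pos hS]
  exact Finset.sup'_le hS _ (fun y' hy' => hx y' hy')

theorem lagPot_lip (S : Finset (E d)) (ψ : E d → ℝ) (R : ℝ) (hR0 : 0 ≤ R) (hR : ∀ y ∈ S, ‖y‖ ≤ R) (x w : E d) :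
    |lagPot S ψ x - lagPot S ψ w| ≤ R * ‖x - w‖ := by
  by_cases hS : S.Nonempty
  · have key : ∀ a b : E d, lagPot S ψ a ≤ lagPot S ψ b + R * ‖a - b‖ := by
      intro a b
      rw [lagPot, dif_pos hS]
      refine Finset.sup'_le hS _ (fun y hy => ?_)
      have h1 := lagPot_ge S ψ b y hy
      have h2 : ⟪a - b, y⟫_ℝ ≤ ‖a - b‖ * ‖y‖ := real_inner_le_norm _ _
      have h3 : ‖a - b‖ * ‖y‖ ≤ ‖a - b‖ * R := mul_le_mul_of_nonneg_left (hR y hy) (norm_nonneg _)
      rw [inner_sub_left] at h2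
      linarith
    rw [abs_le]
    have k1 := key x w
    have k2 := key w x
    rw [norm_sub_rev] at k2
    constructor <;> linarith
  · simp only [lagPot, dif_neg hS, sub_self, abs_zero]
    positivity

theorem measurable_lagPot (S : Finset (E d)) (ψ : E d → ℝ) : Measurable (lagPot S ψ) := by
  obtain ⟨R, hR0, hR⟩ : ∃ R : ℝ, 0 ≤ R ∧ ∀ y ∈ S, ‖y‖ ≤ R := by
    refine ⟨∑ y ∈ S, ‖y‖, Finset.sum_nonneg (fun _ _ => norm_nonneg _), fun y hy => ?_⟩
    exact Finset.single_le_sum (f := fun y => ‖y‖) (fun _ _ => norm_nonneg _) hy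
  have hl : LipschitzWith (Real.toNNReal R) (lagPot S ψ) := by
    refine LipschitzWith.of_dist_le_mul (fun x w => ?_)
    rw [Real.dist_eq, dist_eq_norm, Real.coe_toNNReal _ hR0]
    exact lagPot_lip S ψ R hR0 hR x w
  exact hl.continuous.measurable

/-- a measurable selection of the cells gives a potential pair. -/
theorem isPot_lagPot (K : Set (E d)) (S : Finset (E d)) (ψ : E d → ℝ) (R : ℝ) (hR0 : 0 ≤ R)
    (hR : ∀ y ∈ S, ‖y‖ ≤ R) (T : E d → E d) (hT : Measurable T) (hTS : ∀ x, T x ∈ S)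
    (hsel : ∀ x, x ∈ cell S ψ (T x)) : IsPot K R (lagPot S ψ) T := by
  refine ⟨hT, Filter.Eventually.of_forall (fun x => hR _ (hTS x)), lagPot_lip S ψ R hR0 hR,
    Filter.Eventually.of_forall (fun x w => ?_)⟩
  rw [lagPot_eq_of_mem_cell S ψ x (T x) (hTS x) (hsel x)]
  have h := lagPot_ge S ψ w (T x) (hTS x)
  rw [inner_sub_right, real_inner_comm x (T x), real_inner_comm w (T x)] at *
  linarith

/-- measurable selection (first maximiser in a fixed enumeration of `S`). -/
theorem exists_selection (S : Finset (E d)) (hS : S.Nonempty) (ψ : E d → ℝ) :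
    ∃ T : E d → E d, Measurable T ∧ (∀ x, T x ∈ S) ∧ ∀ x, x ∈ cell S ψ (T x) := by
  classical
  induction hS using Finset.Nonempty.cons_induction with
  | singleton a =>
    refine ⟨fun _ => a, measurable_const, fun _ => Finset.mem_singleton_self a, fun x y' hy' => ?_⟩
    rw [Finset.mem_singleton] at hy'
    rw [hy']
  | cons a s ha hs ih =>
    obtain ⟨T, hT, hTs, hsel⟩ := ih
    have hset : MeasurableSet {x : E d | lagPot s ψ x ≤ ⟪x, a⟫_ℝ - ψ a} :=
      measurableSet_le (measurable_lagPot s ψ) (Continuous.measurable (by fun_prop))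
    refine ⟨fun x => if lagPot s ψ x ≤ ⟪x, a⟫_ℝ - ψ a then a else T x,
      Measurable.ite hset measurable_const hT, fun x => ?_, fun x y' hy' => ?_⟩
    · by_cases h : lagPot s ψ x ≤ ⟪x, a⟫_ℝ - ψ a
      · simp [h]
      · simp [h, hTs x]
    · rw [Finset.mem_cons] at hy'
      by_cases h : lagPot s ψ x ≤ ⟪x, a⟫_ℝ - ψ a
      · simp only [h, if_true]
        rcases hy' with rfl | hy'
        · exact le_rfl
        · exact (lagPot_ge s ψ x y' hy').trans h
      · simp only [h, if_false]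
        have e := lagPot_eq_of_mem_cell s ψ x (T x) (hTs x) (hsel x)
        rcases hy' with rfl | hy'
        · rw [← e]; exact (not_le.mp h).le
        · exact hsel x y' hy'

/-- law of a selection. -/
theorem map_selection (ϱ : Measure (E d)) (hac : ϱ ≪ volume)
    (S : Finset (E d)) (ψ : E d → ℝ) (T : E d → E d) (hT : Measurable T) (hTS : ∀ x, T x ∈ S)
    (hsel : ∀ x, x ∈ cell S ψ (T x)) :
    (∀ y ∈ S, T ⁻¹' {y} =ᵐ[ϱ] cell S ψ y) ∧
    ϱ.map T = ∑ y ∈ S, ϱ (cell S ψ y) • Measure.dirac y := by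
  classical
  have hae : ∀ y ∈ S, T ⁻¹' {y} =ᵐ[ϱ] cell S ψ y := by
    intro y hy
    have hsub : T ⁻¹' {y} ⊆ cell S ψ y := by
      intro x hx
      have : T x = y := hx
      rw [← this]; exact hsel x
    have hdiff : ϱ (cell S ψ y \ T ⁻¹' {y}) = 0 := by
      have hcov : cell S ψ y \ T ⁻¹' {y} ⊆ ⋃ y' ∈ S.erase y, (cell S ψ y ∩ cell S ψ y') := by
        rintro x ⟨hx, hxT⟩
        simp only [Set.mem_iUnion]
        refine ⟨T x, Finset.mem_erase.mpr ⟨hxT, hTS x⟩, hx, hsel x⟩
      refine measure_mono_null hcov ?_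
      refine (measure_biUnion_null_iff (Finset.countable_toSet _)).mpr (fun y' hy' => ?_)
      have hy'' := Finset.mem_erase.mp hy'
      exact hac (volume_cell_inter S ψ y y' hy hy''.2 (Ne.symm hy''.1))
    exact (LE.le.eventuallyLE hsub).antisymm (ae_le_set.mpr hdiff)
  refine ⟨hae, ?_⟩
  ext A hA
  rw [Measure.map_apply hT hA, Measure.finsetSum_apply]
  have hpre : T ⁻¹' A = ⋃ y ∈ S.filter (· ∈ A), T ⁻¹' {y} := by
    ext x
    simp only [Set.mem_preimage, Set.mem_iUnion, Finset.mem_filter, Set.mem_singleton_iff, exists_prop]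
    constructor
    · intro hx; exact ⟨T x, ⟨hTS x, hx⟩, rfl⟩
    · rintro ⟨y, ⟨_, hyA⟩, rfl⟩; exact hyA
  rw [hpre, measure_biUnion_finset]
  · rw [Finset.sum_filter]
    refine Finset.sum_congr rfl (fun y hy => ?_)
    rw [Measure.smul_apply, Measure.dirac_apply' _ hA, measure_congr (hae y hy)]
    by_cases hyA : y ∈ A <;> simp [hyA]
  · intro y _ y' _ hyy'
    refine Set.disjoint_left.mpr (fun x hx hx' => hyy' ?_)
    have h1 : T x = y := hx
    have h2 : T x = y' := hx'
    rw [← h1, h2]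
  · intro y _
    exact hT (measurableSet_singleton y)

end Crest.Agent.R82
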