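import Crest.Agent.R82.PL
import Crest.Agent.R82.SD
import Crest.Agent.R82.Geo

/-!
# Row 82, task GT: a "generalized Talagrand inequality" for two Laguerre tessellations with the same sites

`g x = exp (-(lam/2) ‖x‖²)` (`gw lam`), all integrals are w.r.t. `ρ = rho K` with the weight `g`.
Data: sites `S`, weights `ψ0`, `ψ1`; `C⁰_y = cell S ψ0 y`, `C¹_y = cell S ψ1 y`; a density `f` (`0 < a ≤ f ≤ b`) with
`∫_{C⁰_y} g dρ = mt y = ∫_{C¹_y} f g dρ`.  `u y` is 1-Lipschitz on `K`.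

Blueprint.  Fix `y ∈ S` and `t ∈ ℝ`.  Put `g₁ = t u_y`, `g₀ = - t u_y - t²/lam`.  For `p, q ∈ K`:
`g₀ p + g₁ q ≤ |t| ‖p - q‖ - t²/lam ≤ (lam/4) ‖p - q‖²`, and by the parallelogram law
`(lam/2)(‖p‖² + ‖q‖²) = lam ‖(p+q)/2‖² + (lam/4) ‖p - q‖²`.  Hence with
`F = 1_{K ∩ C⁰_y} e^{g₀} g`, `G = 1_{K ∩ C¹_y} e^{g₁} g`, `H = 1_{K ∩ C^{1/2}_y} g`, `C^{1/2}_y = cell S ((ψ0+ψ1)/2) y`
(`midpoint_mem_cell`, convexity of `K`) we have `F p * G q ≤ H ((p+q)/2)²`; Prékopa–Leindler gives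
`A_y B_y ≤ q_y²`, `A_y = ∫_{C⁰_y} e^{g₀} g dρ`, `B_y = ∫_{C¹_y} e^{g₁} g dρ`, `q_y = ∫_{C^{1/2}_y} g dρ`.
Jensen (exp convex) on the probability measures `g ρ|C⁰_y / mt y` and `f g ρ|C¹_y / mt y`:
`A_y ≥ mt y * exp(E⁰ g₀)`, `B_y = ∫_{C¹_y} e^{g₁ - log f} f g dρ ≥ mt y * exp(E¹ (g₁ - log f))`.
So `q_y ≥ √(A_y B_y) ≥ mt y * exp(½ (t Δ_y - t²/lam - E¹ log f)) ≥ mt y (1 + ½ (t Δ_y - t²/lam - E¹_y log f))`,
`Δ_y = E¹ u_y - E⁰ u_y = (mt y)⁻¹ (∫_{C¹_y} u_y f g dρ - ∫_{C⁰_y} u_y g dρ)`.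
Sum over `y`: `∑ q_y = ∫ g dρ = ∑ mt y` (cells cover, overlaps are null).  Therefore
`∑ mt y (t_y Δ_y - t_y²/lam) ≤ ∑ ∫_{C¹_y} f log f g dρ = ∫ f log f g dρ ≤ ∫ (f-1)² g dρ`
(`f log f ≤ (f-1) + (f-1)²` and `∫ (f - 1) g dρ = ∑ mt - ∑ mt = 0`).  Choose `t_y = lam Δ_y / 2`.
-/

set_option autoImplicit false

namespace Crest.Agent.R82

open MeasureTheory
open scoped ENNReal NNReal InnerProductSpace

variable {d : ℕ}

/-- Gaussian weight. -/
noncomputable def gw (lam : ℝ) (x : E d) : ℝ := Real.exp (-(lam / 2) * ‖x‖ ^ 2)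

namespace GT

theorem gw_pos (lam : ℝ) (x : E d) : 0 < gw lam x := Real.exp_pos _

theorem gw_le_one (lam : ℝ) (hlam : 0 < lam) (x : E d) : gw lam x ≤ 1 := by
  unfold gw
  rw [Real.exp_le_one_iff]
  have : 0 ≤ ‖x‖ ^ 2 := by positivity
  nlinarith

theorem measurable_gw (lam : ℝ) : Measurable (gw lam : E d → ℝ) := by
  unfold gw
  fun_prop

theorem ae_mem (K : Set (E d)) (hKc : IsCompact K) : ∀ᵐ x ∂(rho K), x ∈ K := by
  have h := rho_compl K hKc
  rw [ae_iff]
  exact h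

theorem integrable_of_bdd (K : Set (E d)) (hKc : IsCompact K) (hKi : (interior K).Nonempty)
    (φ : E d → ℝ) (hφ : Measurable φ) (M : ℝ) (hM : ∀ x ∈ K, |φ x| ≤ M) :
    Integrable φ (rho K) := by
  have := isProbabilityMeasure_rho K hKc hKi
  refine Integrable.of_bound hφ.aestronglyMeasurable M ?_
  filter_upwards [ae_mem K hKc] with x hx
  simpa using hM x hx

/-- sum over the cells of a tessellation. -/
theorem sum_cells (K : Set (E d)) (S : Finset (E d)) (hS : S.Nonempty) (ψ : E d → ℝ)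
    (h : E d → ℝ) (hh : Integrable h (rho K)) :
    ∑ y ∈ S, ∫ x in cell S ψ y, h x ∂(rho K) = ∫ x, h x ∂(rho K) := by
  obtain ⟨T, hT, hTS, hsel⟩ := exists_selection S hS ψ
  have hac : rho K ≪ volume := (rho_absolutelyContinuous K).trans Measure.restrict_le_self.absolutelyContinuous
  obtain ⟨h1, -⟩ := map_selection (rho K) hac S ψ T hT hTS hsel
  have h2 : ∀ y ∈ S, ∫ x in cell S ψ y, h x ∂(rho K) = ∫ x in T ⁻¹' {y}, h x ∂(rho K) :=
    fun y hy => (setIntegral_congr_set (h1 y hy)).symm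
  rw [Finset.sum_congr rfl h2, ← integral_biUnion_finset S (s := fun y => T ⁻¹' {y})]
  · have : (⋃ y ∈ S, T ⁻¹' {y}) = Set.univ := by
      ext x
      simp only [Set.mem_iUnion, Set.mem_preimage, Set.mem_singleton_iff, Set.mem_univ, iff_true]
      exact ⟨T x, hTS x, rfl⟩
    rw [this, Measure.restrict_univ]
  · intro y _
    exact hT (measurableSet_singleton y)
  · intro y _ y' _ hne
    simp only [Function.onFun]
    rw [Set.disjoint_left]
    intro x hx hx'
    simp only [Set.mem_preimage, Set.mem_singleton_iff] at hx hx'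
    exact hne (hx.symm.trans hx')
  · intro y _
    exact hh.integrableOn

/-- Jensen's inequality for `exp`, in the weighted form that we need. -/
theorem jensen_exp {α : Type*} [MeasurableSpace α] (ν : Measure α) (w φ : α → ℝ)
    (hw0 : ∀ x, 0 ≤ w x) (hw : Integrable w ν) (hφw : Integrable (fun x => φ x * w x) ν)
    (he : Integrable (fun x => Real.exp (φ x) * w x) ν) (m : ℝ) (hm : 0 < m)
    (hmw : ∫ x, w x ∂ν = m) :
    m * Real.exp ((∫ x, φ x * w x ∂ν) / m) ≤ ∫ x, Real.exp (φ x) * w x ∂ν := by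
  set c := (∫ x, φ x * w x ∂ν) / m with hc
  have h1 : ∀ x, Real.exp c * ((1 - c) * w x + φ x * w x) ≤ Real.exp (φ x) * w x := by
    intro x
    have h2 : φ x - c + 1 ≤ Real.exp (φ x - c) := Real.add_one_le_exp _
    have h3 : Real.exp (φ x) = Real.exp c * Real.exp (φ x - c) := by
      rw [← Real.exp_add]; ring_nf
    rw [h3]
    have h4 := mul_le_mul_of_nonneg_left h2 (mul_nonneg (Real.exp_pos c).le (hw0 x))
    nlinarith
  have hi : Integrable (fun x => Real.exp c * ((1 - c) * w x + φ x * w x)) ν :=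
    ((hw.const_mul (1 - c)).add hφw).const_mul _
  have h3 : ∫ x, Real.exp c * ((1 - c) * w x + φ x * w x) ∂ν ≤ ∫ x, Real.exp (φ x) * w x ∂ν :=
    integral_mono hi he h1
  have h4 : ∫ x, Real.exp c * ((1 - c) * w x + φ x * w x) ∂ν = m * Real.exp c := by
    rw [integral_const_mul, integral_add (hw.const_mul (1 - c)) hφw, integral_const_mul, hmw]
    have : ∫ x, φ x * w x ∂ν = c * m := by rw [hc]; field_simp
    rw [this]; ring
  linarith

/-- Prékopa–Leindler for the uniform measure on a convex body, real form. -/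
theorem pl_rho (K : Set (E d)) (hKc : IsCompact K) (hKv : Convex ℝ K)
    (F G H : E d → ℝ) (hF : Measurable F) (hG : Measurable G) (hH : Measurable H)
    (hF0 : ∀ x, 0 ≤ F x) (hG0 : ∀ x, 0 ≤ G x) (hH0 : ∀ x, 0 ≤ H x)
    (hHi : Integrable H (rho K))
    (hFGH : ∀ p ∈ K, ∀ q ∈ K, F p * G q ≤ H ((1 / 2 : ℝ) • (p + q)) ^ 2) :
    (∫ x, F x ∂(rho K)) * (∫ x, G x ∂(rho K)) ≤ (∫ x, H x ∂(rho K)) ^ 2 := by
  have hKm : MeasurableSet K := hKc.measurableSet
  have hpl := prekopa_leindler d (K.indicator fun x => ENNReal.ofReal (F x))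
    (K.indicator fun x => ENNReal.ofReal (G x)) (K.indicator fun x => ENNReal.ofReal (H x))
    (hF.ennreal_ofReal.indicator hKm) (hG.ennreal_ofReal.indicator hKm)
    (hH.ennreal_ofReal.indicator hKm) (by
      intro p q
      by_cases hp : p ∈ K
      · by_cases hq : q ∈ K
        · have hmid : (1 / 2 : ℝ) • (p + q) ∈ K := by
            have := hKv hp hq (a := 1 / 2) (b := 1 / 2) (by norm_num) (by norm_num) (by norm_num)
            rwa [← smul_add] at this
          rw [Set.indicator_of_mem hp, Set.indicator_of_mem hq, Set.indicator_of_mem hmid,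
            ← ENNReal.ofReal_mul (hF0 p), ← ENNReal.ofReal_pow (hH0 _)]
          exact ENNReal.ofReal_le_ofReal (hFGH p hp q hq)
        · rw [Set.indicator_of_notMem hq]; simp
      · rw [Set.indicator_of_notMem hp]; simp)
  rw [lintegral_indicator hKm, lintegral_indicator hKm, lintegral_indicator hKm] at hpl
  have key : (∫⁻ x, ENNReal.ofReal (F x) ∂(rho K)) * (∫⁻ x, ENNReal.ofReal (G x) ∂(rho K))
      ≤ (∫⁻ x, ENNReal.ofReal (H x) ∂(rho K)) ^ 2 := by
    simp only [rho, Crest.AnalysisR.OT.uniformProbOn, lintegral_smul_measure, smul_eq_mul]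
    calc (volume K)⁻¹ * (∫⁻ x in K, ENNReal.ofReal (F x)) * ((volume K)⁻¹ * ∫⁻ x in K, ENNReal.ofReal (G x))
        = (volume K)⁻¹ ^ 2 * ((∫⁻ x in K, ENNReal.ofReal (F x)) * ∫⁻ x in K, ENNReal.ofReal (G x)) := by ring
      _ ≤ (volume K)⁻¹ ^ 2 * (∫⁻ x in K, ENNReal.ofReal (H x)) ^ 2 := by gcongr
      _ = ((volume K)⁻¹ * ∫⁻ x in K, ENNReal.ofReal (H x)) ^ 2 := by ring
  rw [integral_eq_lintegral_of_nonneg_ae (Filter.Eventually.of_forall hF0) hF.aestronglyMeasurable,
    integral_eq_lintegral_of_nonneg_ae (Filter.Eventually.of_forall hG0) hG.aestronglyMeasurable,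
    integral_eq_lintegral_of_nonneg_ae (Filter.Eventually.of_forall hH0) hH.aestronglyMeasurable,
    ← ENNReal.toReal_mul, ← ENNReal.toReal_pow]
  refine ENNReal.toReal_mono ?_ key
  have : ∫⁻ x, ENNReal.ofReal (H x) ∂(rho K) ≠ ∞ := by
    have := hHi.2
    rw [hasFiniteIntegral_iff_ofReal (Filter.Eventually.of_forall hH0)] at this
    exact this.ne
  exact ENNReal.pow_ne_top this

/-- the pointwise inequality behind Prékopa–Leindler. -/
theorem pointwise (lam : ℝ) (hlam : 0 < lam) (t up uq : ℝ) (p q : E d) (hu : |up - uq| ≤ ‖p - q‖) :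
    (Real.exp (-t * up - t ^ 2 / lam) * gw lam p) * (Real.exp (t * uq) * gw lam q)
      ≤ gw lam ((1 / 2 : ℝ) • (p + q)) ^ 2 := by
  unfold gw
  rw [← Real.exp_add, ← Real.exp_add, ← Real.exp_add, ← Real.exp_nat_mul]
  apply Real.exp_le_exp.mpr
  have hpar : ‖p + q‖ ^ 2 + ‖p - q‖ ^ 2 = 2 * (‖p‖ ^ 2 + ‖q‖ ^ 2) := by
    have := parallelogram_law_with_norm ℝ p q
    nlinarith
  have hmid : ‖(1 / 2 : ℝ) • (p + q)‖ ^ 2 = ‖p + q‖ ^ 2 / 4 := by
    rw [norm_smul]; norm_num; ring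
  rw [hmid]
  set s := ‖p - q‖ with hs
  have hs0 : 0 ≤ s := norm_nonneg _
  have h1 : t * (uq - up) ≤ |t| * s := by
    calc t * (uq - up) ≤ |t * (uq - up)| := le_abs_self _
      _ = |t| * |up - uq| := by rw [abs_mul, abs_sub_comm]
      _ ≤ |t| * s := by gcongr
  have h2 : |t| * s - t ^ 2 / lam ≤ lam / 4 * s ^ 2 := by
    have h3 : 0 ≤ (lam * s / 2 - |t|) ^ 2 := sq_nonneg _
    have h4 : |t| ^ 2 = t ^ 2 := sq_abs t
    have h5 : lam * (lam / 4 * s ^ 2 - |t| * s + t ^ 2 / lam) = (lam * s / 2 - |t|) ^ 2 := by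
      field_simp
      nlinarith
    have h6 : 0 ≤ lam / 4 * s ^ 2 - |t| * s + t ^ 2 / lam := by
      by_contra hneg
      push Not at hneg
      nlinarith
    linarith
  push_cast
  nlinarith

/-- measurable and bounded on `K`. -/
def BM (K : Set (E d)) (φ : E d → ℝ) : Prop := Measurable φ ∧ ∃ M, ∀ x ∈ K, |φ x| ≤ M

theorem BM.integrable {K : Set (E d)} {φ : E d → ℝ} (h : BM K φ) (hKc : IsCompact K)
    (hKi : (interior K).Nonempty) : Integrable φ (rho K) := by
  obtain ⟨hm, M, hM⟩ := h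
  exact integrable_of_bdd K hKc hKi φ hm M hM

theorem BM.mul {K : Set (E d)} {φ χ : E d → ℝ} (h : BM K φ) (h' : BM K χ) :
    BM K (fun x => φ x * χ x) := by
  obtain ⟨hm, M, hM⟩ := h
  obtain ⟨hm', M', hM'⟩ := h'
  refine ⟨hm.mul hm', M * M', fun x hx => ?_⟩
  rw [abs_mul]
  exact mul_le_mul (hM x hx) (hM' x hx) (abs_nonneg _) ((abs_nonneg _).trans (hM x hx))

theorem BM.add {K : Set (E d)} {φ χ : E d → ℝ} (h : BM K φ) (h' : BM K χ) :
    BM K (fun x => φ x + χ x) := by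
  obtain ⟨hm, M, hM⟩ := h
  obtain ⟨hm', M', hM'⟩ := h'
  exact ⟨hm.add hm', M + M', fun x hx => (abs_add_le _ _).trans (add_le_add (hM x hx) (hM' x hx))⟩

theorem BM.sub {K : Set (E d)} {φ χ : E d → ℝ} (h : BM K φ) (h' : BM K χ) :
    BM K (fun x => φ x - χ x) := by
  obtain ⟨hm, M, hM⟩ := h
  obtain ⟨hm', M', hM'⟩ := h'
  exact ⟨hm.sub hm', M + M', fun x hx => (abs_sub _ _).trans (add_le_add (hM x hx) (hM' x hx))⟩

theorem BM.const (K : Set (E d)) (c : ℝ) : BM K (fun _ => c) :=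
  ⟨measurable_const, |c|, fun _ _ => le_rfl⟩

theorem BM.exp {K : Set (E d)} {φ : E d → ℝ} (h : BM K φ) : BM K (fun x => Real.exp (φ x)) := by
  obtain ⟨hm, M, hM⟩ := h
  refine ⟨hm.exp, Real.exp M, fun x hx => ?_⟩
  rw [abs_of_pos (Real.exp_pos _)]
  exact Real.exp_le_exp.mpr ((le_abs_self _).trans (hM x hx))

theorem BM.gw (K : Set (E d)) (lam : ℝ) (hlam : 0 < lam) : BM K (gw lam) :=
  ⟨measurable_gw lam, 1, fun x _ => by
    rw [abs_of_pos (gw_pos lam x)]; exact gw_le_one lam hlam x⟩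

theorem cell_bound (K : Set (E d)) (hKc : IsCompact K) (hKv : Convex ℝ K)
    (hKi : (interior K).Nonempty)
    (lam : ℝ) (hlam : 0 < lam) (S : Finset (E d)) (ψ0 ψ1 : E d → ℝ)
    (f : E d → ℝ) (hf : Measurable f) (a b : ℝ) (ha : 0 < a) (hfa : ∀ x, a ≤ f x)
    (hfb : ∀ x, f x ≤ b)
    (y : E d) (m : ℝ) (hm : 0 < m)
    (h0 : ∫ x in cell S ψ0 y, gw lam x ∂(rho K) = m)
    (h1 : ∫ x in cell S ψ1 y, f x * gw lam x ∂(rho K) = m)
    (u : E d → ℝ) (hum : Measurable u)
    (hul : ∀ p ∈ K, ∀ q ∈ K, |u p - u q| ≤ ‖p - q‖) (t : ℝ) :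
    m + (1 / 2) * (t * ((∫ x in cell S ψ1 y, u x * (f x * gw lam x) ∂(rho K))
        - ∫ x in cell S ψ0 y, u x * gw lam x ∂(rho K)) - m * t ^ 2 / lam
        - ∫ x in cell S ψ1 y, Real.log (f x) * (f x * gw lam x) ∂(rho K))
      ≤ ∫ x in cell S (fun z => (ψ0 z + ψ1 z) / 2) y, gw lam x ∂(rho K) := by
  set C0 := cell S ψ0 y with hC0def
  set C1 := cell S ψ1 y with hC1def
  set Ch := cell S (fun z => (ψ0 z + ψ1 z) / 2) y with hChdef
  have hC0 : MeasurableSet C0 := measurableSet_cell _ _ _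
  have hC1 : MeasurableSet C1 := measurableSet_cell _ _ _
  have hCh : MeasurableSet Ch := measurableSet_cell _ _ _
  have hfpos : ∀ x, 0 < f x := fun x => ha.trans_le (hfa x)
  -- boundedness
  have bu : BM K u := by
    obtain ⟨x0, hx0⟩ := hKi
    have hx0K : x0 ∈ K := interior_subset hx0
    obtain ⟨D, hD⟩ := hKc.isBounded.exists_norm_le
    refine ⟨hum, |u x0| + (D + D), fun x hx => ?_⟩
    have h1 := hul x hx x0 hx0K
    have h2 : ‖x - x0‖ ≤ D + D := (norm_sub_le _ _).trans (add_le_add (hD x hx) (hD x0 hx0K))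
    have h3 : |u x| ≤ |u x - u x0| + |u x0| := by
      have := abs_add_le (u x - u x0) (u x0)
      simpa using this
    linarith
  have bg : BM K (gw lam) := BM.gw K lam hlam
  have bf : BM K f := ⟨hf, b, fun x _ => by rw [abs_of_pos (hfpos x)]; exact hfb x⟩
  have blf : BM K (fun x => Real.log (f x)) := by
    refine ⟨hf.log, |Real.log a| + |Real.log b|, fun x _ => ?_⟩
    have h1 : Real.log a ≤ Real.log (f x) := Real.log_le_log ha (hfa x)
    have h2 : Real.log (f x) ≤ Real.log b := Real.log_le_log (hfpos x) (hfb x)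
    rw [abs_le]
    constructor
    · have := neg_abs_le (Real.log a); have := abs_nonneg (Real.log b); linarith
    · have := le_abs_self (Real.log b); have := abs_nonneg (Real.log a); linarith
  have bfg : BM K (fun x => f x * gw lam x) := bf.mul bg
  have bg0 : BM K (fun x => -t * u x - t ^ 2 / lam) :=
    ((BM.const K (-t)).mul bu).sub (BM.const K (t ^ 2 / lam))
  have bg1 : BM K (fun x => t * u x) := (BM.const K t).mul bu
  have bg1l : BM K (fun x => t * u x - Real.log (f x)) := bg1.sub blf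
  set I0 := ∫ x in C0, u x * gw lam x ∂(rho K) with hI0
  set I1 := ∫ x in C1, u x * (f x * gw lam x) ∂(rho K) with hI1
  set L := ∫ x in C1, Real.log (f x) * (f x * gw lam x) ∂(rho K) with hL
  set q := ∫ x in Ch, gw lam x ∂(rho K) with hq
  -- Jensen on `C0`
  have hA := jensen_exp ((rho K).restrict C0) (gw lam) (fun x => -t * u x - t ^ 2 / lam)
    (fun x => (gw_pos lam x).le) (bg.integrable hKc hKi).integrableOn
    ((bg0.mul bg).integrable hKc hKi).integrableOn
    ((bg0.exp.mul bg).integrable hKc hKi).integrableOn m hm h0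
  have hc0 : ∫ x in C0, (-t * u x - t ^ 2 / lam) * gw lam x ∂(rho K) = -t * I0 - t ^ 2 / lam * m := by
    have : ∀ x, (-t * u x - t ^ 2 / lam) * gw lam x
        = -t * (u x * gw lam x) - t ^ 2 / lam * gw lam x := fun x => by ring
    simp_rw [this]
    rw [integral_sub (((bu.mul bg).integrable hKc hKi).integrableOn.const_mul _)
      ((bg.integrable hKc hKi).integrableOn.const_mul _), integral_const_mul, integral_const_mul, h0]
  rw [hc0] at hA
  -- Jensen on `C1`
  have hB := jensen_exp ((rho K).restrict C1) (fun x => f x * gw lam x)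
    (fun x => t * u x - Real.log (f x))
    (fun x => (mul_pos (hfpos x) (gw_pos lam x)).le) (bfg.integrable hKc hKi).integrableOn
    ((bg1l.mul bfg).integrable hKc hKi).integrableOn
    ((bg1l.exp.mul bfg).integrable hKc hKi).integrableOn m hm h1
  have hc1 : ∫ x in C1, (t * u x - Real.log (f x)) * (f x * gw lam x) ∂(rho K) = t * I1 - L := by
    have : ∀ x, (t * u x - Real.log (f x)) * (f x * gw lam x)
        = t * (u x * (f x * gw lam x)) - Real.log (f x) * (f x * gw lam x) := fun x => by ring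
    simp_rw [this]
    rw [integral_sub (((bu.mul bfg).integrable hKc hKi).integrableOn.const_mul _)
      ((blf.mul bfg).integrable hKc hKi).integrableOn, integral_const_mul]
  rw [hc1] at hB
  have hB' : ∀ x, Real.exp (t * u x - Real.log (f x)) * (f x * gw lam x)
      = Real.exp (t * u x) * gw lam x := by
    intro x
    rw [Real.exp_sub, Real.exp_log (hfpos x)]
    have := (hfpos x).ne'
    field_simp
  simp_rw [hB'] at hB
  -- Prékopa–Leindler
  have hPL := pl_rho K hKc hKv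
    (C0.indicator fun x => Real.exp (-t * u x - t ^ 2 / lam) * gw lam x)
    (C1.indicator fun x => Real.exp (t * u x) * gw lam x)
    (Ch.indicator (gw lam))
    ((bg0.exp.mul bg).1.indicator hC0) ((bg1.exp.mul bg).1.indicator hC1) (bg.1.indicator hCh)
    (fun x => Set.indicator_nonneg (fun x _ => (mul_pos (Real.exp_pos _) (gw_pos lam x)).le) x)
    (fun x => Set.indicator_nonneg (fun x _ => (mul_pos (Real.exp_pos _) (gw_pos lam x)).le) x)
    (fun x => Set.indicator_nonneg (fun x _ => (gw_pos lam x).le) x)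
    ((bg.integrable hKc hKi).indicator hCh)
    (by
      intro p hp r hr
      by_cases hp0 : p ∈ C0
      · by_cases hr1 : r ∈ C1
        · have hmid : (1 / 2 : ℝ) • (p + r) ∈ Ch := midpoint_mem_cell S ψ0 ψ1 y p r hp0 hr1
          rw [Set.indicator_of_mem hp0, Set.indicator_of_mem hr1, Set.indicator_of_mem hmid]
          exact pointwise lam hlam t (u p) (u r) p r (hul p hp r hr)
        · rw [Set.indicator_of_notMem hr1, mul_zero]; positivity
      · rw [Set.indicator_of_notMem hp0, zero_mul]; positivity)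
  rw [integral_indicator hC0, integral_indicator hC1, integral_indicator hCh] at hPL
  -- conclusion
  set A := ∫ x in C0, Real.exp (-t * u x - t ^ 2 / lam) * gw lam x ∂(rho K) with hAdef
  set B := ∫ x in C1, Real.exp (t * u x) * gw lam x ∂(rho K) with hBdef
  set c0 := (-t * I0 - t ^ 2 / lam * m) / m with hc0def
  set c1 := (t * I1 - L) / m with hc1def
  have hq0 : 0 ≤ q := integral_nonneg fun x => (gw_pos lam x).le
  have hsq : (m * Real.exp ((c0 + c1) / 2)) ^ 2 ≤ q ^ 2 := by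
    have e1 : (m * Real.exp ((c0 + c1) / 2)) ^ 2 = (m * Real.exp c0) * (m * Real.exp c1) := by
      have : Real.exp ((c0 + c1) / 2) ^ 2 = Real.exp c0 * Real.exp c1 := by
        rw [← Real.exp_add, ← Real.exp_nat_mul]; congr 1; push_cast; ring
      rw [mul_pow, this]; ring
    rw [e1]
    refine le_trans ?_ hPL
    exact mul_le_mul hA hB (mul_pos hm (Real.exp_pos _)).le
      ((mul_pos hm (Real.exp_pos _)).le.trans hA)
  have hle : m * Real.exp ((c0 + c1) / 2) ≤ q :=
    (pow_le_pow_iff_left₀ (mul_pos hm (Real.exp_pos _)).le hq0 two_ne_zero).mp hsq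
  have hexp : (c0 + c1) / 2 + 1 ≤ Real.exp ((c0 + c1) / 2) := Real.add_one_le_exp _
  have hms : m * ((c0 + c1) / 2 + 1) = m + (1 / 2) * (t * (I1 - I0) - m * t ^ 2 / lam - L) := by
    rw [hc0def, hc1def]
    field_simp
    ring
  rw [← hms]
  exact (mul_le_mul_of_nonneg_left hexp hm.le).trans hle

end GT

theorem gen_talagrand (K : Set (E d)) (hKc : IsCompact K) (hKv : Convex ℝ K) (hKi : (interior K).Nonempty)
    (lam : ℝ) (hlam : 0 < lam) (S : Finset (E d)) (hS : S.Nonempty) (ψ0 ψ1 : E d → ℝ)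
    (f : E d → ℝ) (hf : Measurable f) (a b : ℝ) (ha : 0 < a) (hfa : ∀ x, a ≤ f x) (hfb : ∀ x, f x ≤ b)
    (mt : E d → ℝ) (hmt : ∀ y ∈ S, 0 < mt y)
    (h0 : ∀ y ∈ S, ∫ x in cell S ψ0 y, gw lam x ∂(rho K) = mt y)
    (h1 : ∀ y ∈ S, ∫ x in cell S ψ1 y, f x * gw lam x ∂(rho K) = mt y)
    (u : E d → E d → ℝ) (hum : ∀ y, Measurable (u y))
    (hul : ∀ y ∈ S, ∀ p ∈ K, ∀ q ∈ K, |u y p - u y q| ≤ ‖p - q‖) :
    (lam / 4) * ∑ y ∈ S, (mt y)⁻¹ *
        ((∫ x in cell S ψ1 y, u y x * (f x * gw lam x) ∂(rho K)) - ∫ x in cell S ψ0 y, u y x * gw lam x ∂(rho K)) ^ 2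
      ≤ ∫ x, (f x - 1) ^ 2 * gw lam x ∂(rho K) := by
  have hfpos : ∀ x, 0 < f x := fun x => ha.trans_le (hfa x)
  have bg : GT.BM K (gw lam) := GT.BM.gw K lam hlam
  have bf : GT.BM K f := ⟨hf, b, fun x _ => by rw [abs_of_pos (hfpos x)]; exact hfb x⟩
  have blf : GT.BM K (fun x => Real.log (f x)) := by
    refine ⟨hf.log, |Real.log a| + |Real.log b|, fun x _ => ?_⟩
    have h1 : Real.log a ≤ Real.log (f x) := Real.log_le_log ha (hfa x)
    have h2 : Real.log (f x) ≤ Real.log b := Real.log_le_log (hfpos x) (hfb x)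
    rw [abs_le]
    constructor
    · have := neg_abs_le (Real.log a); have := abs_nonneg (Real.log b); linarith
    · have := le_abs_self (Real.log b); have := abs_nonneg (Real.log a); linarith
  have bfg : GT.BM K (fun x => f x * gw lam x) := bf.mul bg
  have bsq : GT.BM K (fun x => (f x - 1) ^ 2 * gw lam x) := by
    have := ((bf.sub (GT.BM.const K 1)).mul (bf.sub (GT.BM.const K 1))).mul bg
    simpa only [sq] using this
  -- the estimate in each cell, with the optimal `t`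
  have hcell : ∀ y ∈ S, mt y + (1 / 2) * ((mt y)⁻¹ *
        ((∫ x in cell S ψ1 y, u y x * (f x * gw lam x) ∂(rho K))
          - ∫ x in cell S ψ0 y, u y x * gw lam x ∂(rho K)) ^ 2 * (lam / 4)
        - ∫ x in cell S ψ1 y, Real.log (f x) * (f x * gw lam x) ∂(rho K))
      ≤ ∫ x in cell S (fun z => (ψ0 z + ψ1 z) / 2) y, gw lam x ∂(rho K) := by
    intro y hy
    set Δ := (∫ x in cell S ψ1 y, u y x * (f x * gw lam x) ∂(rho K))
          - ∫ x in cell S ψ0 y, u y x * gw lam x ∂(rho K) with hΔ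
    have h := GT.cell_bound K hKc hKv hKi lam hlam S ψ0 ψ1 f hf a b ha hfa hfb y (mt y) (hmt y hy)
      (h0 y hy) (h1 y hy) (u y) (hum y) (hul y hy) (lam * (Δ / mt y) / 2)
    rw [← hΔ] at h
    have hm := (hmt y hy).ne'
    have e : lam * (Δ / mt y) / 2 * Δ - mt y * (lam * (Δ / mt y) / 2) ^ 2 / lam
        = (mt y)⁻¹ * Δ ^ 2 * (lam / 4) := by
      field_simp
      ring
    rw [e] at h
    exact h
  have hsum := Finset.sum_le_sum hcell
  rw [Finset.sum_add_distrib, ← Finset.mul_sum, Finset.sum_sub_distrib, ← Finset.sum_mul] at hsum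
  have s1 : ∑ y ∈ S, mt y = ∫ x, gw lam x ∂(rho K) := by
    rw [← GT.sum_cells K S hS ψ0 _ (bg.integrable hKc hKi)]
    exact Finset.sum_congr rfl fun y hy => (h0 y hy).symm
  have s2 : ∑ y ∈ S, mt y = ∫ x, f x * gw lam x ∂(rho K) := by
    rw [← GT.sum_cells K S hS ψ1 _ (bfg.integrable hKc hKi)]
    exact Finset.sum_congr rfl fun y hy => (h1 y hy).symm
  rw [GT.sum_cells K S hS _ _ (bg.integrable hKc hKi),
    GT.sum_cells K S hS ψ1 _ ((blf.mul bfg).integrable hKc hKi), s1] at hsum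
  have hlog : ∫ x, Real.log (f x) * (f x * gw lam x) ∂(rho K)
      ≤ ∫ x, ((f x * gw lam x - gw lam x) + (f x - 1) ^ 2 * gw lam x) ∂(rho K) := by
    refine integral_mono ((blf.mul bfg).integrable hKc hKi)
      (((bfg.sub bg).add bsq).integrable hKc hKi) fun x => ?_
    have hl : Real.log (f x) ≤ f x - 1 := Real.log_le_sub_one_of_pos (hfpos x)
    have := mul_le_mul_of_nonneg_right hl (mul_pos (hfpos x) (GT.gw_pos lam x)).le
    calc Real.log (f x) * (f x * gw lam x) ≤ (f x - 1) * (f x * gw lam x) := this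
      _ = (f x * gw lam x - gw lam x) + (f x - 1) ^ 2 * gw lam x := by ring
  rw [integral_add ((bfg.sub bg).integrable hKc hKi) (bsq.integrable hKc hKi),
    integral_sub (bfg.integrable hKc hKi) (bg.integrable hKc hKi), ← s2, ← s1] at hlog
  linarith

end Crest.Agent.R82
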