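import Crest.Agent.R82.Geo
import Crest.Agent.R82.Conj

/-!
# Row 82, task LP: an `L¹` Poincaré inequality for differences of potentials

Blueprint.  `g = φ - φ'`.  For a.e. `x` with `x, x + v ∈ K`:
`|g (x+v) - g x| ≤ ‖v‖ (‖ΔT x‖ + ‖ΔT (x+v)‖) + ⟪T' (x+v) - T' x, v⟫`, `ΔT = T - T'`   (four subgradient inequalities).
For `u` and `n ≥ 1`, `v = u / n`, sum over the `n` steps `x + j v` (all in `K` by convexity when `x, x+u ∈ K`); the last terms telescope to
`⟪T'(x+u) - T' x, u⟫ / n ≤ 2 R ‖u‖ / n`.  Integrating over `x ∈ K ∩ (K - u)` and letting `n → ∞`: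
`∫_{K ∩ (K-u)} |g (x+u) - g x| dx ≤ 2 ‖u‖ ∫_K ‖ΔT‖ dx`.
Integrate over `u` (Tonelli, `w = x + u`): `∫_K ∫_K |g w - g x| dx dw ≤ 2 diam(K) vol(ball 0 (diam K)) ∫_K ‖ΔT‖`.
Finally take `c = ∫ g dρ`: `∫ |g - c| dρ ≤ ∫∫ |g w - g x| dρ dρ`.
-/

set_option autoImplicit false

namespace Crest.Agent.R82

open MeasureTheory
open scoped ENNReal NNReal InnerProductSpace

variable {d : ℕ}

/-- good point for the pair of potentials. -/
def LPgood (R : ℝ) (φ φ' : E d → ℝ) (T T' : E d → E d) (x : E d) : Prop :=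
  (∀ w, φ x + ⟪T x, w - x⟫_ℝ ≤ φ w) ∧ (∀ w, φ' x + ⟪T' x, w - x⟫_ℝ ≤ φ' w) ∧ ‖T' x‖ ≤ R

theorem lp_step {R : ℝ} {φ φ' : E d → ℝ} {T T' : E d → E d} {x y : E d}
    (hx : LPgood R φ φ' T T' x) (hy : LPgood R φ φ' T T' y) :
    |(φ y - φ' y) - (φ x - φ' x)|
      ≤ ‖y - x‖ * (‖T x - T' x‖ + ‖T y - T' y‖) + ⟪T' y - T' x, y - x⟫_ℝ := by
  have a1 := hx.1 y
  have a2 := hy.1 x
  have b1 := hx.2.1 y
  have b2 := hy.2.1 x
  have e : x - y = -(y - x) := by abel
  rw [e, inner_neg_right] at a2 b2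
  have c1 : |⟪T x - T' x, y - x⟫_ℝ| ≤ ‖T x - T' x‖ * ‖y - x‖ := abs_real_inner_le_norm _ _
  have c2 : |⟪T y - T' y, y - x⟫_ℝ| ≤ ‖T y - T' y‖ * ‖y - x‖ := abs_real_inner_le_norm _ _
  rw [inner_sub_left] at c1 c2 ⊢
  have n1 : 0 ≤ ‖T x - T' x‖ * ‖y - x‖ := by positivity
  have n2 : 0 ≤ ‖T y - T' y‖ * ‖y - x‖ := by positivity
  rw [abs_le] at c1 c2 ⊢
  constructor <;> nlinarith [c1.1, c1.2, c2.1, c2.2]

theorem lp_nstep {R : ℝ} {φ φ' : E d → ℝ} {T T' : E d → E d} (x u : E d) (n : ℕ) (hn : 0 < n)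
    (hg : ∀ j : ℕ, j ≤ n → LPgood R φ φ' T T' (x + ((j : ℝ) / n) • u)) :
    |(φ (x + u) - φ' (x + u)) - (φ x - φ' x)|
      ≤ ∑ j ∈ Finset.range n, (‖u‖ / n) * (‖T (x + ((j : ℝ) / n) • u) - T' (x + ((j : ℝ) / n) • u)‖
          + ‖T (x + (((j + 1 : ℕ) : ℝ) / n) • u) - T' (x + (((j + 1 : ℕ) : ℝ) / n) • u)‖)
        + 2 * R * ‖u‖ / n := by
  have hn' : (0 : ℝ) < n := by exact_mod_cast hn
  set X : ℕ → E d := fun j => x + ((j : ℝ) / n) • u with hX
  have X0 : X 0 = x := by simp [hX]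
  have Xn : X n = x + u := by simp [hX, div_self hn'.ne']
  have dX : ∀ j, X (j + 1) - X j = (1 / (n : ℝ)) • u := by
    intro j
    simp only [hX]
    rw [add_sub_add_left_eq_sub, ← sub_smul]
    congr 1
    push_cast
    ring
  have nv : ‖(1 / (n : ℝ)) • u‖ = ‖u‖ / n := by
    rw [norm_smul, Real.norm_of_nonneg (by positivity)]
    ring
  have tel : (φ (x + u) - φ' (x + u)) - (φ x - φ' x)
      = ∑ j ∈ Finset.range n, ((φ (X (j + 1)) - φ' (X (j + 1))) - (φ (X j) - φ' (X j))) := by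
    rw [Finset.sum_range_sub (fun j => φ (X j) - φ' (X j)), X0, Xn]
  rw [tel]
  refine le_trans (Finset.abs_sum_le_sum_abs _ _) ?_
  have step : ∀ j ∈ Finset.range n,
      |(φ (X (j + 1)) - φ' (X (j + 1))) - (φ (X j) - φ' (X j))|
        ≤ (‖u‖ / n) * (‖T (X j) - T' (X j)‖ + ‖T (X (j + 1)) - T' (X (j + 1))‖)
          + (⟪T' (X (j + 1)), (1 / (n : ℝ)) • u⟫_ℝ - ⟪T' (X j), (1 / (n : ℝ)) • u⟫_ℝ) := by
    intro j hj
    have hj' : j < n := Finset.mem_range.1 hj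
    have := lp_step (hg j hj'.le) (hg (j + 1) hj')
    rw [show x + (((j + 1 : ℕ) : ℝ) / n) • u = X (j + 1) from rfl,
      show x + ((j : ℝ) / n) • u = X j from rfl, dX, nv, inner_sub_left] at this
    exact this
  refine le_trans (Finset.sum_le_sum step) ?_
  rw [Finset.sum_add_distrib, Finset.sum_range_sub (fun j => ⟪T' (X j), (1 / (n : ℝ)) • u⟫_ℝ), X0, Xn]
  have h0 := (hg 0 (Nat.zero_le _)).2.2
  have h1 := (hg n le_rfl).2.2
  rw [show x + (((0 : ℕ) : ℝ) / n) • u = X 0 from rfl, X0] at h0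
  rw [show x + ((n : ℝ) / n) • u = X n from rfl, Xn] at h1
  have i1 : ⟪T' (x + u), (1 / (n : ℝ)) • u⟫_ℝ ≤ R * (‖u‖ / n) := by
    refine le_trans (real_inner_le_norm _ _) ?_
    rw [nv]
    gcongr
  have i0 : -(R * (‖u‖ / n)) ≤ ⟪T' x, (1 / (n : ℝ)) • u⟫_ℝ := by
    have := abs_real_inner_le_norm (T' x) ((1 / (n : ℝ)) • u)
    rw [nv] at this
    have h2 : ‖T' x‖ * (‖u‖ / n) ≤ R * (‖u‖ / n) := by gcongr
    linarith [(abs_le.1 this).1]
  have : 2 * R * ‖u‖ / n = R * (‖u‖ / n) + R * (‖u‖ / n) := by ring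
  rw [this]
  gcongr ?_ + ?_
  · exact le_rfl
  · linarith

theorem lp_shift (K Ku : Set (E d)) (hK : MeasurableSet K) (hKu : MeasurableSet Ku)
    (Dl : E d → ℝ≥0∞) (a : E d) (h : ∀ x ∈ Ku, x + a ∈ K) :
    ∫⁻ x in Ku, Dl (x + a) ≤ ∫⁻ x in K, Dl x := by
  rw [← lintegral_indicator hKu, ← lintegral_indicator hK,
    ← lintegral_add_right_eq_self (K.indicator Dl) a]
  apply lintegral_mono
  intro x
  by_cases hx : x ∈ Ku
  · simp [hx, h x hx]
  · simp [hx]

theorem ennreal_le_of_forall_nat (X B c : ℝ≥0∞) (hc : c ≠ ∞)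
    (h : ∀ n : ℕ, 0 < n → X ≤ B + c * (n : ℝ≥0∞)⁻¹) : X ≤ B := by
  have t : Filter.Tendsto (fun n : ℕ => B + c * (n : ℝ≥0∞)⁻¹) Filter.atTop (nhds (B + c * 0)) :=
    tendsto_const_nhds.add (ENNReal.Tendsto.const_mul ENNReal.tendsto_inv_nat_nhds_zero (Or.inr hc))
  simp only [mul_zero, add_zero] at t
  exact ge_of_tendsto t (Filter.eventually_atTop.2 ⟨1, fun n hn => h n hn⟩)

theorem lp_ae_good (K : Set (E d)) (hKm : MeasurableSet K) (R : ℝ)
    (φ φ' : E d → ℝ) (T T' : E d → E d) (h : IsPot K R φ T) (h' : IsPot K R φ' T') :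
    ∀ᵐ x : E d, x ∈ K → LPgood R φ φ' T T' x := by
  have h1 := (ae_restrict_iff' hKm).1 h.sub
  have h2 := (ae_restrict_iff' hKm).1 h'.sub
  have h3 := (ae_restrict_iff' hKm).1 h'.bdd
  filter_upwards [h1, h2, h3] with x a b c hx
  exact ⟨a hx, b hx, c hx⟩

theorem lp_fixed_u (K : Set (E d)) (hKc : IsCompact K) (hKv : Convex ℝ K) (R : ℝ) (hR : 0 ≤ R)
    (φ φ' : E d → ℝ) (T T' : E d → E d) (h : IsPot K R φ T) (h' : IsPot K R φ' T') (u : E d) :
    ∫⁻ x in {x | x ∈ K ∧ x + u ∈ K},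
        ENNReal.ofReal |(φ (x + u) - φ' (x + u)) - (φ x - φ' x)|
      ≤ ENNReal.ofReal (2 * ‖u‖) * ∫⁻ x in K, ‖T x - T' x‖ₑ := by
  have hKm : MeasurableSet K := hKc.measurableSet
  have hKu : MeasurableSet {x | x ∈ K ∧ x + u ∈ K} :=
    hKm.inter (hKm.preimage (measurable_add_const u))
  have hgood := lp_ae_good K hKm R φ φ' T T' h h'
  have hDl : Measurable (fun x => ‖T x - T' x‖ₑ) := (h.measT.sub h'.measT).enorm
  apply ennreal_le_of_forall_nat _ _ (ENNReal.ofReal (2 * R * ‖u‖) * volume K)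
    (ENNReal.mul_ne_top ENNReal.ofReal_ne_top hKc.measure_lt_top.ne)
  intro n hn
  have hn' : (0 : ℝ) < n := by exact_mod_cast hn
  have hae : ∀ᵐ x : E d, ∀ j : ℕ, x + ((j : ℝ) / n) • u ∈ K →
      LPgood R φ φ' T T' (x + ((j : ℝ) / n) • u) :=
    ae_all_iff.2 (fun j =>
      (measurePreserving_add_right volume (((j : ℝ) / n) • u)).quasiMeasurePreserving.ae hgood)
  have hmem : ∀ x ∈ {x | x ∈ K ∧ x + u ∈ K}, ∀ j : ℕ, j ≤ n → x + ((j : ℝ) / n) • u ∈ K := by
    intro x hx j hj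
    apply hKv.add_smul_mem hx.1 hx.2
    constructor
    · positivity
    · rw [div_le_one hn']; exact_mod_cast hj
  have b1 : ∫⁻ x in {x | x ∈ K ∧ x + u ∈ K},
        ENNReal.ofReal |(φ (x + u) - φ' (x + u)) - (φ x - φ' x)|
      ≤ ∫⁻ x in {x | x ∈ K ∧ x + u ∈ K},
        ((∑ j ∈ Finset.range n, ENNReal.ofReal (‖u‖ / n) *
          (‖T (x + ((j : ℝ) / n) • u) - T' (x + ((j : ℝ) / n) • u)‖ₑ
          + ‖T (x + (((j + 1 : ℕ) : ℝ) / n) • u) - T' (x + (((j + 1 : ℕ) : ℝ) / n) • u)‖ₑ))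
        + ENNReal.ofReal (2 * R * ‖u‖ / n)) := by
    apply setLIntegral_mono_ae' hKu
    filter_upwards [hae] with x hx hxK
    have := lp_nstep x u n hn (fun j hj => hx j (hmem x hxK j hj))
    refine le_trans (ENNReal.ofReal_le_ofReal this) ?_
    rw [ENNReal.ofReal_add (Finset.sum_nonneg (fun j _ => by positivity)) (by positivity),
      ENNReal.ofReal_sum_of_nonneg (fun j _ => by positivity)]
    gcongr with j hj
    rw [ENNReal.ofReal_mul (by positivity), ENNReal.ofReal_add (norm_nonneg _) (norm_nonneg _),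
      ofReal_norm, ofReal_norm]
  refine le_trans b1 ?_
  have mD : ∀ a : E d, Measurable (fun x => ‖T (x + a) - T' (x + a)‖ₑ) :=
    fun a => hDl.comp (measurable_add_const a)
  rw [lintegral_add_right _ measurable_const, lintegral_finsetSum]
  swap
  · intro j _
    exact ((mD _).add (mD _)).const_mul _
  have b2 : ∀ j ∈ Finset.range n, ∫⁻ x in {x | x ∈ K ∧ x + u ∈ K}, ENNReal.ofReal (‖u‖ / n) *
          (‖T (x + ((j : ℝ) / n) • u) - T' (x + ((j : ℝ) / n) • u)‖ₑ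
          + ‖T (x + (((j + 1 : ℕ) : ℝ) / n) • u) - T' (x + (((j + 1 : ℕ) : ℝ) / n) • u)‖ₑ)
      ≤ ENNReal.ofReal (‖u‖ / n) * ((∫⁻ x in K, ‖T x - T' x‖ₑ) + ∫⁻ x in K, ‖T x - T' x‖ₑ) := by
    intro j hj
    have hj' : j < n := Finset.mem_range.1 hj
    rw [lintegral_const_mul' _ _ ENNReal.ofReal_ne_top, lintegral_add_left (mD _)]
    exact mul_le_mul' le_rfl (add_le_add
      (lp_shift K _ hKm hKu (fun x => ‖T x - T' x‖ₑ) _ (fun x hx => hmem x hx j hj'.le))
      (lp_shift K _ hKm hKu (fun x => ‖T x - T' x‖ₑ) _ (fun x hx => hmem x hx (j + 1) hj')))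
  gcongr ?_ + ?_
  · refine le_trans (Finset.sum_le_sum b2) ?_
    rw [Finset.sum_const, Finset.card_range, nsmul_eq_mul, ← mul_assoc, ← two_mul, ← mul_assoc]
    apply le_of_eq
    congr 1
    have e2 : (2 : ℝ≥0∞) = ENNReal.ofReal 2 := by simp
    rw [← ENNReal.ofReal_natCast, ← ENNReal.ofReal_mul (by positivity),
      mul_div_cancel₀ _ hn'.ne', ENNReal.ofReal_mul (by norm_num), ← e2, mul_comm]
  · rw [setLIntegral_const, ENNReal.ofReal_div_of_pos hn', ENNReal.ofReal_natCast, div_eq_mul_inv,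
      mul_right_comm]
    gcongr
    exact fun x hx => hx.1

theorem lp_double (K : Set (E d)) (hKc : IsCompact K) (hKv : Convex ℝ K) (R : ℝ) (hR : 0 ≤ R)
    (φ φ' : E d → ℝ) (T T' : E d → E d) (h : IsPot K R φ T) (h' : IsPot K R φ' T')
    (D : ℝ) (hD : ∀ x ∈ K, ‖x‖ ≤ D) :
    ∫⁻ x in K, ∫⁻ w in K, ENNReal.ofReal |(φ w - φ' w) - (φ x - φ' x)|
      ≤ ENNReal.ofReal (4 * D) * (∫⁻ x in K, ‖T x - T' x‖ₑ)
        * volume (Metric.closedBall (0 : E d) (2 * D)) := by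
  have hKm : MeasurableSet K := hKc.measurableSet
  have hg : Continuous (fun x => φ x - φ' x) := h.continuous.sub h'.continuous
  set G : E d → E d → ℝ≥0∞ := fun x w => ENNReal.ofReal |(φ w - φ' w) - (φ x - φ' x)| with hG
  set H : E d → E d → ℝ≥0∞ := fun x u => K.indicator (G x) (x + u) with hH
  have e1 : ∀ x, ∫⁻ w in K, G x w = ∫⁻ u, H x u := by
    intro x
    rw [← lintegral_indicator hKm, ← lintegral_add_left_eq_self (K.indicator (G x)) x]
  refine le_trans (le_of_eq (lintegral_congr (fun x => e1 x))) ?_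
  have mH : Measurable (Function.uncurry H) := by
    have : Function.uncurry H = Set.indicator {p : E d × E d | p.1 + p.2 ∈ K}
        (fun p => G p.1 (p.1 + p.2)) := by
      ext p
      simp only [Function.uncurry, hH, Set.indicator, Set.mem_ofPred_eq]
    rw [this]
    apply Measurable.indicator
    · apply ENNReal.measurable_ofReal.comp
      apply Continuous.measurable
      apply Continuous.abs
      exact (hg.comp (continuous_fst.add continuous_snd)).sub (hg.comp continuous_fst)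
    · exact hKm.preimage (measurable_fst.add measurable_snd)
  rw [lintegral_lintegral_swap mH.aemeasurable]
  have e2 : ∀ u, ∫⁻ x in K, H x u ≤ (Metric.closedBall (0 : E d) (2 * D)).indicator
      (fun _ => ENNReal.ofReal (4 * D) * (∫⁻ x in K, ‖T x - T' x‖ₑ)) u := by
    intro u
    have hKu : MeasurableSet {x | x ∈ K ∧ x + u ∈ K} :=
      hKm.inter (hKm.preimage (measurable_add_const u))
    have e3 : ∫⁻ x in K, H x u = ∫⁻ x in {x | x ∈ K ∧ x + u ∈ K}, G x (x + u) := by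
      rw [← lintegral_indicator hKm, ← lintegral_indicator hKu]
      congr 1
      ext x
      by_cases h1 : x ∈ K <;> by_cases h2 : x + u ∈ K <;> simp [hH, h1, h2]
    rw [e3]
    by_cases hu : u ∈ Metric.closedBall (0 : E d) (2 * D)
    · rw [Set.indicator_of_mem hu]
      refine le_trans (lp_fixed_u K hKc hKv R hR φ φ' T T' h h' u) ?_
      have : ‖u‖ ≤ 2 * D := by simpa using hu
      exact mul_le_mul' (ENNReal.ofReal_le_ofReal (by linarith)) le_rfl
    · have : {x | x ∈ K ∧ x + u ∈ K} = ∅ := by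
        ext x
        simp only [Set.mem_ofPred_eq, Set.mem_empty_iff_false, iff_false, not_and]
        intro h1 h2
        apply hu
        have : ‖u‖ ≤ ‖x + u‖ + ‖x‖ := by
          have := norm_sub_le (x + u) x
          simpa using this
        have a1 := hD _ h1
        have a2 := hD _ h2
        simp only [Metric.mem_closedBall, dist_zero_right]
        linarith
      rw [this]
      simp
  refine le_trans (lintegral_mono e2) ?_
  rw [lintegral_indicator_const Metric.isClosed_closedBall.measurableSet]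

theorem lintegral_rho (K : Set (E d)) (f : E d → ℝ≥0∞) :
    ∫⁻ x, f x ∂(rho K) = (volume K)⁻¹ * ∫⁻ x in K, f x := by
  simp only [rho, Crest.AnalysisR.OT.uniformProbOn]
  rw [lintegral_smul_measure]
  rfl

theorem l1_poincare (K : Set (E d)) (hKc : IsCompact K) (hKv : Convex ℝ K) (hKi : (interior K).Nonempty)
    (R : ℝ) (hR : 0 ≤ R) :
    ∃ C : ℝ, 0 ≤ C ∧ ∀ (φ φ' : E d → ℝ) (T T' : E d → E d), IsPot K R φ T → IsPot K R φ' T' →
      ∃ c : ℝ, ∫ x, |φ x - φ' x - c| ∂(rho K) ≤ C * ∫ x, ‖T x - T' x‖ ∂(rho K) := by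
  obtain ⟨D, hD⟩ : ∃ D, ∀ x ∈ K, ‖x‖ ≤ D := hKc.isBounded.exists_norm_le
  have V0 : volume K ≠ 0 := (volume_pos_of_interior K hKi).ne'
  have Vt : volume K ≠ ∞ := hKc.measure_lt_top.ne
  have hKm : MeasurableSet K := hKc.measurableSet
  set C : ℝ≥0∞ := (volume K)⁻¹ * (ENNReal.ofReal (4 * D)
    * volume (Metric.closedBall (0 : E d) (2 * D))) with hC
  have Ct : C ≠ ∞ := by
    apply ENNReal.mul_ne_top (ENNReal.inv_ne_top.2 V0)
    exact ENNReal.mul_ne_top ENNReal.ofReal_ne_top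
      (isCompact_closedBall (0 : E d) (2 * D)).measure_lt_top.ne
  refine ⟨C.toReal, ENNReal.toReal_nonneg, ?_⟩
  intro φ φ' T T' h h'
  have := isProbabilityMeasure_rho K hKc hKi
  have hg : Continuous (fun x => φ x - φ' x) := h.continuous.sub h'.continuous
  set A : ℝ≥0∞ := ∫⁻ x in K, ‖T x - T' x‖ₑ with hA
  -- the function of the base point
  have mf : Measurable (fun w => ∫⁻ x, ENNReal.ofReal |(φ x - φ' x) - (φ w - φ' w)| ∂(rho K)) := by
    apply Measurable.lintegral_prod_right'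
      (f := fun p : E d × E d => ENNReal.ofReal |(φ p.2 - φ' p.2) - (φ p.1 - φ' p.1)|)
    apply ENNReal.measurable_ofReal.comp
    apply Continuous.measurable
    apply Continuous.abs
    exact (hg.comp continuous_snd).sub (hg.comp continuous_fst)
  obtain ⟨w0, hw0⟩ := exists_le_lintegral (μ := rho K) mf.aemeasurable
  refine ⟨φ w0 - φ' w0, ?_⟩
  have dbl := lp_double K hKc hKv R hR φ φ' T T' h h' D hD
  have hw1 : ∫⁻ x, ENNReal.ofReal |(φ x - φ' x) - (φ w0 - φ' w0)| ∂(rho K)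
      ≤ C * ∫⁻ x, ‖T x - T' x‖ₑ ∂(rho K) := by
    refine le_trans hw0 ?_
    rw [lintegral_rho, lintegral_rho]
    simp only [lintegral_rho]
    rw [lintegral_const_mul' _ _ (ENNReal.inv_ne_top.2 V0)]
    calc (volume K)⁻¹ * ((volume K)⁻¹ *
          ∫⁻ w in K, ∫⁻ x in K, ENNReal.ofReal |(φ x - φ' x) - (φ w - φ' w)|)
        ≤ (volume K)⁻¹ * ((volume K)⁻¹ * (ENNReal.ofReal (4 * D) * A
          * volume (Metric.closedBall (0 : E d) (2 * D)))) := by gcongr
      _ = C * ((volume K)⁻¹ * A) := by rw [hC]; ring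
  have fin : ∫⁻ x, ‖T x - T' x‖ₑ ∂(rho K) ≠ ∞ := by
    have b1 := (rho_absolutelyContinuous K).ae_le h.bdd
    have b2 := (rho_absolutelyContinuous K).ae_le h'.bdd
    have : ∫⁻ x, ‖T x - T' x‖ₑ ∂(rho K) ≤ ∫⁻ _, ENNReal.ofReal (2 * R) ∂(rho K) := by
      apply lintegral_mono_ae
      filter_upwards [b1, b2] with x h1 h2
      rw [← ofReal_norm]
      apply ENNReal.ofReal_le_ofReal
      linarith [norm_sub_le (T x) (T' x)]
    refine ne_top_of_le_ne_top ?_ this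
    rw [lintegral_const, measure_univ, mul_one]
    exact ENNReal.ofReal_ne_top
  have m1 : AEStronglyMeasurable (fun x => |φ x - φ' x - (φ w0 - φ' w0)|) (rho K) :=
    (hg.sub continuous_const).abs.aestronglyMeasurable
  have m2 : AEStronglyMeasurable (fun x => ‖T x - T' x‖) (rho K) :=
    (h.measT.sub h'.measT).norm.aestronglyMeasurable
  rw [integral_eq_lintegral_of_nonneg_ae (Filter.Eventually.of_forall (fun x => abs_nonneg _)) m1,
    integral_eq_lintegral_of_nonneg_ae (Filter.Eventually.of_forall (fun x => norm_nonneg _)) m2,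
    ← ENNReal.toReal_mul]
  apply ENNReal.toReal_mono
  · simp only [ofReal_norm]
    exact ENNReal.mul_ne_top Ct fin
  · simp only [ofReal_norm]
    exact hw1

end Crest.Agent.R82
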