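import Crest.Agent.R82.Geo
import Crest.Agent.R82.Conj

/-!
# Row 82, task VAL: perturbed sources `src K η = (1+η) ρ` and the basic duality inequality

Blueprint for `value_le` (K1).  `x ∈ K`: `⟪x, Z x⟫ ≤ φ x + conj K φ (Z x)` (Fenchel), with equality a.e. for `Z = T` (`IsPot.conj_eq`).
`∫ conj K φ (Z x) dϱ' = ∫ conj K φ d(ϱ'.map Z) = ∫ conj K φ d(ϱ.map T) = ∫ conj K φ (T x) dϱ` (`integral_map`, `conj K φ` continuous).
All integrands are bounded a.e. (`‖x‖ ≤ D`, `‖T x‖, ‖Z x‖ ≤ R`, `φ`, `conj K φ` continuous on compact sets), the measures are finite.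
-/

set_option autoImplicit false

namespace Crest.Agent.R82

open MeasureTheory
open scoped ENNReal NNReal InnerProductSpace

variable {d : ℕ}

/-- the perturbed source `(1 + η) ρ`. -/
noncomputable def src (K : Set (E d)) (η : E d → ℝ) : Measure (E d) :=
  (rho K).withDensity (fun x => ENNReal.ofReal (1 + η x))

theorem src_zero (K : Set (E d)) : src K (fun _ => 0) = rho K := by
  have : (fun _ : E d => ENNReal.ofReal (1 + 0)) = 1 := by
    funext x; simp
  rw [src, this, withDensity_one]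

theorem src_ac (K : Set (E d)) (η : E d → ℝ) : src K η ≪ volume.restrict K :=
  (withDensity_absolutelyContinuous _ _).trans (rho_absolutelyContinuous K)

theorem src_compl (K : Set (E d)) (hKc : IsCompact K) (η : E d → ℝ) : src K η Kᶜ = 0 :=
  (withDensity_absolutelyContinuous _ _) (rho_compl K hKc)

theorem integral_src (K : Set (E d)) (η : E d → ℝ) (hη : Measurable η) (hb : ∀ x, |η x| ≤ 1 / 2)
    {F : Type*} [NormedAddCommGroup F] [NormedSpace ℝ F] (f : E d → F) :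
    ∫ x, f x ∂(src K η) = ∫ x, (1 + η x) • f x ∂(rho K) := by
  rw [src, integral_withDensity_eq_integral_toReal_smul (by fun_prop) (by simp)]
  congr 1
  funext x
  rw [ENNReal.toReal_ofReal]
  have := (abs_le.1 (hb x)).1
  linarith

theorem setIntegral_src (K : Set (E d)) (η : E d → ℝ) (hη : Measurable η) (hb : ∀ x, |η x| ≤ 1 / 2)
    {F : Type*} [NormedAddCommGroup F] [NormedSpace ℝ F] (f : E d → F) (A : Set (E d)) (hA : MeasurableSet A) :
    ∫ x in A, f x ∂(src K η) = ∫ x in A, (1 + η x) • f x ∂(rho K) := by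
  rw [src, restrict_withDensity hA, integral_withDensity_eq_integral_toReal_smul (by fun_prop) (by simp)]
  congr 1
  funext x
  rw [ENNReal.toReal_ofReal]
  have := (abs_le.1 (hb x)).1
  linarith

theorem isProbabilityMeasure_src (K : Set (E d)) (hKc : IsCompact K) (hKi : (interior K).Nonempty)
    (η : E d → ℝ) (hη : Measurable η) (hb : ∀ x, |η x| ≤ 1 / 2) (h0 : ∫ x, η x ∂(rho K) = 0) :
    IsProbabilityMeasure (src K η) := by
  haveI := isProbabilityMeasure_rho K hKc hKi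
  constructor
  have hint : Integrable η (rho K) :=
    Integrable.of_bound hη.aestronglyMeasurable (1 / 2) (Filter.Eventually.of_forall (by simpa using hb))
  have hint1 : Integrable (fun x => 1 + η x) (rho K) := (integrable_const 1).add hint
  have e : ∫ x, (1 + η x) ∂(rho K) = 1 := by
    rw [integral_add (integrable_const 1) hint, h0]; simp
  rw [src, withDensity_apply _ MeasurableSet.univ, Measure.restrict_univ,
    ← ofReal_integral_eq_lintegral_ofReal hint1
      (Filter.Eventually.of_forall (fun x => by have := (abs_le.1 (hb x)).1; simp only [Pi.zero_apply]; linarith)), e]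
  simp

section duality

variable (K : Set (E d)) (hKc : IsCompact K) (hKn : K.Nonempty)

include hKc in
theorem ae_mem_of_ac (ϱ : Measure (E d)) (hac : ϱ ≪ volume.restrict K) : ∀ᵐ x ∂ϱ, x ∈ K :=
  hac.ae_le (ae_restrict_mem hKc.measurableSet)

include hKc in
theorem integrable_of_continuous (ϱ : Measure (E d)) [IsFiniteMeasure ϱ] (hac : ϱ ≪ volume.restrict K)
    (f : E d → ℝ) (hf : Continuous f) : Integrable f ϱ := by
  obtain ⟨M, hM⟩ := (hKc.image hf).isBounded.exists_norm_le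
  refine Integrable.of_bound hf.aestronglyMeasurable M ?_
  filter_upwards [ae_mem_of_ac K hKc ϱ hac] with x hx
  exact hM _ ⟨x, hx, rfl⟩

include hKc in
theorem integrable_inner (ϱ : Measure (E d)) [IsFiniteMeasure ϱ] (hac : ϱ ≪ volume.restrict K)
    (R : ℝ) (Z : E d → E d) (hZ : Measurable Z) (hZb : ∀ᵐ x ∂ϱ, ‖Z x‖ ≤ R) :
    Integrable (fun x => ⟪x, Z x⟫_ℝ) ϱ := by
  obtain ⟨D, hD⟩ := hKc.isBounded.exists_norm_le
  refine Integrable.of_bound (by fun_prop) (D * R) ?_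
  filter_upwards [ae_mem_of_ac K hKc ϱ hac, hZb] with x hx hz
  calc ‖⟪x, Z x⟫_ℝ‖ ≤ ‖x‖ * ‖Z x‖ := norm_inner_le_norm _ _
    _ ≤ D * R := by
      have := hD x hx
      have h0 : 0 ≤ D := (norm_nonneg x).trans this
      gcongr

theorem integrable_comp_bdd (ϱ : Measure (E d)) [IsFiniteMeasure ϱ]
    (R : ℝ) (Z : E d → E d) (hZ : Measurable Z) (hZb : ∀ᵐ x ∂ϱ, ‖Z x‖ ≤ R) (f : E d → ℝ) (hf : Continuous f) :
    Integrable (fun x => f (Z x)) ϱ := by
  obtain ⟨M, hM⟩ := ((isCompact_closedBall (0 : E d) R).image hf).isBounded.exists_norm_le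
  refine Integrable.of_bound (hf.measurable.comp hZ).aestronglyMeasurable M ?_
  filter_upwards [hZb] with x hx
  exact hM _ ⟨Z x, by simpa using hx, rfl⟩

include hKc hKn in
/-- the duality gap of `Z` w.r.t. `(φ,T)` expressed with values (same hypotheses as `value_le`). -/
theorem gap_eq (R : ℝ) (φ : E d → ℝ) (T Z : E d → E d)
    (h : IsPot K R φ T) (ϱ ϱ' : Measure (E d)) [IsFiniteMeasure ϱ] [IsFiniteMeasure ϱ']
    (hac : ϱ ≪ volume.restrict K) (hac' : ϱ' ≪ volume.restrict K)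
    (hZ : Measurable Z) (hZb : ∀ᵐ x ∂ϱ', ‖Z x‖ ≤ R) (hlaw : ϱ.map T = ϱ'.map Z) :
    ∫ x, (φ x + conj K φ (Z x) - ⟪x, Z x⟫_ℝ) ∂ϱ' =
      (∫ x, φ x ∂ϱ' - ∫ x, ⟪x, Z x⟫_ℝ ∂ϱ') + (∫ x, ⟪x, T x⟫_ℝ ∂ϱ - ∫ x, φ x ∂ϱ) := by
  have hφc := h.continuous
  have hcc := continuous_conj K hKc hKn φ hφc
  have hTb : ∀ᵐ x ∂ϱ, ‖T x‖ ≤ R := hac.ae_le h.bdd
  have i1 := integrable_of_continuous K hKc ϱ' hac' φ hφc
  have i2 := integrable_comp_bdd ϱ' R Z hZ hZb _ hcc
  have i3 := integrable_inner K hKc ϱ' hac' R Z hZ hZb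
  have j1 := integrable_of_continuous K hKc ϱ hac φ hφc
  have j3 := integrable_inner K hKc ϱ hac R T h.measT hTb
  have e1 : ∫ x, conj K φ (Z x) ∂ϱ' = ∫ x, conj K φ (T x) ∂ϱ := by
    rw [← integral_map hZ.aemeasurable hcc.aestronglyMeasurable,
      ← integral_map h.measT.aemeasurable hcc.aestronglyMeasurable, hlaw]
  have e2 : ∫ x, conj K φ (T x) ∂ϱ = ∫ x, ⟪x, T x⟫_ℝ ∂ϱ - ∫ x, φ x ∂ϱ := by
    rw [← integral_sub j3 j1]
    apply integral_congr_ae
    filter_upwards [hac.ae_le (h.conj_eq hKc)] with x hx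
    linarith
  have i12 : Integrable (fun x => φ x + conj K φ (Z x)) ϱ' := i1.add i2
  rw [integral_sub i12 i3, integral_add i1 i2, e1, e2]
  ring

include hKc hKn in
/-- **(K1)** basic duality inequality between two sources with the same target law. -/
theorem value_le (R : ℝ) (φ : E d → ℝ) (T Z : E d → E d)
    (h : IsPot K R φ T) (ϱ ϱ' : Measure (E d)) [IsFiniteMeasure ϱ] [IsFiniteMeasure ϱ']
    (hac : ϱ ≪ volume.restrict K) (hac' : ϱ' ≪ volume.restrict K)
    (hZ : Measurable Z) (hZb : ∀ᵐ x ∂ϱ', ‖Z x‖ ≤ R) (hlaw : ϱ.map T = ϱ'.map Z) :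
    ∫ x, ⟪x, Z x⟫_ℝ ∂ϱ' - ∫ x, φ x ∂ϱ' ≤ ∫ x, ⟪x, T x⟫_ℝ ∂ϱ - ∫ x, φ x ∂ϱ := by
  have hg := gap_eq K hKc hKn R φ T Z h ϱ ϱ' hac hac' hZ hZb hlaw
  have hnn : 0 ≤ ∫ x, (φ x + conj K φ (Z x) - ⟪x, Z x⟫_ℝ) ∂ϱ' := by
    apply integral_nonneg_of_ae
    filter_upwards [ae_mem_of_ac K hKc ϱ' hac'] with x hx
    have := fenchel K hKc φ h.continuous x (Z x) hx
    simp only [Pi.zero_apply]
    linarith
  linarith

end duality

end Crest.Agent.R82
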