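import Crest.Agent.R82.SDex
import Crest.Agent.R82.Val
import Crest.Agent.R82.Bary

/-!
# Row 82, task LAB: labelled finitely supported targets `discMeas p Y = ∑ p k δ_{Y k}` (`Y` need not be injective)

`siteSet Y = image Y`, `siteMass p Y y = ∑_{k : Y k = y} p k`.

Blueprint.
* `labeled_exists`: `semidiscrete_exists` + `exists_selection` + `map_selection` for `S = siteSet Y`, `m = siteMass p Y`;
  `discMeas p Y = ∑_{y ∈ S} ofReal (siteMass p Y y) • δ_y` (sum over fibres).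
* `sub_sites` (the vector of barycenters is a subgradient of the value w.r.t. the sites).  With `ψ' = conj K φ'`:
  `∫ ⟪x, T' x⟫ dϱ = ∫ φ' dϱ + ∫ ψ'(T' x) dϱ = ∫ φ' dϱ + ∑_k p k ψ'(Y' k)`, `∫ φ' dϱ = ∑_{y ∈ S} ∫_{cell y} φ' dϱ = ∑_k p k (m (Y k))⁻¹ ∫_{cell (Y k)} φ' dϱ`,
  `φ' x + ψ'(Y' k) ≥ ⟪x, Y' k⟫` on `K`, `ϱ (cell (Y k)) = m (Y k)`; so `∫ ⟪x,T' x⟫ dϱ ≥ ∑_k p k (m (Y k))⁻¹ ⟪∫_{cell (Y k)} x dϱ, Y' k⟫`,
  while `∫ ⟪x, T x⟫ dϱ = ∑_{y∈S} ⟪∫_{cell y} x dϱ, y⟫ = ∑_k p k (m (Y k))⁻¹ ⟪∫_{cell (Y k)} x dϱ, Y k⟫`.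
* `labeled_stab`: `bary_stab` rewritten as a sum over labels.
-/

set_option autoImplicit false

namespace Crest.Agent.R82

open MeasureTheory
open scoped ENNReal NNReal InnerProductSpace

variable {d : ℕ} {ι : Type*} [Fintype ι]

open Classical in
/-- set of sites of a labelled family. -/
noncomputable def siteSet (Y : ι → E d) : Finset (E d) := Finset.univ.image Y

open Classical in
/-- total mass of the labels sitting at `y`. -/
noncomputable def siteMass (p : ι → ℝ) (Y : ι → E d) (y : E d) : ℝ := ∑ k with Y k = y, p k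

/-- `(ψ, T)` solves the semi-discrete problem from `ϱ` to `discMeas p Y`. -/
structure IsLabSol (ϱ : Measure (E d)) (p : ι → ℝ) (Y : ι → E d) (ψ : E d → ℝ) (T : E d → E d) : Prop where
  measT : Measurable T
  memS : ∀ x, T x ∈ siteSet Y
  sel : ∀ x, x ∈ cell (siteSet Y) ψ (T x)
  mass : ∀ y ∈ siteSet Y, ϱ (cell (siteSet Y) ψ y) = ENNReal.ofReal (siteMass p Y y)
  law : ϱ.map T = discMeas p Y

namespace Lab

theorem mem_siteSet (Y : ι → E d) (k : ι) : Y k ∈ siteSet Y := by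
  unfold siteSet
  exact Finset.mem_image_of_mem _ (Finset.mem_univ k)

theorem siteSet_nonempty [Nonempty ι] (Y : ι → E d) : (siteSet Y).Nonempty :=
  ⟨Y (Classical.arbitrary ι), mem_siteSet Y _⟩

open Classical in
theorem sum_fiber {M : Type*} [AddCommMonoid M] (Y : ι → E d) (f : ι → M) :
    ∑ y ∈ siteSet Y, ∑ k with Y k = y, f k = ∑ k, f k :=
  Finset.sum_fiberwise_of_maps_to (fun k _ => mem_siteSet Y k) f

theorem siteMass_pos (p : ι → ℝ) (hp : ∀ k, 0 < p k) (Y : ι → E d) (y : E d) (hy : y ∈ siteSet Y) :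
    0 < siteMass p Y y := by
  classical
  unfold siteSet at hy
  obtain ⟨k, _, rfl⟩ := Finset.mem_image.1 hy
  unfold siteMass
  exact Finset.sum_pos (fun j _ => hp j) ⟨k, by simp⟩

theorem sum_siteMass (p : ι → ℝ) (Y : ι → E d) : ∑ y ∈ siteSet Y, siteMass p Y y = ∑ k, p k :=
  sum_fiber Y p

/-- sums over labels of functions of the site. -/
theorem sum_label (p : ι → ℝ) (Y : ι → E d) (g : E d → ℝ) :
    ∑ k, p k * g (Y k) = ∑ y ∈ siteSet Y, siteMass p Y y * g y := by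
  classical
  rw [← sum_fiber Y]
  refine Finset.sum_congr rfl (fun y _ => ?_)
  unfold siteMass
  rw [Finset.sum_mul]
  refine Finset.sum_congr rfl (fun k hk => ?_)
  rw [(Finset.mem_filter.1 hk).2]

theorem discMeas_eq (p : ι → ℝ) (hp : ∀ k, 0 < p k) (Y : ι → E d) :
    discMeas p Y = ∑ y ∈ siteSet Y, ENNReal.ofReal (siteMass p Y y) • Measure.dirac y := by
  classical
  unfold discMeas
  rw [← sum_fiber Y]
  refine Finset.sum_congr rfl (fun y _ => ?_)
  unfold siteMass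
  rw [ENNReal.ofReal_sum_of_nonneg (fun k _ => (hp k).le), Finset.sum_smul]
  refine Finset.sum_congr rfl (fun k hk => ?_)
  rw [(Finset.mem_filter.1 hk).2]

end Lab

open Lab

theorem labeled_exists [Nonempty ι] (K : Set (E d)) (hKb : Bornology.IsBounded K)
    (ϱ : Measure (E d)) [IsProbabilityMeasure ϱ] (hac : ϱ ≪ volume) (hK : ϱ Kᶜ = 0)
    (p : ι → ℝ) (hp : ∀ k, 0 < p k) (hsum : ∑ k, p k = 1) (Y : ι → E d) :
    ∃ (ψ : E d → ℝ) (T : E d → E d), IsLabSol ϱ p Y ψ T := by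
  obtain ⟨ψ, hψ⟩ := semidiscrete_exists K hKb ϱ hac hK (siteSet Y) (siteSet_nonempty Y)
    (siteMass p Y) (siteMass_pos p hp Y) (by rw [sum_siteMass, hsum])
  obtain ⟨T, hT, hTS, hsel⟩ := exists_selection (siteSet Y) (siteSet_nonempty Y) ψ
  refine ⟨ψ, T, hT, hTS, hsel, hψ, ?_⟩
  rw [(map_selection ϱ hac (siteSet Y) ψ T hT hTS hsel).2, discMeas_eq p hp Y]
  exact Finset.sum_congr rfl (fun y hy => by rw [hψ y hy])

theorem IsLabSol.isPot {ϱ : Measure (E d)} {p : ι → ℝ} {Y : ι → E d} {ψ : E d → ℝ} {T : E d → E d}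
    (h : IsLabSol ϱ p Y ψ T) (K : Set (E d)) (R : ℝ) (hR0 : 0 ≤ R) (hR : ∀ k, ‖Y k‖ ≤ R) :
    IsPot K R (lagPot (siteSet Y) ψ) T := by
  classical
  refine isPot_lagPot K (siteSet Y) ψ R hR0 ?_ T h.measT h.memS h.sel
  intro y hy
  unfold siteSet at hy
  obtain ⟨k, _, rfl⟩ := Finset.mem_image.1 hy
  exact hR k

namespace Lab

theorem integral_eq_sum_cells {F : Type*} [NormedAddCommGroup F] [NormedSpace ℝ F]
    (ϱ : Measure (E d)) (hac : ϱ ≪ volume) {p : ι → ℝ} {Y : ι → E d} {ψ : E d → ℝ} {T : E d → E d}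
    (h : IsLabSol ϱ p Y ψ T) (f : E d → F) (hf : Integrable f ϱ) :
    ∫ x, f x ∂ϱ = ∑ y ∈ siteSet Y, ∫ x in cell (siteSet Y) ψ y, f x ∂ϱ := by
  have hsel := (map_selection ϱ hac (siteSet Y) ψ T h.measT h.memS h.sel).1
  have hU : (⋃ y ∈ siteSet Y, T ⁻¹' {y}) = Set.univ := by
    ext x
    simp only [Set.mem_iUnion, Set.mem_preimage, Set.mem_singleton_iff, Set.mem_univ, iff_true]
    exact ⟨T x, h.memS x, rfl⟩
  rw [← setIntegral_univ, ← hU, integral_biUnion_finset _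
    (fun y _ => h.measT (measurableSet_singleton y)) ?_ (fun y _ => hf.integrableOn)]
  · exact Finset.sum_congr rfl (fun y hy => setIntegral_congr_set (hsel y hy))
  · intro y _ y' _ hne
    refine Set.disjoint_left.2 (fun x hx hx' => hne ?_)
    have h1 : T x = y := hx
    have h2 : T x = y' := hx'
    rw [← h1, h2]

theorem integral_discMeas (p : ι → ℝ) (hp : ∀ k, 0 < p k) (Y : ι → E d) (g : E d → ℝ) :
    ∫ y, g y ∂(discMeas p Y) = ∑ k, p k * g (Y k) := by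
  unfold discMeas
  rw [integral_finsetSum_measure (fun k _ =>
    (integrable_dirac (by simp)).smul_measure ENNReal.ofReal_ne_top)]
  refine Finset.sum_congr rfl (fun k _ => ?_)
  rw [integral_smul_measure, integral_dirac, ENNReal.toReal_ofReal (hp k).le, smul_eq_mul]

end Lab

/-- barycenters are a subgradient of the value with respect to the sites. -/
theorem sub_sites (K : Set (E d)) (hKc : IsCompact K) (hKn : K.Nonempty) (R : ℝ)
    (ϱ : Measure (E d)) [IsProbabilityMeasure ϱ] (hac : ϱ ≪ volume.restrict K)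
    (p : ι → ℝ) (hp : ∀ k, 0 < p k) (Y Y' : ι → E d) (hY' : ∀ k, ‖Y' k‖ ≤ R)
    (ψ : E d → ℝ) (T : E d → E d) (h : IsLabSol ϱ p Y ψ T)
    (φ' : E d → ℝ) (T' : E d → E d) (h' : IsPot K R φ' T') (hlaw' : ϱ.map T' = discMeas p Y') :
    ∫ x, ⟪x, T x⟫_ℝ ∂ϱ +
        ∑ k, p k * (siteMass p Y (Y k))⁻¹ * ⟪∫ x in cell (siteSet Y) ψ (Y k), x ∂ϱ, Y' k - Y k⟫_ℝ
      ≤ ∫ x, ⟪x, T' x⟫_ℝ ∂ϱ := by
  have hacv : ϱ ≪ volume := hac.trans (Measure.absolutelyContinuous_of_le Measure.restrict_le_self)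
  have hKae : ∀ᵐ x ∂ϱ, x ∈ K := hac.ae_le (ae_restrict_mem hKc.measurableSet)
  obtain ⟨D, hD⟩ := hKc.isBounded.exists_norm_le
  have hD0 : 0 ≤ D := by
    obtain ⟨x0, hx0⟩ := hKn
    exact le_trans (norm_nonneg x0) (hD x0 hx0)
  have hφc : Continuous φ' := h'.continuous
  -- integrability
  have hint_id : Integrable (fun x : E d => x) ϱ := by
    refine Integrable.of_bound measurable_id.aestronglyMeasurable D ?_
    filter_upwards [hKae] with x hx using hD x hx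
  have hint_φ : Integrable φ' ϱ := by
    obtain ⟨C, hC⟩ := hKc.exists_bound_of_continuousOn hφc.continuousOn
    refine Integrable.of_bound hφc.aestronglyMeasurable C ?_
    filter_upwards [hKae] with x hx using hC x hx
  have hint_T : Integrable (fun x => ⟪x, T x⟫_ℝ) ϱ := by
    refine Integrable.of_bound (measurable_id.inner h.measT).aestronglyMeasurable
      (D * ∑ z ∈ siteSet Y, ‖z‖) ?_
    filter_upwards [hKae] with x hx
    rw [Real.norm_eq_abs]
    exact le_trans (abs_real_inner_le_norm _ _)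
      (mul_le_mul (hD x hx) (SDex.norm_le_sum _ _ (h.memS x)) (norm_nonneg _) hD0)
  have hint_T' : Integrable (fun x => ⟪x, T' x⟫_ℝ) ϱ := by
    refine Integrable.of_bound (measurable_id.inner h'.measT).aestronglyMeasurable (D * R) ?_
    filter_upwards [hKae, hac.ae_le h'.bdd] with x hx hx'
    rw [Real.norm_eq_abs]
    exact le_trans (abs_real_inner_le_norm _ _) (mul_le_mul (hD x hx) hx' (norm_nonneg _) hD0)
  have hconj : ∀ᵐ x ∂ϱ, φ' x + conj K φ' (T' x) = ⟪x, T' x⟫_ℝ := hac.ae_le (h'.conj_eq hKc)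
  have hint_c : Integrable (fun x => conj K φ' (T' x)) ϱ := by
    refine (hint_T'.sub hint_φ).congr ?_
    filter_upwards [hconj] with x hx
    simp only [Pi.sub_apply]
    linarith
  -- (b)
  have hb : ∫ x, ⟪x, T' x⟫_ℝ ∂ϱ = ∫ x, φ' x ∂ϱ + ∑ k, p k * conj K φ' (Y' k) := by
    have e1 : ∫ x, ⟪x, T' x⟫_ℝ ∂ϱ = ∫ x, (φ' x + conj K φ' (T' x)) ∂ϱ :=
      integral_congr_ae (by filter_upwards [hconj] with x hx using hx.symm)
    rw [e1, integral_add hint_φ hint_c]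
    congr 1
    rw [← integral_discMeas p hp Y' (conj K φ'), ← hlaw',
      integral_map h'.measT.aemeasurable (continuous_conj K hKc hKn φ' hφc).aestronglyMeasurable]
  -- abbreviations
  set S := siteSet Y with hS
  have hmpos : ∀ y ∈ S, 0 < siteMass p Y y := siteMass_pos p hp Y
  have hmass : ∀ y ∈ S, ϱ.real (cell S ψ y) = siteMass p Y y := by
    intro y hy
    rw [measureReal_def, h.mass y hy, ENNReal.toReal_ofReal (hmpos y hy).le]
  have hinner : ∀ (y z : E d), ⟪∫ x in cell S ψ y, x ∂ϱ, z⟫_ℝ = ∫ x in cell S ψ y, ⟪x, z⟫_ℝ ∂ϱ := by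
    intro y z
    rw [real_inner_comm, ← integral_inner hint_id.integrableOn z]
    exact integral_congr_ae (Filter.Eventually.of_forall (fun x => real_inner_comm _ _))
  -- (c)
  have hc : ∫ x, φ' x ∂ϱ = ∑ k, p k * ((siteMass p Y (Y k))⁻¹ * ∫ x in cell S ψ (Y k), φ' x ∂ϱ) := by
    rw [integral_eq_sum_cells ϱ hacv h φ' hint_φ,
      sum_label p Y (fun y => (siteMass p Y y)⁻¹ * ∫ x in cell S ψ y, φ' x ∂ϱ)]
    refine Finset.sum_congr rfl (fun y hy => ?_)
    rw [← mul_assoc, mul_inv_cancel₀ (hmpos y hy).ne', one_mul]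
  -- (a)
  have ha : ∫ x, ⟪x, T x⟫_ℝ ∂ϱ =
      ∑ k, p k * ((siteMass p Y (Y k))⁻¹ * ⟪∫ x in cell S ψ (Y k), x ∂ϱ, Y k⟫_ℝ) := by
    rw [integral_eq_sum_cells ϱ hacv h _ hint_T,
      sum_label p Y (fun y => (siteMass p Y y)⁻¹ * ⟪∫ x in cell S ψ y, x ∂ϱ, y⟫_ℝ)]
    refine Finset.sum_congr rfl (fun y hy => ?_)
    rw [← mul_assoc, mul_inv_cancel₀ (hmpos y hy).ne', one_mul, hinner]
    have hsel := (map_selection ϱ hacv S ψ T h.measT h.memS h.sel).1 y hy
    rw [← setIntegral_congr_set hsel, ← setIntegral_congr_set hsel]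
    refine setIntegral_congr_fun (h.measT (measurableSet_singleton y)) (fun x hx => ?_)
    have h1 : T x = y := hx
    simp only [h1]
  -- (d)
  have hd : ∀ k, ⟪∫ x in cell S ψ (Y k), x ∂ϱ, Y' k⟫_ℝ ≤
      ∫ x in cell S ψ (Y k), φ' x ∂ϱ + siteMass p Y (Y k) * conj K φ' (Y' k) := by
    intro k
    rw [hinner]
    have e1 : ∫ x in cell S ψ (Y k), ⟪x, Y' k⟫_ℝ ∂ϱ ≤
        ∫ x in cell S ψ (Y k), (φ' x + conj K φ' (Y' k)) ∂ϱ := by
      refine setIntegral_mono_ae ?_ ((hint_φ.add (integrable_const _)).integrableOn) ?_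
      · have : Integrable (fun x : E d => ⟪x, Y' k⟫_ℝ) ϱ := hint_id.inner_const (Y' k)
        exact this.integrableOn
      · filter_upwards [hKae] with x hx using fenchel K hKc φ' hφc x (Y' k) hx
    rw [integral_add hint_φ.integrableOn (integrable_const _).integrableOn, setIntegral_const,
      hmass _ (mem_siteSet Y k), smul_eq_mul] at e1
    exact e1
  rw [ha, hb, hc, ← Finset.sum_add_distrib, ← Finset.sum_add_distrib]
  refine Finset.sum_le_sum (fun k _ => ?_)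
  have hm := hmpos (Y k) (mem_siteSet Y k)
  have hk := hd k
  rw [inner_sub_right]
  have e2 : (siteMass p Y (Y k))⁻¹ * ⟪∫ x in cell S ψ (Y k), x ∂ϱ, Y' k⟫_ℝ ≤
      (siteMass p Y (Y k))⁻¹ * ∫ x in cell S ψ (Y k), φ' x ∂ϱ + conj K φ' (Y' k) := by
    have := mul_le_mul_of_nonneg_left hk (inv_pos.2 hm).le
    rw [mul_add, ← mul_assoc, inv_mul_cancel₀ hm.ne', one_mul] at this
    exact this
  have e3 := mul_le_mul_of_nonneg_left e2 (hp k).le
  nlinarith [e3]

/-- `bary_stab` in labelled form. -/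
theorem labeled_stab (K : Set (E d)) (hKc : IsCompact K) (hKv : Convex ℝ K) (hKi : (interior K).Nonempty) :
    ∃ C : ℝ, 0 ≤ C ∧ ∀ (ι : Type) [Fintype ι] [Nonempty ι] (p : ι → ℝ) (Y : ι → E d) (η : E d → ℝ)
      (ψ0 ψ1 : E d → ℝ) (T0 T1 : E d → E d),
      (∀ k, 0 < p k) → Measurable η → (∀ x, |η x| ≤ 1 / 2) →
      IsLabSol (rho K) p Y ψ0 T0 → IsLabSol (src K η) p Y ψ1 T1 →
      ∑ k, p k * ‖(siteMass p Y (Y k))⁻¹ • (∫ x in cell (siteSet Y) ψ1 (Y k), x ∂(src K η))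
            - (siteMass p Y (Y k))⁻¹ • ∫ x in cell (siteSet Y) ψ0 (Y k), x ∂(rho K)‖ ^ 2
        ≤ C * ∫ x, η x ^ 2 ∂(rho K) := by
  obtain ⟨C, hC0, hC⟩ := bary_stab K hKc hKv hKi
  refine ⟨C, hC0, ?_⟩
  intro ι _ _ p Y η ψ0 ψ1 T0 T1 hp hη hb h0 h1
  have hmpos : ∀ y ∈ siteSet Y, 0 < siteMass p Y y := siteMass_pos p hp Y
  have key := hC (siteSet Y) ψ0 ψ1 η (siteMass p Y) (siteSet_nonempty Y) hη hb hmpos ?_ ?_
  · refine le_trans (le_of_eq ?_) key
    rw [sum_label p Y (fun y => ‖(siteMass p Y y)⁻¹ • (∫ x in cell (siteSet Y) ψ1 y, x ∂(src K η))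
            - (siteMass p Y y)⁻¹ • ∫ x in cell (siteSet Y) ψ0 y, x ∂(rho K)‖ ^ 2)]
    refine Finset.sum_congr rfl (fun y hy => ?_)
    have hm := hmpos y hy
    rw [← smul_sub, norm_smul, mul_pow, Real.norm_eq_abs, sq_abs,
      setIntegral_src K η hη hb _ _ (measurableSet_cell _ _ _)]
    field_simp
  · intro y hy
    rw [setIntegral_const, measureReal_def, h0.mass y hy, ENNReal.toReal_ofReal (hmpos y hy).le]
    simp
  · intro y hy
    have e := setIntegral_src K η hη hb (fun _ => (1 : ℝ)) (cell (siteSet Y) ψ1 y)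
      (measurableSet_cell _ _ _)
    simp only [smul_eq_mul, mul_one] at e
    rw [← e, setIntegral_const, measureReal_def, h1.mass y hy,
      ENNReal.toReal_ofReal (hmpos y hy).le]
    simp

end Crest.Agent.R82
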