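-- Row 82, task ROCK. Blueprint: see the header of CycDef.lean
import Crest.Agent.R82.CycDef

set_option autoImplicit false

namespace Crest.Agent.R82

open MeasureTheory Crest.AnalysisR.OT
open scoped ENNReal NNReal InnerProductSpace

variable {d : ℕ}

/-- value of a chain `z 0, …, z n` at the end point `w`. -/
noncomputable def chainVal (n : ℕ) (z : Fin (n + 1) → E d × E d) (w : E d) : ℝ :=
  ∑ k : Fin n, ⟪(z k.succ).1 - (z k.castSucc).1, (z k.castSucc).2⟫_ℝ
    + ⟪w - (z (Fin.last n)).1, (z (Fin.last n)).2⟫_ℝ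

lemma chainVal_sub (n : ℕ) (z : Fin (n + 1) → E d × E d) (w w' : E d) :
    chainVal n z w - chainVal n z w' = ⟪w - w', (z (Fin.last n)).2⟫_ℝ := by
  unfold chainVal
  simp only [inner_sub_left]
  ring

lemma chainVal_le_add (n : ℕ) (z : Fin (n + 1) → E d × E d) (w w' : E d) (R : ℝ)
    (hR : ‖(z (Fin.last n)).2‖ ≤ R) :
    chainVal n z w ≤ chainVal n z w' + R * ‖w - w'‖ := by
  have h := chainVal_sub n z w w'
  have h2 : ⟪w - w', (z (Fin.last n)).2⟫_ℝ ≤ ‖w - w'‖ * ‖(z (Fin.last n)).2‖ :=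
    real_inner_le_norm _ _
  have h3 : ‖w - w'‖ * ‖(z (Fin.last n)).2‖ ≤ ‖w - w'‖ * R :=
    mul_le_mul_of_nonneg_left hR (norm_nonneg _)
  nlinarith

lemma chainVal_closed (Γ : Set (E d × E d)) (hΓ : CycMono Γ) (n : ℕ)
    (z : Fin (n + 1) → E d × E d) (hz : ∀ k, z k ∈ Γ) :
    chainVal n z (z 0).1 ≤ 0 := by
  have h := hΓ n z hz
  rw [Fin.sum_univ_castSucc] at h
  simpa [chainVal, Fin.coeSucc_eq_succ] using h

lemma chainVal_snoc (n : ℕ) (z : Fin (n + 1) → E d × E d) (q : E d × E d) (w : E d) :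
    chainVal (n + 1) (Fin.snoc (α := fun _ => E d × E d) z q) w
      = chainVal n z q.1 + ⟪w - q.1, q.2⟫_ℝ := by
  unfold chainVal
  rw [Fin.sum_univ_castSucc]
  have h1 : ∀ k : Fin n,
      (Fin.snoc (α := fun _ => E d × E d) z q : Fin (n + 2) → E d × E d) (k.castSucc.succ)
        = z k.succ := by
    intro k
    rw [← Fin.castSucc_succ]  
    exact Fin.snoc_castSucc (α := fun _ => E d × E d) _ _ _
  have h2 : ∀ k : Fin (n + 1),
      (Fin.snoc (α := fun _ => E d × E d) z q : Fin (n + 2) → E d × E d) (k.castSucc)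
        = z k := by
    intro k
    exact Fin.snoc_castSucc (α := fun _ => E d × E d) _ _ _
  have h3 : (Fin.snoc (α := fun _ => E d × E d) z q : Fin (n + 2) → E d × E d) (Fin.last (n + 1))
        = q := Fin.snoc_last (α := fun _ => E d × E d) _ _
  have h4 : (Fin.last n).succ = Fin.last (n + 1) := rfl
  simp only [h1, h2, h3, h4]

/-- task ROCK -/
theorem rockafellar (Γ : Set (E d × E d)) (hΓ : CycMono Γ) (hne : Γ.Nonempty) (R : ℝ)
    (hR : ∀ z ∈ Γ, ‖z.2‖ ≤ R) :
    ∃ φ : E d → ℝ, (∀ x w, |φ x - φ w| ≤ R * ‖x - w‖) ∧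
      ∀ z ∈ Γ, ∀ w, φ z.1 + ⟪z.2, w - z.1⟫_ℝ ≤ φ w := by
  obtain ⟨z0, hz0⟩ := hne
  set S : E d → Set ℝ := fun w =>
    {v | ∃ (n : ℕ) (z : Fin (n + 1) → E d × E d), z 0 = z0 ∧ (∀ k, z k ∈ Γ) ∧ v = chainVal n z w}
    with hS
  have hbdd : ∀ w, BddAbove (S w) := by
    intro w
    refine ⟨R * ‖w - z0.1‖, ?_⟩
    rintro v ⟨n, z, h0, hz, rfl⟩
    have h1 := chainVal_le_add n z w z0.1 R (hR _ (hz _))
    have h2 := chainVal_closed Γ hΓ n z hz
    rw [h0] at h2
    linarith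
  have hnon : ∀ w, (S w).Nonempty := by
    intro w
    exact ⟨_, 0, fun _ => z0, rfl, fun _ => hz0, rfl⟩
  have hlip1 : ∀ x w, sSup (S x) ≤ sSup (S w) + R * ‖x - w‖ := by
    intro x w
    refine csSup_le (hnon x) ?_
    rintro v ⟨n, z, h0, hz, rfl⟩
    have h1 := chainVal_le_add n z x w R (hR _ (hz _))
    have h2 : chainVal n z w ≤ sSup (S w) := le_csSup (hbdd w) ⟨n, z, h0, hz, rfl⟩
    linarith
  refine ⟨fun w => sSup (S w), ?_, ?_⟩
  · intro x w
    have h1 := hlip1 x w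
    have h2 := hlip1 w x
    rw [norm_sub_rev] at h2
    rw [abs_le]
    constructor <;> linarith
  · intro q hq w
    have : sSup (S q.1) ≤ sSup (S w) - ⟪q.2, w - q.1⟫_ℝ := by
      refine csSup_le (hnon _) ?_
      rintro v ⟨n, z, h0, hz, rfl⟩
      have h1 := chainVal_snoc n z q w
      have h2 : chainVal (n + 1) (Fin.snoc (α := fun _ => E d × E d) z q) w ≤ sSup (S w) := by
        refine le_csSup (hbdd w) ⟨n + 1, _, ?_, ?_, rfl⟩
        · have : (0 : Fin (n + 2)) = (0 : Fin (n + 1)).castSucc := rfl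
          rw [this, Fin.snoc_castSucc (α := fun _ => E d × E d), h0]
        · intro k
          refine Fin.lastCases ?_ ?_ k
          · rw [Fin.snoc_last (α := fun _ => E d × E d)]; exact hq
          · intro i
            rw [Fin.snoc_castSucc (α := fun _ => E d × E d)]; exact hz i
      rw [real_inner_comm] 
      linarith
    linarith

end Crest.Agent.R82
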