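-- Row 82: interface `exists_potential` (done, depends on Cyc + Rock)
import Crest.Agent.R82.Cyc
import Crest.Agent.R82.Rock

set_option autoImplicit false

namespace Crest.Agent.R82

open MeasureTheory Crest.AnalysisR.OT
open scoped ENNReal NNReal InnerProductSpace

variable {d : ℕ}

/-- the interface used downstream. -/
theorem exists_potential (K : Set (E d)) (hKc : IsCompact K) (hKi : (interior K).Nonempty)
    (Y : Set (E d)) (hYc : IsCompact Y) (R : ℝ) (hR : ∀ y ∈ Y, ‖y‖ ≤ R)
    (μ : Measure (E d)) (hμ : IsProbabilityOn Y μ)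
    (T : E d → E d) (hT : IsOptimalMap (rho K) μ T) :
    ∃ φ : E d → ℝ, IsPot K R φ T := by
  obtain ⟨Γ, hcyc, hsub, hne, hae⟩ := cyc_mono K hKc hKi Y hYc μ hμ T hT
  obtain ⟨φ, hlip, hsubg⟩ := rockafellar Γ hcyc hne R (fun z hz => hR _ (hsub hz).2)
  refine ⟨φ, hT.1, ?_, hlip, ?_⟩
  · filter_upwards [hae] with x hx using hR _ (hsub hx).2
  · filter_upwards [hae] with x hx w using hsubg _ hx w

end Crest.Agent.R82
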