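import Crest.Agent.R82.PairG
import Crest.Agent.R82.GN
import Crest.Agent.R82.Pot

/-!
# Row 82, task MAIN: assembly of S0109 (ENNReal bookkeeping)

`R` with `Y ⊆ closedBall 0 R`; `exists_potential` for `Tμ`, `Tν`; `pair_general` gives (P) with `W = √(∫ ‖y-z‖² dπ)`; `gn_step`.
`∫⁻ ‖Tμ - Tν‖ₑ² dρ = ofReal (∫ ‖Tμ - Tν‖² dρ)` (bounded a.e.), `quadCost π = ofReal (∫ ‖y - z‖² dπ)` (`π` is carried by `Y ×ˢ Y`),
`W^(2/3) = (W²)^(1/3)`.
-/

set_option autoImplicit false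

namespace Crest.Agent.R82

open MeasureTheory Crest.AnalysisR.OT
open scoped ENNReal NNReal InnerProductSpace

theorem main_S0109
    (d : ℕ) (K : Set (EuclideanSpace ℝ (Fin d))) (hKc : IsCompact K) (hKv : Convex ℝ K)
    (hKi : (interior K).Nonempty) (Y : Set (EuclideanSpace ℝ (Fin d))) (hYc : IsCompact Y) (hYn : Y.Nonempty) :
    ∃ C : ℝ≥0, ∀ μ ν : Measure (EuclideanSpace ℝ (Fin d)), IsProbabilityOn Y μ → IsProbabilityOn Y ν →
      ∀ Tμ Tν : EuclideanSpace ℝ (Fin d) → EuclideanSpace ℝ (Fin d),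
        IsOptimalMap (uniformProbOn K) μ Tμ → IsOptimalMap (uniformProbOn K) ν Tν →
        ∀ π : Measure (EuclideanSpace ℝ (Fin d) × EuclideanSpace ℝ (Fin d)), IsPairCoupling μ ν π →
          ∫⁻ x, ‖Tμ x - Tν x‖ₑ ^ 2 ∂(uniformProbOn K) ≤ C * quadCost π ^ (1 / 3 : ℝ) := by
  obtain ⟨R, hRY⟩ := hYc.isBounded.exists_norm_le
  have hR : 0 ≤ R := by
    obtain ⟨y, hy⟩ := hYn
    exact (norm_nonneg y).trans (hRY y hy)
  obtain ⟨CP, hCP, hP⟩ := pair_general K hKc hKv hKi R hR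
  obtain ⟨C, hC, hGN⟩ := gn_step K hKc hKv hKi R hR CP hCP
  refine ⟨C.toNNReal, ?_⟩
  intro μ ν hμ hν Tμ Tν hTμ hTν π hπ
  haveI := isProbabilityMeasure_rho K hKc hKi
  obtain ⟨φ0, h0⟩ := exists_potential K hKc hKi Y hYc R hRY μ hμ Tμ hTμ
  obtain ⟨φ1, h1⟩ := exists_potential K hKc hKi Y hYc R hRY ν hν Tν hTν
  have hπ' : IsPairCoupling ((rho K).map Tμ) ((rho K).map Tν) π := by
    rw [show (rho K).map Tμ = μ from hTμ.2.1, show (rho K).map Tν = ν from hTν.2.1]; exact hπ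
  set c : ℝ := ∫ z, ‖z.1 - z.2‖ ^ 2 ∂π with hc
  have hc0 : 0 ≤ c := integral_nonneg (fun z => by positivity)
  have hmain := hGN φ0 φ1 Tμ Tν (Real.sqrt c) h0 h1 (Real.sqrt_nonneg _)
    (fun η hη hB hz => hP φ0 φ1 Tμ Tν π h0 h1 hπ' η hη hB hz)
  -- π is a finite measure carried by Y × Y
  haveI : IsProbabilityMeasure μ := hμ.1
  haveI : IsProbabilityMeasure ν := hν.1
  have hπfin : IsFiniteMeasure π := by
    constructor
    have : π Set.univ = μ Set.univ := by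
      rw [← hπ.1, Measure.map_apply measurable_fst MeasurableSet.univ]; simp
    rw [this]; simp
  have hπ1 : ∀ᵐ z ∂π, z.1 ∈ Y := by
    have : π (Prod.fst ⁻¹' Yᶜ) = 0 := by
      rw [← Measure.map_apply measurable_fst hYc.measurableSet.compl, hπ.1]; exact hμ.2
    rw [ae_iff]; exact this
  have hπ2 : ∀ᵐ z ∂π, z.2 ∈ Y := by
    have : π (Prod.snd ⁻¹' Yᶜ) = 0 := by
      rw [← Measure.map_apply measurable_snd hYc.measurableSet.compl, hπ.2]; exact hν.2
    rw [ae_iff]; exact this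
  have hcost : quadCost π = ENNReal.ofReal c := by
    rw [hc, ofReal_integral_eq_lintegral_ofReal]
    · unfold quadCost
      apply lintegral_congr
      intro z
      rw [ENNReal.ofReal_pow (norm_nonneg _), ofReal_norm_eq_enorm]
    · refine Integrable.of_bound (by fun_prop) ((2 * R) ^ 2) ?_
      filter_upwards [hπ1, hπ2] with z hz1 hz2
      rw [Real.norm_eq_abs, abs_of_nonneg (by positivity)]
      have : ‖z.1 - z.2‖ ≤ 2 * R := by
        calc ‖z.1 - z.2‖ ≤ ‖z.1‖ + ‖z.2‖ := norm_sub_le _ _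
          _ ≤ 2 * R := by linarith [hRY _ hz1, hRY _ hz2]
      gcongr
    · exact Filter.Eventually.of_forall (fun z => by positivity)
  have hS : ∫⁻ x, ‖Tμ x - Tν x‖ₑ ^ 2 ∂(uniformProbOn K) = ENNReal.ofReal (∫ x, ‖Tμ x - Tν x‖ ^ 2 ∂(rho K)) := by
    rw [ofReal_integral_eq_lintegral_ofReal]
    · apply lintegral_congr
      intro z
      rw [ENNReal.ofReal_pow (norm_nonneg _), ofReal_norm_eq_enorm]
    · have m0 := h0.measT
      have m1 := h1.measT
      refine Integrable.of_bound (by fun_prop) ((2 * R) ^ 2) ?_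
      filter_upwards [(rho_absolutelyContinuous K).ae_le h0.bdd, (rho_absolutelyContinuous K).ae_le h1.bdd] with x hx0 hx1
      rw [Real.norm_eq_abs, abs_of_nonneg (by positivity)]
      have : ‖Tμ x - Tν x‖ ≤ 2 * R := by
        calc ‖Tμ x - Tν x‖ ≤ ‖Tμ x‖ + ‖Tν x‖ := norm_sub_le _ _
          _ ≤ 2 * R := by linarith
      gcongr
    · exact Filter.Eventually.of_forall (fun z => by positivity)
  rw [hS, hcost, ENNReal.ofReal_rpow_of_nonneg hc0 (by norm_num)]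
  have e : (Real.sqrt c) ^ (2 / 3 : ℝ) = c ^ (1 / 3 : ℝ) := by
    rw [Real.sqrt_eq_rpow, ← Real.rpow_mul hc0]; norm_num
  rw [e] at hmain
  calc ENNReal.ofReal (∫ x, ‖Tμ x - Tν x‖ ^ 2 ∂(rho K)) ≤ ENNReal.ofReal (C * c ^ (1 / 3 : ℝ)) :=
        ENNReal.ofReal_le_ofReal hmain
    _ = (C.toNNReal : ℝ≥0∞) * ENNReal.ofReal (c ^ (1 / 3 : ℝ)) := by
        rw [ENNReal.ofReal_mul hC]; rfl

end Crest.Agent.R82
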