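import Crest.Agent.R82.Lab

/-!
# Row 82, task MIX: the mixed second difference of the transport value (source perturbation × displacement of the sites)

Notation: `ρ = rho K`, `ρ₁ = src K η` (`|η| ≤ 1/2`, `∫ η dρ = 0`), labels `ι`, weights `p`, sites `Y0`, `Y1` (`‖·‖ ≤ R`),
`W² = ∑ p k ‖Y1 k - Y0 k‖²`.  For a source `ϱ ∈ {ρ, ρ₁}` and sites `Y` the value `a(ϱ, Y) = ∫ ⟪x, T x⟫ dϱ` does not depend on the potential pair `(φ,T)`
with `ϱ.map T = discMeas p Y` (`value_le` twice, with `ϱ' = ϱ`).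

Blueprint.  Fix `n ≥ 1`, `Y^j = Y0 + (j/n) (Y1 - Y0)`, `j = 0..n` (`‖Y^j k‖ ≤ R` by convexity).  `labeled_exists` gives solutions `(ψ_j, T_j)` for `(ρ, Y^j)` and
`(ψ'_j, T'_j)` for `(ρ₁, Y^j)`.  Put `b_j k = (m_j (Y^j k))⁻¹ ∫_{cell (Y^j k)} x dρ`, `b'_j k` likewise for `ρ₁`, `ξ k = Y1 k - Y0 k`,
`Ξ_j = ∑ p k ⟪b_j k, ξ k⟫`, `Ξ'_j = ∑ p k ⟪b'_j k, ξ k⟫`.  `sub_sites` (forward and backward step):
`a(ϱ,Y^{j+1}) - a(ϱ,Y^j) ≥ Ξ^ϱ_j / n` and `a(ϱ,Y^j) - a(ϱ,Y^{j+1}) ≥ - Ξ^ϱ_{j+1} / n`.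
Hence `(a(ρ₁,Y1) - a(ρ₁,Y0)) - (a(ρ,Y1) - a(ρ,Y0)) ≥ (1/n) ∑_{j<n} (Ξ'_j - Ξ_{j+1}) = (1/n) ∑_{j<n} (Ξ'_j - Ξ_j) + (Ξ_0 - Ξ_n)/n`
and symmetrically `≤ (1/n) ∑_{j<n} (Ξ'_{j+1} - Ξ_{j+1}) + (Ξ_n - Ξ_0)/n`.
`|Ξ'_j - Ξ_j| ≤ (∑ p k ‖b'_j k - b_j k‖²)^(1/2) W ≤ (C ∫ η²)^(1/2) W` (`labeled_stab`, Cauchy–Schwarz), `|Ξ_j| ≤ D W` (`‖b_j k‖ ≤ D`).  Let `n → ∞`.
-/

set_option autoImplicit false
set_option linter.unusedSectionVars false

namespace Crest.Agent.R82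

open MeasureTheory
open scoped ENNReal NNReal InnerProductSpace

variable {d : ℕ}

/-- abstract telescoping argument. -/
lemma mix_tele (n : ℕ) (hn : 0 < n) (a0 a1 X0 X1 : ℕ → ℝ) (A M : ℝ)
    (h0l : ∀ j < n, X0 j / n ≤ a0 (j + 1) - a0 j) (h0u : ∀ j < n, a0 (j + 1) - a0 j ≤ X0 (j + 1) / n)
    (h1l : ∀ j < n, X1 j / n ≤ a1 (j + 1) - a1 j) (h1u : ∀ j < n, a1 (j + 1) - a1 j ≤ X1 (j + 1) / n)
    (hA : ∀ j ≤ n, |X1 j - X0 j| ≤ A) (hM : ∀ j ≤ n, |X0 j| ≤ M) :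
    |(a1 n - a1 0) - (a0 n - a0 0)| ≤ A + 2 * M / n := by
  have hn' : (0 : ℝ) < n := by exact_mod_cast hn
  have s0 : ∑ j ∈ Finset.range n, (a0 (j + 1) - a0 j) = a0 n - a0 0 := Finset.sum_range_sub _ _
  have s1 : ∑ j ∈ Finset.range n, (a1 (j + 1) - a1 j) = a1 n - a1 0 := Finset.sum_range_sub _ _
  have sX : ∑ j ∈ Finset.range n, (X0 (j + 1) - X0 j) = X0 n - X0 0 := Finset.sum_range_sub _ _
  have hs : ∑ j ∈ Finset.range n, (A / n + (X0 (j + 1) - X0 j) / n) = A + (X0 n - X0 0) / n := by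
    rw [Finset.sum_add_distrib, ← Finset.sum_div _ (fun j => X0 (j + 1) - X0 j), sX,
      Finset.sum_const, Finset.card_range, nsmul_eq_mul]
    field_simp
  have hΔ : (a1 n - a1 0) - (a0 n - a0 0)
      = ∑ j ∈ Finset.range n, ((a1 (j + 1) - a1 j) - (a0 (j + 1) - a0 j)) := by
    rw [Finset.sum_sub_distrib, s0, s1]
  have hup : (a1 n - a1 0) - (a0 n - a0 0) ≤ A + (X0 n - X0 0) / n := by
    rw [hΔ, ← hs]
    refine Finset.sum_le_sum fun j hj => ?_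
    have hj' : j < n := Finset.mem_range.1 hj
    have e1 := h1u j hj'
    have e2 := h0l j hj'
    have e3 := (abs_le.1 (hA (j + 1) hj')).2
    have e4 : X1 (j + 1) / n ≤ (X0 (j + 1) + A) / n := by
      apply div_le_div_of_nonneg_right _ hn'.le
      linarith
    have e5 : A / n + (X0 (j + 1) - X0 j) / n = (X0 (j + 1) + A) / n - X0 j / n := by ring
    rw [e5]
    linarith
  have hlo : -(A + (X0 n - X0 0) / n) ≤ (a1 n - a1 0) - (a0 n - a0 0) := by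
    rw [hΔ, ← hs, ← Finset.sum_neg_distrib]
    refine Finset.sum_le_sum fun j hj => ?_
    have hj' : j < n := Finset.mem_range.1 hj
    have e1 := h1l j hj'
    have e2 := h0u j hj'
    have e3 := (abs_le.1 (hA j hj'.le)).1
    have e4 : (X0 j - A) / n ≤ X1 j / n := by
      apply div_le_div_of_nonneg_right _ hn'.le
      linarith
    have e5 : -(A / n + (X0 (j + 1) - X0 j) / n) = (X0 j - A) / n - X0 (j + 1) / n := by ring
    rw [e5]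
    linarith
  have hM1 := abs_le.1 (hM n le_rfl)
  have hM0 := abs_le.1 (hM 0 (Nat.zero_le _))
  have hfin : (X0 n - X0 0) / n ≤ 2 * M / n := by
    apply div_le_div_of_nonneg_right _ hn'.le
    linarith [hM1.2, hM0.1]
  rw [abs_le]
  constructor <;> linarith

/-- weighted Cauchy–Schwarz. -/
lemma weighted_cs {ι : Type*} [Fintype ι] (p : ι → ℝ) (hp : ∀ k, 0 ≤ p k) (u v : ι → E d) :
    |∑ k, p k * ⟪u k, v k⟫_ℝ| ≤ Real.sqrt (∑ k, p k * ‖u k‖ ^ 2) * Real.sqrt (∑ k, p k * ‖v k‖ ^ 2) := by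
  have h1 : |∑ k, p k * ⟪u k, v k⟫_ℝ| ≤ ∑ k, (Real.sqrt (p k) * ‖u k‖) * (Real.sqrt (p k) * ‖v k‖) := by
    refine (Finset.abs_sum_le_sum_abs _ _).trans (Finset.sum_le_sum fun k _ => ?_)
    rw [abs_mul, abs_of_nonneg (hp k)]
    have h2 : |⟪u k, v k⟫_ℝ| ≤ ‖u k‖ * ‖v k‖ := abs_real_inner_le_norm _ _
    have h3 : (Real.sqrt (p k) * ‖u k‖) * (Real.sqrt (p k) * ‖v k‖)
        = (Real.sqrt (p k) * Real.sqrt (p k)) * (‖u k‖ * ‖v k‖) := by ring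
    rw [h3, Real.mul_self_sqrt (hp k)]
    exact mul_le_mul_of_nonneg_left h2 (hp k)
  refine h1.trans ?_
  have h4 := Real.sum_mul_le_sqrt_mul_sqrt Finset.univ (fun k => Real.sqrt (p k) * ‖u k‖)
    (fun k => Real.sqrt (p k) * ‖v k‖)
  simp only [mul_pow] at h4
  have h5 : ∀ k, Real.sqrt (p k) ^ 2 = p k := fun k => Real.sq_sqrt (hp k)
  simp only [h5] at h4
  exact h4

section lab

variable {ι : Type*} [Fintype ι]

/-- barycenter of the cell of the label `k`. -/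
noncomputable def labBary (ϱ : Measure (E d)) (p : ι → ℝ) (Y : ι → E d) (ψ : E d → ℝ) (k : ι) : E d :=
  (siteMass p Y (Y k))⁻¹ • ∫ x in cell (siteSet Y) ψ (Y k), x ∂ϱ

lemma siteMass_pos' (p : ι → ℝ) (hp : ∀ k, 0 < p k) (Y : ι → E d) (k : ι) :
    0 < siteMass p Y (Y k) := by
  classical
  unfold siteMass
  exact Finset.sum_pos (fun i _ => hp i) ⟨k, by simp⟩

lemma mem_siteSet' (Y : ι → E d) (k : ι) : Y k ∈ siteSet Y := by
  classical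
  unfold siteSet
  exact Finset.mem_image_of_mem _ (Finset.mem_univ _)

lemma norm_labBary_le (K : Set (E d)) (hKm : MeasurableSet K) (D : ℝ) (hD : ∀ x ∈ K, ‖x‖ ≤ D)
    (ϱ : Measure (E d)) (hac : ϱ ≪ volume.restrict K) (p : ι → ℝ) (hp : ∀ k, 0 < p k)
    (Y : ι → E d) (ψ : E d → ℝ) (T : E d → E d) (h : IsLabSol ϱ p Y ψ T) (k : ι) :
    ‖labBary ϱ p Y ψ k‖ ≤ D := by
  have hm := siteMass_pos' p hp Y k
  have hmass := h.mass (Y k) (mem_siteSet' Y k)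
  have hae : ∀ᵐ x ∂ϱ, ‖x‖ ≤ D := by
    have h1 : ∀ᵐ x ∂(volume.restrict K), ‖x‖ ≤ D := by
      filter_upwards [ae_restrict_mem hKm] with x hx using hD x hx
    exact hac.ae_le h1
  have h2 : ‖∫ x in cell (siteSet Y) ψ (Y k), x ∂ϱ‖ ≤ D * ϱ.real (cell (siteSet Y) ψ (Y k)) :=
    norm_setIntegral_le_of_norm_le_const_ae (by rw [hmass]; exact ENNReal.ofReal_lt_top)
      (ae_restrict_of_ae hae)
  have h3 : ϱ.real (cell (siteSet Y) ψ (Y k)) = siteMass p Y (Y k) := by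
    rw [Measure.real, hmass, ENNReal.toReal_ofReal hm.le]
  rw [h3] at h2
  unfold labBary
  rw [norm_smul, Real.norm_eq_abs, abs_of_pos (inv_pos.2 hm)]
  calc (siteMass p Y (Y k))⁻¹ * ‖∫ x in cell (siteSet Y) ψ (Y k), x ∂ϱ‖
      ≤ (siteMass p Y (Y k))⁻¹ * (D * siteMass p Y (Y k)) :=
        mul_le_mul_of_nonneg_left h2 (inv_pos.2 hm).le
    _ = D := by field_simp

lemma value_unique (K : Set (E d)) (hKc : IsCompact K) (hKn : K.Nonempty) (R : ℝ)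
    (ϱ : Measure (E d)) [IsFiniteMeasure ϱ] (hac : ϱ ≪ volume.restrict K)
    (φ φ' : E d → ℝ) (T T' : E d → E d) (h : IsPot K R φ T) (h' : IsPot K R φ' T')
    (hlaw : ϱ.map T = ϱ.map T') :
    ∫ x, ⟪x, T x⟫_ℝ ∂ϱ = ∫ x, ⟪x, T' x⟫_ℝ ∂ϱ := by
  have h1 := value_le K hKc hKn R φ T T' h ϱ ϱ hac hac h'.measT (hac.ae_le h'.bdd) hlaw
  have h2 := value_le K hKc hKn R φ' T' T h' ϱ ϱ hac hac h.measT (hac.ae_le h.bdd) hlaw.symm
  linarith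

lemma step_le (K : Set (E d)) (hKc : IsCompact K) (hKn : K.Nonempty) (R : ℝ) (hR0 : 0 ≤ R)
    (ϱ : Measure (E d)) [IsProbabilityMeasure ϱ] (hac : ϱ ≪ volume.restrict K)
    (p : ι → ℝ) (hp : ∀ k, 0 < p k) (Y Y' : ι → E d) (hY' : ∀ k, ‖Y' k‖ ≤ R)
    (ψ : E d → ℝ) (T : E d → E d) (h : IsLabSol ϱ p Y ψ T)
    (ψ' : E d → ℝ) (T' : E d → E d) (h' : IsLabSol ϱ p Y' ψ' T') :
    ∑ k, p k * ⟪labBary ϱ p Y ψ k, Y' k - Y k⟫_ℝ ≤ ∫ x, ⟪x, T' x⟫_ℝ ∂ϱ - ∫ x, ⟪x, T x⟫_ℝ ∂ϱ := by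
  have h1 := sub_sites K hKc hKn R ϱ hac p hp Y Y' hY' ψ T h _ T' (h'.isPot K R hR0 hY') h'.law
  have h2 : ∑ k, p k * ⟪labBary ϱ p Y ψ k, Y' k - Y k⟫_ℝ
      = ∑ k, p k * (siteMass p Y (Y k))⁻¹ * ⟪∫ x in cell (siteSet Y) ψ (Y k), x ∂ϱ, Y' k - Y k⟫_ℝ := by
    refine Finset.sum_congr rfl fun k _ => ?_
    unfold labBary
    rw [real_inner_smul_left]
    ring
  rw [h2]
  linarith

/-- the interpolated sites. -/
noncomputable def interp (n : ℕ) (Y0 Y1 : ι → E d) (j : ℕ) : ι → E d :=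
  fun k => Y0 k + ((j : ℝ) / n) • (Y1 k - Y0 k)

lemma interp_zero (n : ℕ) (Y0 Y1 : ι → E d) : interp n Y0 Y1 0 = Y0 := by
  funext k
  simp [interp]

lemma interp_last (n : ℕ) (hn : 0 < n) (Y0 Y1 : ι → E d) : interp n Y0 Y1 n = Y1 := by
  funext k
  have hn' : (n : ℝ) ≠ 0 := by exact_mod_cast hn.ne'
  simp [interp, div_self hn']

lemma norm_interp_le (n : ℕ) (hn : 0 < n) (Y0 Y1 : ι → E d) (R : ℝ) (h0 : ∀ k, ‖Y0 k‖ ≤ R)
    (h1 : ∀ k, ‖Y1 k‖ ≤ R) (j : ℕ) (hj : j ≤ n) (k : ι) : ‖interp n Y0 Y1 j k‖ ≤ R := by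
  have hn' : (0 : ℝ) < n := by exact_mod_cast hn
  set t : ℝ := (j : ℝ) / n with ht
  have ht0 : 0 ≤ t := by positivity
  have ht1 : t ≤ 1 := by
    rw [ht, div_le_one hn']
    exact_mod_cast hj
  have e : interp n Y0 Y1 j k = (1 - t) • Y0 k + t • Y1 k := by
    simp only [interp, ← ht, smul_sub, sub_smul, one_smul]
    abel
  rw [e]
  calc ‖(1 - t) • Y0 k + t • Y1 k‖ ≤ ‖(1 - t) • Y0 k‖ + ‖t • Y1 k‖ := norm_add_le _ _
    _ = (1 - t) * ‖Y0 k‖ + t * ‖Y1 k‖ := by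
        rw [norm_smul, norm_smul, Real.norm_eq_abs, Real.norm_eq_abs, abs_of_nonneg ht0,
          abs_of_nonneg (by linarith : 0 ≤ 1 - t)]
    _ ≤ (1 - t) * R + t * R :=
        add_le_add (mul_le_mul_of_nonneg_left (h0 k) (by linarith))
          (mul_le_mul_of_nonneg_left (h1 k) ht0)
    _ = R := by ring

lemma interp_succ_sub (n : ℕ) (Y0 Y1 : ι → E d) (j : ℕ) (k : ι) :
    interp n Y0 Y1 (j + 1) k - interp n Y0 Y1 j k = ((1 : ℝ) / n) • (Y1 k - Y0 k) := by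
  simp only [interp, Nat.cast_add, Nat.cast_one, add_div, add_smul]
  abel

/-- the two one-sided estimates for one step, for one source. -/
lemma source_steps (K : Set (E d)) (hKc : IsCompact K) (hKn : K.Nonempty) (R : ℝ) (hR0 : 0 ≤ R)
    (ϱ : Measure (E d)) [IsProbabilityMeasure ϱ] (hac : ϱ ≪ volume.restrict K)
    (p : ι → ℝ) (hp : ∀ k, 0 < p k) (n : ℕ) (hn : 0 < n) (Y0 Y1 : ι → E d)
    (h0 : ∀ k, ‖Y0 k‖ ≤ R) (h1 : ∀ k, ‖Y1 k‖ ≤ R)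
    (ψ : ℕ → E d → ℝ) (S : ℕ → E d → E d) (hS : ∀ j, IsLabSol ϱ p (interp n Y0 Y1 j) (ψ j) (S j))
    (j : ℕ) (hj : j < n) :
    (∑ k, p k * ⟪labBary ϱ p (interp n Y0 Y1 j) (ψ j) k, Y1 k - Y0 k⟫_ℝ) / n
        ≤ ∫ x, ⟪x, S (j + 1) x⟫_ℝ ∂ϱ - ∫ x, ⟪x, S j x⟫_ℝ ∂ϱ ∧
    ∫ x, ⟪x, S (j + 1) x⟫_ℝ ∂ϱ - ∫ x, ⟪x, S j x⟫_ℝ ∂ϱ
        ≤ (∑ k, p k * ⟪labBary ϱ p (interp n Y0 Y1 (j + 1)) (ψ (j + 1)) k, Y1 k - Y0 k⟫_ℝ) / n := by
  constructor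
  · have e := step_le K hKc hKn R hR0 ϱ hac p hp _ _ (norm_interp_le n hn Y0 Y1 R h0 h1 (j + 1) hj)
      (ψ j) (S j) (hS j) (ψ (j + 1)) (S (j + 1)) (hS (j + 1))
    refine le_trans (le_of_eq ?_) e
    rw [Finset.sum_div]
    refine Finset.sum_congr rfl fun k _ => ?_
    rw [interp_succ_sub, real_inner_smul_right]
    ring
  · have e := step_le K hKc hKn R hR0 ϱ hac p hp _ _ (norm_interp_le n hn Y0 Y1 R h0 h1 j hj.le)
      (ψ (j + 1)) (S (j + 1)) (hS (j + 1)) (ψ j) (S j) (hS j)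
    have e2 : ∑ k, p k * ⟪labBary ϱ p (interp n Y0 Y1 (j + 1)) (ψ (j + 1)) k,
          interp n Y0 Y1 j k - interp n Y0 Y1 (j + 1) k⟫_ℝ
        = -((∑ k, p k * ⟪labBary ϱ p (interp n Y0 Y1 (j + 1)) (ψ (j + 1)) k, Y1 k - Y0 k⟫_ℝ) / n) := by
      rw [Finset.sum_div, ← Finset.sum_neg_distrib]
      refine Finset.sum_congr rfl fun k _ => ?_
      rw [← neg_sub (interp n Y0 Y1 (j + 1) k), interp_succ_sub, inner_neg_right,
        real_inner_smul_right]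
      ring
    rw [e2] at e
    linarith

end lab

theorem mixed_diff (K : Set (E d)) (hKc : IsCompact K) (hKv : Convex ℝ K) (hKi : (interior K).Nonempty)
    (R : ℝ) (hR : 0 ≤ R) :
    ∃ C : ℝ, 0 ≤ C ∧ ∀ (ι : Type) [Fintype ι] [Nonempty ι] (p : ι → ℝ) (Y0 Y1 : ι → E d) (η : E d → ℝ)
      (φ00 φ01 φ10 φ11 : E d → ℝ) (T00 T01 T10 T11 : E d → E d),
      (∀ k, 0 < p k) → ∑ k, p k = 1 → (∀ k, ‖Y0 k‖ ≤ R) → (∀ k, ‖Y1 k‖ ≤ R) →
      Measurable η → (∀ x, |η x| ≤ 1 / 2) → ∫ x, η x ∂(rho K) = 0 →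
      IsPot K R φ00 T00 → (rho K).map T00 = discMeas p Y0 →
      IsPot K R φ01 T01 → (rho K).map T01 = discMeas p Y1 →
      IsPot K R φ10 T10 → (src K η).map T10 = discMeas p Y0 →
      IsPot K R φ11 T11 → (src K η).map T11 = discMeas p Y1 →
      |(∫ x, ⟪x, T11 x⟫_ℝ ∂(src K η) - ∫ x, ⟪x, T10 x⟫_ℝ ∂(src K η))
          - (∫ x, ⟪x, T01 x⟫_ℝ ∂(rho K) - ∫ x, ⟪x, T00 x⟫_ℝ ∂(rho K))|
        ≤ C * Real.sqrt (∫ x, η x ^ 2 ∂(rho K)) * Real.sqrt (∑ k, p k * ‖Y1 k - Y0 k‖ ^ 2) := by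
  obtain ⟨CL, hCL0, hCL⟩ := labeled_stab K hKc hKv hKi
  obtain ⟨D, hD⟩ := hKc.isBounded.exists_norm_le
  have hKn : K.Nonempty := hKi.mono interior_subset
  have hKm : MeasurableSet K := hKc.measurableSet
  refine ⟨Real.sqrt CL, Real.sqrt_nonneg _, ?_⟩
  intro ι _ _ p Y0 Y1 η φ00 φ01 φ10 φ11 T00 T01 T10 T11 hp hsum hY0 hY1 hηm hηb hη0
    hP00 hL00 hP01 hL01 hP10 hL10 hP11 hL11
  have hprob0 : IsProbabilityMeasure (rho K) := isProbabilityMeasure_rho K hKc hKi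
  have hprob1 : IsProbabilityMeasure (src K η) := isProbabilityMeasure_src K hKc hKi η hηm hηb hη0
  have hac0 : rho K ≪ volume.restrict K := rho_absolutelyContinuous K
  have hac1 : src K η ≪ volume.restrict K := src_ac K η
  set I : ℝ := ∫ x, η x ^ 2 ∂(rho K) with hI
  set W : ℝ := Real.sqrt (∑ k, p k * ‖Y1 k - Y0 k‖ ^ 2) with hW
  set M : ℝ := ∑ k, p k * (D * ‖Y1 k - Y0 k‖) with hM
  set Δ : ℝ := (∫ x, ⟪x, T11 x⟫_ℝ ∂(src K η) - ∫ x, ⟪x, T10 x⟫_ℝ ∂(src K η))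
          - (∫ x, ⟪x, T01 x⟫_ℝ ∂(rho K) - ∫ x, ⟪x, T00 x⟫_ℝ ∂(rho K)) with hΔ
  -- the estimate for fixed `n`
  have key : ∀ n : ℕ, 0 < n → |Δ| ≤ Real.sqrt CL * Real.sqrt I * W + 2 * M / n := by
    intro n hn
    choose ψ0 S0 hS0 using fun j : ℕ => labeled_exists K hKc.isBounded (rho K)
      (hac0.trans Measure.restrict_le_self.absolutelyContinuous) (rho_compl K hKc) p hp hsum
      (interp n Y0 Y1 j)
    choose ψ1 S1 hS1 using fun j : ℕ => labeled_exists K hKc.isBounded (src K η)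
      (hac1.trans Measure.restrict_le_self.absolutelyContinuous) (src_compl K hKc η) p hp hsum
      (interp n Y0 Y1 j)
    have hst0 := source_steps K hKc hKn R hR (rho K) hac0 p hp n hn Y0 Y1 hY0 hY1 ψ0 S0 hS0
    have hst1 := source_steps K hKc hKn R hR (src K η) hac1 p hp n hn Y0 Y1 hY0 hY1 ψ1 S1 hS1
    have hbd := norm_interp_le n hn Y0 Y1 R hY0 hY1
    have htele := mix_tele n hn (fun j => ∫ x, ⟪x, S0 j x⟫_ℝ ∂(rho K))
      (fun j => ∫ x, ⟪x, S1 j x⟫_ℝ ∂(src K η))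
      (fun j => ∑ k, p k * ⟪labBary (rho K) p (interp n Y0 Y1 j) (ψ0 j) k, Y1 k - Y0 k⟫_ℝ)
      (fun j => ∑ k, p k * ⟪labBary (src K η) p (interp n Y0 Y1 j) (ψ1 j) k, Y1 k - Y0 k⟫_ℝ)
      (Real.sqrt CL * Real.sqrt I * W) M
      (fun j hj => (hst0 j hj).1) (fun j hj => (hst0 j hj).2)
      (fun j hj => (hst1 j hj).1) (fun j hj => (hst1 j hj).2) ?_ ?_
    · -- identify the end values
      have e00 : ∫ x, ⟪x, S0 0 x⟫_ℝ ∂(rho K) = ∫ x, ⟪x, T00 x⟫_ℝ ∂(rho K) := by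
        refine value_unique K hKc hKn R (rho K) hac0 _ _ _ _
          ((hS0 0).isPot K R hR (hbd 0 (Nat.zero_le _))) hP00 ?_
        rw [(hS0 0).law, hL00, interp_zero]
      have e01 : ∫ x, ⟪x, S0 n x⟫_ℝ ∂(rho K) = ∫ x, ⟪x, T01 x⟫_ℝ ∂(rho K) := by
        refine value_unique K hKc hKn R (rho K) hac0 _ _ _ _
          ((hS0 n).isPot K R hR (hbd n le_rfl)) hP01 ?_
        rw [(hS0 n).law, hL01, interp_last n hn]
      have e10 : ∫ x, ⟪x, S1 0 x⟫_ℝ ∂(src K η) = ∫ x, ⟪x, T10 x⟫_ℝ ∂(src K η) := by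
        refine value_unique K hKc hKn R (src K η) hac1 _ _ _ _
          ((hS1 0).isPot K R hR (hbd 0 (Nat.zero_le _))) hP10 ?_
        rw [(hS1 0).law, hL10, interp_zero]
      have e11 : ∫ x, ⟪x, S1 n x⟫_ℝ ∂(src K η) = ∫ x, ⟪x, T11 x⟫_ℝ ∂(src K η) := by
        refine value_unique K hKc hKn R (src K η) hac1 _ _ _ _
          ((hS1 n).isPot K R hR (hbd n le_rfl)) hP11 ?_
        rw [(hS1 n).law, hL11, interp_last n hn]
      simp only [e00, e01, e10, e11] at htele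
      exact htele
    · intro j _
      have e1 : (∑ k, p k * ⟪labBary (src K η) p (interp n Y0 Y1 j) (ψ1 j) k, Y1 k - Y0 k⟫_ℝ)
          - ∑ k, p k * ⟪labBary (rho K) p (interp n Y0 Y1 j) (ψ0 j) k, Y1 k - Y0 k⟫_ℝ
          = ∑ k, p k * ⟪labBary (src K η) p (interp n Y0 Y1 j) (ψ1 j) k
              - labBary (rho K) p (interp n Y0 Y1 j) (ψ0 j) k, Y1 k - Y0 k⟫_ℝ := by
        rw [← Finset.sum_sub_distrib]
        refine Finset.sum_congr rfl fun k _ => ?_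
        rw [inner_sub_left]
        ring
      rw [e1]
      refine (weighted_cs p (fun k => (hp k).le) _ _).trans ?_
      have e2 := hCL ι p (interp n Y0 Y1 j) η (ψ0 j) (ψ1 j) (S0 j) (S1 j) hp hηm hηb (hS0 j) (hS1 j)
      have e3 : Real.sqrt (∑ k, p k * ‖labBary (src K η) p (interp n Y0 Y1 j) (ψ1 j) k
              - labBary (rho K) p (interp n Y0 Y1 j) (ψ0 j) k‖ ^ 2) ≤ Real.sqrt CL * Real.sqrt I := by
        rw [← Real.sqrt_mul hCL0]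
        exact Real.sqrt_le_sqrt e2
      exact mul_le_mul_of_nonneg_right e3 (Real.sqrt_nonneg _)
    · intro j _
      refine (Finset.abs_sum_le_sum_abs _ _).trans (Finset.sum_le_sum fun k _ => ?_)
      rw [abs_mul, abs_of_pos (hp k)]
      refine mul_le_mul_of_nonneg_left ?_ (hp k).le
      refine (abs_real_inner_le_norm _ _).trans ?_
      exact mul_le_mul_of_nonneg_right
        (norm_labBary_le K hKm D hD (rho K) hac0 p hp _ _ _ (hS0 j) k) (norm_nonneg _)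
  -- let `n → ∞`
  have hlim : Filter.Tendsto (fun n : ℕ => Real.sqrt CL * Real.sqrt I * W + 2 * M / (n : ℝ))
      Filter.atTop (nhds (Real.sqrt CL * Real.sqrt I * W + 0)) :=
    tendsto_const_nhds.add (tendsto_const_div_atTop_nhds_zero_nat _)
  rw [add_zero] at hlim
  refine ge_of_tendsto hlim ?_
  filter_upwards [Filter.eventually_gt_atTop 0] with n hn
  exact key n hn

end Crest.Agent.R82
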