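import Crest.Agent.R82.PL1

/-!
# Row 82, task PL2 (pl_pi, prekopa_leindler): the Prékopa–Leindler inequality (midpoint form) on `E d`

Blueprint.
* `bm1d`: 1-D Brunn–Minkowski.  `A B D ⊆ ℝ` measurable, `A`, `B` nonempty, `(a+b)/2 ∈ D` for `a ∈ A`, `b ∈ B`.
  Then `vol A + vol B ≤ 2 * vol D`.  (Inner regularity: compact `A' ⊆ A`, `B' ⊆ B`; with `a = max A'`, `b = min B'`,
  `(A' + b) ∪ (a + B') ⊆ A' + B'` and the two pieces meet in one point; `D ⊇ (1/2)(A'+B')`.)
* `pl1d`: truncate `f, g` (min with `n`) to make them bounded; if `A = sup f`, `B = sup g` are positive then for `0<s<1`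
  `{h > s√(AB)} ⊇ ({f > sA} + {g > sB})/2`; layer cake (`lintegral_eq_lintegral_meas_lt`) + `bm1d` + AM-GM.
* `pl_pi`: induction on the dimension on `Fin n → ℝ` (`MeasurableEquiv.piFinSuccAbove`, `volume_preserving_piFinSuccAbove`,
  Tonelli): sections satisfy the hypothesis in dimension `n`, so the marginals satisfy the 1-D hypothesis.
* `prekopa_leindler`: transfer with `EuclideanSpace.volume_preserving_measurableEquiv` (it is linear).
-/

set_option autoImplicit false

namespace Crest.Agent.R82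

open MeasureTheory
open scoped ENNReal NNReal InnerProductSpace

theorem pl_pi (n : ℕ) (f g h : (Fin n → ℝ) → ℝ≥0∞) (hf : Measurable f) (hg : Measurable g)
    (hh : Measurable h) (H : ∀ x y, f x * g y ≤ h ((1 / 2 : ℝ) • (x + y)) ^ 2) :
    (∫⁻ x, f x) * (∫⁻ x, g x) ≤ (∫⁻ x, h x) ^ 2 := by
  induction n with
  | zero =>
    have hv : (volume : Measure (Fin 0 → ℝ)) = Measure.dirac default := by
      rw [volume_pi]; exact Measure.pi_of_empty _ _
    rw [hv, lintegral_dirac, lintegral_dirac, lintegral_dirac]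
    have := H default default
    rwa [Subsingleton.elim ((1 / 2 : ℝ) • ((default : Fin 0 → ℝ) + default)) default] at this
  | succ n ih =>
    set e := MeasurableEquiv.piFinSuccAbove (fun _ : Fin (n + 1) => ℝ) 0 with he
    have hmp : MeasurePreserving e volume volume :=
      volume_preserving_piFinSuccAbove (fun _ : Fin (n + 1) => ℝ) 0
    have key : ∀ φ : (Fin (n + 1) → ℝ) → ℝ≥0∞, Measurable φ →
        ∫⁻ x, φ x = ∫⁻ t : ℝ, ∫⁻ z : Fin n → ℝ, φ (e.symm (t, z)) := by
      intro φ hφ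
      have h1 : ∫⁻ x, φ x = ∫⁻ p : ℝ × (Fin n → ℝ), φ (e.symm p) := by
        rw [← hmp.symm.lintegral_comp hφ]
      rw [h1, Measure.volume_eq_prod]
      exact lintegral_prod (fun p => φ (e.symm p)) (hφ.comp e.symm.measurable).aemeasurable
    have hmeas : ∀ φ : (Fin (n + 1) → ℝ) → ℝ≥0∞, Measurable φ →
        Measurable (fun t : ℝ => ∫⁻ z : Fin n → ℝ, φ (e.symm (t, z))) := by
      intro φ hφ
      exact (hφ.comp e.symm.measurable).lintegral_prod_right'
    have hsec : ∀ φ : (Fin (n + 1) → ℝ) → ℝ≥0∞, Measurable φ → ∀ t : ℝ,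
        Measurable (fun z : Fin n → ℝ => φ (e.symm (t, z))) := by
      intro φ hφ t
      exact (hφ.comp e.symm.measurable).comp measurable_prodMk_left
    rw [key f hf, key g hg, key h hh]
    apply pl1d _ _ _ (hmeas f hf) (hmeas g hg) (hmeas h hh)
    intro s t
    apply ih _ _ _ (hsec f hf s) (hsec g hg t) (hsec h hh _)
    intro x y
    have hlin : e.symm ((s + t) / 2, (1 / 2 : ℝ) • (x + y))
        = (1 / 2 : ℝ) • (e.symm (s, x) + e.symm (t, y)) := by
      ext i
      refine Fin.cases ?_ (fun j => ?_) i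
      · simp [he, MeasurableEquiv.piFinSuccAbove, Fin.insertNthEquiv]; ring
      · simp [he, MeasurableEquiv.piFinSuccAbove, Fin.insertNthEquiv]; ring
    rw [hlin]
    exact H _ _

/-- **Prékopa–Leindler**, midpoint form. -/
theorem prekopa_leindler (d : ℕ) (f g h : E d → ℝ≥0∞) (hf : Measurable f) (hg : Measurable g)
    (hh : Measurable h) (H : ∀ x y, f x * g y ≤ h ((1 / 2 : ℝ) • (x + y)) ^ 2) :
    (∫⁻ x, f x) * (∫⁻ x, g x) ≤ (∫⁻ x, h x) ^ 2 := by
  have hmp := EuclideanSpace.volume_preserving_symm_measurableEquiv_toLp (Fin d)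
  set e := (MeasurableEquiv.toLp 2 (Fin d → ℝ)) with he
  have key : ∀ φ : E d → ℝ≥0∞, Measurable φ → ∫⁻ x, φ x = ∫⁻ z : Fin d → ℝ, φ (e z) := by
    intro φ hφ
    rw [← hmp.symm.lintegral_comp hφ]
    rfl
  rw [key f hf, key g hg, key h hh]
  apply pl_pi d _ _ _ (hf.comp e.measurable) (hg.comp e.measurable) (hh.comp e.measurable)
  intro x y
  have : e ((1 / 2 : ℝ) • (x + y)) = (1 / 2 : ℝ) • (e x + e y) := by
    simp [he]
  show f (e x) * g (e y) ≤ h (e ((1 / 2 : ℝ) • (x + y))) ^ 2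
  rw [this]
  exact H _ _

end Crest.Agent.R82
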