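import Crest.Agent.R82.Defs

/-!
# Row 82, task PL1 (bm1d, pl1d); task PL2 is in PL.lean: the Prékopa–Leindler inequality (midpoint form) on `E d`

Blueprint.
* `bm1d`: 1-D Brunn–Minkowski.  `A B D ⊆ ℝ` measurable, `A`, `B` nonempty, `(a+b)/2 ∈ D` for `a ∈ A`, `b ∈ B`.
  Then `vol A + vol B ≤ 2 * vol D`.  (Inner regularity: compact `A' ⊆ A`, `B' ⊆ B`; with `a = max A'`, `b = min B'`,
  `(A' + b) ∪ (a + B') ⊆ A' + B'` and the two pieces meet in one point; `D ⊇ (1/2)(A'+B')`.)
* `pl1d`: truncate `f, g` (min with `n`) to make them bounded; if `A = sup f`, `B = sup g` are positive then for `0<s<1`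
  `{h > s√(AB)} ⊇ ({f > sA} + {g > sB})/2`; layer cake (`lintegral_eq_lintegral_meas_lt`) + `bm1d` + AM-GM.
* `pl_pi`: induction on the dimension on `Fin n → ℝ` (`MeasurableEquiv.piFinSuccAbove`, `volume_preserving_piFinSuccAbove`,
  Tonelli): sections satisfy the hypothesis in dimension `n`, so the marginals satisfy the 1-D hypothesis.
* `prekopa_leindler`: transfer with `EuclideanSpace.volume_preserving_measurableEquiv` (it is linear).
-/

set_option autoImplicit false

namespace Crest.Agent.R82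

open MeasureTheory
open scoped ENNReal NNReal InnerProductSpace

theorem vol_preimage_affine (K : Set ℝ) (b : ℝ) :
    volume ((fun y : ℝ => 2 * y - b) ⁻¹' K) = 2⁻¹ * volume K := by
  have h1 : (fun y : ℝ => 2 * y - b) ⁻¹' K = (fun y : ℝ => 2 * y) ⁻¹' ((fun y : ℝ => y + (-b)) ⁻¹' K) := by
    ext y; simp [sub_eq_add_neg]
  rw [h1, Real.volume_preimage_mul_left (by norm_num : (2:ℝ) ≠ 0), measure_preimage_add_right]
  congr 1
  rw [abs_of_pos (by norm_num), ENNReal.ofReal_inv_of_pos (by norm_num)]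
  simp

theorem bm1d_compact (K L D : Set ℝ) (hK : IsCompact K) (hL : IsCompact L)
    (hKn : K.Nonempty) (hLn : L.Nonempty) (H : ∀ a ∈ K, ∀ b ∈ L, (a + b) / 2 ∈ D) :
    volume K + volume L ≤ 2 * volume D := by
  obtain ⟨a, haK, ha⟩ := hK.exists_isGreatest hKn
  obtain ⟨b, hbL, hb⟩ := hL.exists_isLeast hLn
  set S1 := (fun y : ℝ => 2 * y - b) ⁻¹' K with hS1
  set S2 := (fun y : ℝ => 2 * y - a) ⁻¹' L with hS2
  have m2 : MeasurableSet S2 := by
    apply MeasurableSet.preimage hL.measurableSet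
    fun_prop
  have hsub : S1 ∪ S2 ⊆ D := by
    rintro y (hy | hy)
    · have := H _ hy _ hbL
      simpa using this
    · have := H _ haK _ hy
      simpa using this
  have hdisj : AEDisjoint volume S1 S2 := by
    have : S1 ∩ S2 ⊆ {(a + b) / 2} := by
      rintro y ⟨h1, h2⟩
      have e1 := ha h1
      have e2 := hb h2
      simp only [Set.mem_singleton_iff]
      linarith
    exact measure_mono_null this (by simp)
  have hu := measure_union₀ m2.nullMeasurableSet hdisj
  have hle : volume S1 + volume S2 ≤ volume D := hu ▸ measure_mono hsub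
  rw [hS1, hS2, vol_preimage_affine, vol_preimage_affine, ← mul_add] at hle
  calc volume K + volume L = 2 * (2⁻¹ * (volume K + volume L)) := by
        rw [← mul_assoc, ENNReal.mul_inv_cancel (by norm_num) (by norm_num), one_mul]
    _ ≤ 2 * volume D := by gcongr

theorem bm1d (A B D : Set ℝ) (hA : MeasurableSet A) (hB : MeasurableSet B) (hD : MeasurableSet D)
    (hAn : A.Nonempty) (hBn : B.Nonempty) (H : ∀ a ∈ A, ∀ b ∈ B, (a + b) / 2 ∈ D) :
    volume A + volume B ≤ 2 * volume D := by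
  rw [hA.measure_eq_iSup_isCompact, hB.measure_eq_iSup_isCompact]
  obtain ⟨a0, ha0⟩ := hAn
  obtain ⟨b0, hb0⟩ := hBn
  have key : ∀ K, K ⊆ A → IsCompact K → ∀ L, L ⊆ B → IsCompact L → volume K + volume L ≤ 2 * volume D := by
    intro K hKA hK L hLB hL
    have := bm1d_compact (insert a0 K) (insert b0 L) D (hK.insert a0) (hL.insert b0)
      (Set.insert_nonempty _ _) (Set.insert_nonempty _ _) (by
        intro a ha b hb
        apply H
        · rcases ha with rfl | ha
          · exact ha0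
          · exact hKA ha
        · rcases hb with rfl | hb
          · exact hb0
          · exact hLB hb)
    refine le_trans ?_ this
    gcongr <;> exact Set.subset_insert _ _
  simp only [iSup_and']
  exact ENNReal.biSup_add_biSup_le' (p := fun K => K ⊆ A ∧ IsCompact K)
    (q := fun L => L ⊆ B ∧ IsCompact L) ⟨∅, Set.empty_subset _, isCompact_empty⟩
    ⟨∅, Set.empty_subset _, isCompact_empty⟩
    (fun K hK L hL => key K hK.1 hK.2 L hL.1 hL.2)

theorem pl_norm (u v w : ℝ → ℝ) (hu : Measurable u) (hv : Measurable v) (hw : Measurable w)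
    (u0 : ∀ x, 0 ≤ u x) (v0 : ∀ x, 0 ≤ v x) (w0 : ∀ x, 0 ≤ w x)
    (u1 : ∀ x, u x ≤ 1) (v1 : ∀ x, v x ≤ 1)
    (us : ∀ t < 1, ∃ x, t < u x) (vs : ∀ t < 1, ∃ x, t < v x)
    (H : ∀ x y, u x * v y ≤ w ((x + y) / 2) ^ 2) :
    (∫⁻ x, ENNReal.ofReal (u x)) + (∫⁻ x, ENNReal.ofReal (v x))
      ≤ 2 * ∫⁻ x, ENNReal.ofReal (w x) := by
  rw [lintegral_eq_lintegral_meas_lt volume (Filter.Eventually.of_forall u0) hu.aemeasurable,
    lintegral_eq_lintegral_meas_lt volume (Filter.Eventually.of_forall v0) hv.aemeasurable,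
    lintegral_eq_lintegral_meas_lt volume (Filter.Eventually.of_forall w0) hw.aemeasurable]
  have mu : Measurable (fun t => volume {a | t < u a}) :=
    Antitone.measurable (fun s t hst => measure_mono (fun a ha => lt_of_le_of_lt hst ha))
  rw [← lintegral_add_left mu, ← lintegral_const_mul' _ _ (by norm_num)]
  apply lintegral_mono
  intro t
  by_cases ht : t < 1
  · apply bm1d _ _ _ (measurableSet_lt measurable_const hu) (measurableSet_lt measurable_const hv)
      (measurableSet_lt measurable_const hw) (us t ht) (vs t ht)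
    intro x hx y hy
    simp only [Set.mem_ofPred_eq] at hx hy ⊢
    by_contra hcon
    push Not at hcon
    rcases lt_or_ge t 0 with h0 | h0
    · linarith [w0 ((x + y) / 2)]
    · have h1 : t * t < u x * v y := mul_lt_mul'' hx hy h0 h0
      have h2 : w ((x + y) / 2) ^ 2 ≤ t * t := by
        rw [sq]; exact mul_le_mul hcon hcon (w0 _) h0
      linarith [H x y]
  · have e1 : {a | t < u a} = ∅ := by
      ext a; simp only [Set.mem_ofPred_eq, Set.mem_empty_iff_false, iff_false, not_lt]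
      linarith [u1 a]
    have e2 : {a | t < v a} = ∅ := by
      ext a; simp only [Set.mem_ofPred_eq, Set.mem_empty_iff_false, iff_false, not_lt]
      linarith [v1 a]
    simp [e1, e2]

theorem ennreal_amgm (x y z : ℝ≥0∞) (h : x + y ≤ 2 * z) : x * y ≤ z ^ 2 := by
  rcases eq_or_ne z ∞ with rfl | hz
  · simp
  have hs : x + y ≠ ∞ := ne_top_of_le_ne_top (ENNReal.mul_ne_top (by norm_num) hz) h
  have hx : x ≠ ∞ := fun e => hs (by simp [e])
  have hy : y ≠ ∞ := fun e => hs (by simp [e])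
  lift x to ℝ≥0 using hx
  lift y to ℝ≥0 using hy
  lift z to ℝ≥0 using hz
  have h' : (x : ℝ) + y ≤ 2 * z := by exact_mod_cast h
  have : (x : ℝ) * y ≤ (z : ℝ) ^ 2 := by nlinarith [sq_nonneg ((x : ℝ) - y), x.2, y.2, z.2]
  exact_mod_cast this

theorem pl_bdd (f g h : ℝ → ℝ) (hf : Measurable f) (hg : Measurable g) (hh : Measurable h)
    (f0 : ∀ x, 0 ≤ f x) (g0 : ∀ x, 0 ≤ g x) (h0 : ∀ x, 0 ≤ h x)
    (M : ℝ) (fM : ∀ x, f x ≤ M) (gM : ∀ x, g x ≤ M)
    (H : ∀ x y, f x * g y ≤ h ((x + y) / 2) ^ 2) :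
    (∫⁻ x, ENNReal.ofReal (f x)) * (∫⁻ x, ENNReal.ofReal (g x))
      ≤ (∫⁻ x, ENNReal.ofReal (h x)) ^ 2 := by
  have bf : BddAbove (Set.range f) := ⟨M, by rintro _ ⟨x, rfl⟩; exact fM x⟩
  have bg : BddAbove (Set.range g) := ⟨M, by rintro _ ⟨x, rfl⟩; exact gM x⟩
  set a := ⨆ x, f x with ha
  set b := ⨆ x, g x with hb
  have fa : ∀ x, f x ≤ a := fun x => le_ciSup bf x
  have gb : ∀ x, g x ≤ b := fun x => le_ciSup bg x
  have a0 : 0 ≤ a := le_trans (f0 0) (fa 0)
  have b0 : 0 ≤ b := le_trans (g0 0) (gb 0)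
  rcases eq_or_lt_of_le a0 with a0 | a0
  · have : ∀ x, f x = 0 := fun x => le_antisymm (a0 ▸ fa x) (f0 x)
    simp [this]
  rcases eq_or_lt_of_le b0 with b0 | b0
  · have : ∀ x, g x = 0 := fun x => le_antisymm (b0 ▸ gb x) (g0 x)
    simp [this]
  set S := Real.sqrt (a * b) with hS
  have S0 : 0 < S := Real.sqrt_pos.2 (mul_pos a0 b0)
  have S2 : S ^ 2 = a * b := Real.sq_sqrt (mul_pos a0 b0).le
  have key := pl_norm (fun x => f x * a⁻¹) (fun x => g x * b⁻¹) (fun x => h x * S⁻¹)
    (hf.mul_const _) (hg.mul_const _) (hh.mul_const _)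
    (fun x => mul_nonneg (f0 x) (inv_nonneg.2 a0.le))
    (fun x => mul_nonneg (g0 x) (inv_nonneg.2 b0.le))
    (fun x => mul_nonneg (h0 x) (inv_nonneg.2 S0.le))
    (fun x => by rw [← div_eq_mul_inv, div_le_one a0]; exact fa x)
    (fun x => by rw [← div_eq_mul_inv, div_le_one b0]; exact gb x)
    (fun t ht => by
      have : t * a < a := by nlinarith
      obtain ⟨x, hx⟩ := exists_lt_of_lt_ciSup this
      exact ⟨x, by rw [← div_eq_mul_inv, lt_div_iff₀ a0]; exact hx⟩)
    (fun t ht => by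
      have : t * b < b := by nlinarith
      obtain ⟨x, hx⟩ := exists_lt_of_lt_ciSup this
      exact ⟨x, by rw [← div_eq_mul_inv, lt_div_iff₀ b0]; exact hx⟩)
    (fun x y => by
      have e : (h ((x + y) / 2) * S⁻¹) ^ 2 = h ((x + y) / 2) ^ 2 * (a⁻¹ * b⁻¹) := by
        rw [mul_pow, inv_pow, S2, mul_inv]
      rw [e]
      have : f x * a⁻¹ * (g y * b⁻¹) = f x * g y * (a⁻¹ * b⁻¹) := by ring
      rw [this]
      exact mul_le_mul_of_nonneg_right (H x y) (by positivity))
  simp only [ENNReal.ofReal_mul (f0 _), ENNReal.ofReal_mul (g0 _), ENNReal.ofReal_mul (h0 _)] at key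
  rw [lintegral_mul_const' _ _ ENNReal.ofReal_ne_top, lintegral_mul_const' _ _ ENNReal.ofReal_ne_top,
    lintegral_mul_const' _ _ ENNReal.ofReal_ne_top] at key
  have k2 := ennreal_amgm _ _ _ key
  have hσ : ENNReal.ofReal S⁻¹ ^ 2 = ENNReal.ofReal a⁻¹ * ENNReal.ofReal b⁻¹ := by
    rw [← ENNReal.ofReal_pow (inv_nonneg.2 S0.le), ← ENNReal.ofReal_mul (inv_nonneg.2 a0.le),
      inv_pow, S2, mul_inv]
  rw [mul_pow, hσ] at k2
  have hne : ENNReal.ofReal a⁻¹ * ENNReal.ofReal b⁻¹ ≠ 0 := by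
    apply mul_ne_zero
    · simpa using a0
    · simpa using b0
  have hnt : ENNReal.ofReal a⁻¹ * ENNReal.ofReal b⁻¹ ≠ ∞ :=
    ENNReal.mul_ne_top ENNReal.ofReal_ne_top ENNReal.ofReal_ne_top
  rw [← ENNReal.mul_le_mul_iff_left hne hnt]
  calc _ = (∫⁻ x, ENNReal.ofReal (f x)) * ENNReal.ofReal a⁻¹ *
        ((∫⁻ x, ENNReal.ofReal (g x)) * ENNReal.ofReal b⁻¹) := by ring
    _ ≤ _ := k2

theorem pl1d (f g h : ℝ → ℝ≥0∞) (hf : Measurable f) (hg : Measurable g) (hh : Measurable h)
    (H : ∀ x y, f x * g y ≤ h ((x + y) / 2) ^ 2) :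
    (∫⁻ x, f x) * (∫⁻ x, g x) ≤ (∫⁻ x, h x) ^ 2 := by
  have trunc : ∀ n : ℕ, (∫⁻ x, min (f x) n) * (∫⁻ x, min (g x) n) ≤ (∫⁻ x, h x) ^ 2 := by
    intro n
    have nt : ∀ c : ℝ≥0∞, min c n ≠ ∞ := fun c =>
      ne_top_of_le_ne_top (ENNReal.natCast_ne_top n) (min_le_right _ _)
    have := pl_bdd (fun x => (min (f x) n).toReal) (fun x => (min (g x) n).toReal)
      (fun x => (min (h x) n).toReal)
      (hf.min measurable_const).ennreal_toReal (hg.min measurable_const).ennreal_toReal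
      (hh.min measurable_const).ennreal_toReal
      (fun _ => ENNReal.toReal_nonneg) (fun _ => ENNReal.toReal_nonneg)
      (fun _ => ENNReal.toReal_nonneg) n
      (fun x => by
        have := ENNReal.toReal_mono (ENNReal.natCast_ne_top n) (min_le_right (f x) n)
        simpa using this)
      (fun x => by
        have := ENNReal.toReal_mono (ENNReal.natCast_ne_top n) (min_le_right (g x) n)
        simpa using this)
      (fun x y => by
        rw [← ENNReal.toReal_mul, ← ENNReal.toReal_pow]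
        apply ENNReal.toReal_mono (ENNReal.pow_ne_top (nt _))
        rcases le_total (h ((x + y) / 2)) n with hc | hc
        · rw [min_eq_left hc]
          exact le_trans (mul_le_mul' (min_le_left _ _) (min_le_left _ _)) (H x y)
        · rw [min_eq_right hc, sq]
          exact mul_le_mul' (min_le_right _ _) (min_le_right _ _))
    simp only [ENNReal.ofReal_toReal (nt _)] at this
    refine le_trans this ?_
    gcongr
    exact min_le_left _ _
  have lim : ∀ φ : ℝ → ℝ≥0∞, Measurable φ → ∫⁻ x, φ x = ⨆ n : ℕ, ∫⁻ x, min (φ x) n := by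
    intro φ hφ
    rw [← lintegral_iSup (fun n => hφ.min measurable_const)]
    · congr 1
      ext x
      rw [← inf_iSup_eq, ENNReal.iSup_natCast]
      simp
    · intro n m hnm x
      exact min_le_min le_rfl (by exact_mod_cast hnm)
  rw [lim f hf, lim g hg, ENNReal.iSup_mul]
  apply iSup_le
  intro n
  rw [ENNReal.mul_iSup]
  apply iSup_le
  intro m
  refine le_trans ?_ (trunc (max n m))
  gcongr
  · exact_mod_cast le_max_left n m
  · exact_mod_cast le_max_right n m

end Crest.Agent.R82
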