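import Crest.Agent.R82.Geo
import Crest.Agent.R82.Conj

/-!
# Row 82, task WS: weak stability ("a small duality gap forces `Z ≈ T` in `L¹`")

Blueprint.  `G(x) = φ x + conj K φ (Z x) - ⟪x, Z x⟫ ≥ 0` on `K` (Fenchel).  For a.e. `x ∈ Kin K r`, every coordinate `k` and sign `σ = ±1`,
with `w = x + σ r e_k ∈ K`:  `⟪w, Z x⟫ - conj (Z x) ≤ φ w = φ x + σ r ⟪T x, e_k⟫ + D(x, σ r e_k)`, i.e.
`σ r (Z x - T x)_k ≤ G(x) + D(x, σ r e_k)`.  Hence `r ‖Z x - T x‖ ≤ r ∑_k |(Z x - T x)_k| ≤ d G(x) + ∑_{k,σ} D(x, σ r e_k)`.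
Integrate over `Kin K r` with `integral_bregman_le` (`‖σ r e_k‖ = r`) and `rho_diff_Kin_le`; on `K \ Kin K r` use `‖T - Z‖ ≤ 2R`:
`∫ ‖T - Z‖ dρ ≤ (d / r) ∫ G dρ + (4 d R c) r + 2 R c r` for `0 < r ≤ r₀`   (this is `weak_stab_r`).
Then `r = √G` if `0 < G ≤ r₀²`; `r → 0` if `G = 0`; trivial bound `2R ≤ 2R G / r₀²` if `G > r₀²`.
-/

set_option autoImplicit false

namespace Crest.Agent.R82

open MeasureTheory
open scoped ENNReal NNReal InnerProductSpace

variable {d : ℕ}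

theorem ws_norm_le_sum_abs (u : E d) : ‖u‖ ≤ ∑ k, |u k| := by
  rw [EuclideanSpace.norm_eq]
  apply Real.sqrt_le_iff.mpr
  constructor
  · exact Finset.sum_nonneg (fun _ _ => abs_nonneg _)
  · calc ∑ i, ‖u i‖ ^ 2 ≤ (∑ i, ‖u i‖) ^ 2 :=
        Finset.sum_sq_le_sq_sum_of_nonneg (fun _ _ => norm_nonneg _)
      _ = (∑ k, |u k|) ^ 2 := by simp [Real.norm_eq_abs]

/-- one coordinate, one sign. -/
theorem ws_coord (K : Set (E d)) (hKc : IsCompact K) (φ : E d → ℝ) (hφ : Continuous φ)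
    (x t z : E d) (r a : ℝ) (ha : |a| ≤ r) (hx : x ∈ Kin K r) (k : Fin d) :
    a * (z k - t k) ≤ (φ x + conj K φ z - ⟪x, z⟫_ℝ) +
      (φ (x + EuclideanSpace.single k a) - φ x - ⟪t, EuclideanSpace.single k a⟫_ℝ) := by
  have hw : x + EuclideanSpace.single k a ∈ K := by
    apply add_mem_of_mem_Kin K r x _ hx
    simpa using ha
  have h1 := fenchel K hKc φ hφ (x + EuclideanSpace.single k a) z hw
  rw [inner_add_left, EuclideanSpace.inner_single_left] at h1
  rw [EuclideanSpace.inner_single_right]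
  simp only [conj_trivial] at h1 ⊢
  nlinarith [h1]

theorem ws_pointwise (K : Set (E d)) (hKc : IsCompact K) (φ : E d → ℝ) (hφ : Continuous φ)
    (x t z : E d) (r : ℝ) (hr : 0 ≤ r) (hx : x ∈ Kin K r)
    (hD : ∀ v, 0 ≤ φ (x + v) - φ x - ⟪t, v⟫_ℝ) :
    r * ‖t - z‖ ≤ d * (φ x + conj K φ z - ⟪x, z⟫_ℝ) +
      ∑ k : Fin d, ((φ (x + EuclideanSpace.single k r) - φ x - ⟪t, EuclideanSpace.single k r⟫_ℝ) +
        (φ (x + EuclideanSpace.single k (-r)) - φ x - ⟪t, EuclideanSpace.single k (-r)⟫_ℝ)) := by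
  have hk : ∀ k : Fin d, r * |(t - z) k| ≤ (φ x + conj K φ z - ⟪x, z⟫_ℝ) +
      ((φ (x + EuclideanSpace.single k r) - φ x - ⟪t, EuclideanSpace.single k r⟫_ℝ) +
        (φ (x + EuclideanSpace.single k (-r)) - φ x - ⟪t, EuclideanSpace.single k (-r)⟫_ℝ)) := by
    intro k
    have h1 := ws_coord K hKc φ hφ x t z r r (by rw [abs_of_nonneg hr]) hx k
    have h2 := ws_coord K hKc φ hφ x t z r (-r) (by rw [abs_neg, abs_of_nonneg hr]) hx k
    have h3 := hD (EuclideanSpace.single k r)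
    have h4 := hD (EuclideanSpace.single k (-r))
    have h5 : (t - z) k = t k - z k := rfl
    rw [h5]
    rcases abs_cases (t k - z k) with ⟨h, _⟩ | ⟨h, _⟩ <;> rw [h] <;> nlinarith
  calc r * ‖t - z‖ ≤ r * ∑ k, |(t - z) k| :=
        mul_le_mul_of_nonneg_left (ws_norm_le_sum_abs _) hr
    _ = ∑ k, r * |(t - z) k| := Finset.mul_sum _ _ _
    _ ≤ ∑ k : Fin d, ((φ x + conj K φ z - ⟪x, z⟫_ℝ) +
      ((φ (x + EuclideanSpace.single k r) - φ x - ⟪t, EuclideanSpace.single k r⟫_ℝ) +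
        (φ (x + EuclideanSpace.single k (-r)) - φ x - ⟪t, EuclideanSpace.single k (-r)⟫_ℝ))) :=
        Finset.sum_le_sum (fun k _ => hk k)
    _ = _ := by
        rw [Finset.sum_add_distrib, Finset.sum_const, Finset.card_univ, Fintype.card_fin,
          nsmul_eq_mul]

/-- the duality gap integrand is integrable. -/
theorem ws_gap_integrable (K : Set (E d)) (hKc : IsCompact K) (hKi : (interior K).Nonempty)
    (R : ℝ) (φ : E d → ℝ) (hφ : Continuous φ) (Z : E d → E d) (hZ : Measurable Z)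
    (hZb : ∀ᵐ x ∂(rho K), ‖Z x‖ ≤ R) :
    Integrable (fun x => φ x + conj K φ (Z x) - ⟪x, Z x⟫_ℝ) (rho K) := by
  have := isProbabilityMeasure_rho K hKc hKi
  have hKn : K.Nonempty := hKi.mono interior_subset
  have hcc := continuous_conj K hKc hKn φ hφ
  obtain ⟨M1, hM1⟩ := hKc.exists_bound_of_continuousOn hφ.continuousOn
  obtain ⟨M2, hM2⟩ := (isCompact_closedBall (0 : E d) R).exists_bound_of_continuousOn
    hcc.continuousOn
  obtain ⟨D, hD⟩ := hKc.exists_bound_of_continuousOn (continuous_id (X := E d)).continuousOn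
  have hK : ∀ᵐ x ∂(rho K), x ∈ K := by
    have := rho_compl K hKc
    rw [← mem_ae_iff] at this
    exact this
  refine Integrable.of_bound ?_ (M1 + M2 + D * R) ?_
  · apply Measurable.aestronglyMeasurable
    exact (hφ.measurable.add (hcc.measurable.comp hZ)).sub (measurable_id.inner hZ)
  · filter_upwards [hK, hZb] with x hx hz
    have h1 := hM1 x hx
    have h2 := hM2 (Z x) (by simpa using hz)
    have h3 : ‖x‖ ≤ D := hD x hx
    have h4 : ‖⟪x, Z x⟫_ℝ‖ ≤ D * R :=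
      (norm_inner_le_norm _ _).trans (mul_le_mul h3 hz (norm_nonneg _) ((norm_nonneg _).trans h3))
    calc ‖φ x + conj K φ (Z x) - ⟪x, Z x⟫_ℝ‖ ≤ ‖φ x + conj K φ (Z x)‖ + ‖⟪x, Z x⟫_ℝ‖ :=
          norm_sub_le _ _
      _ ≤ ‖φ x‖ + ‖conj K φ (Z x)‖ + ‖⟪x, Z x⟫_ℝ‖ := by gcongr; exact norm_add_le _ _
      _ ≤ M1 + M2 + D * R := by gcongr

theorem ws_gap_nonneg (K : Set (E d)) (hKc : IsCompact K)
    (φ : E d → ℝ) (hφ : Continuous φ) (Z : E d → E d) :
    ∀ᵐ x ∂(rho K), 0 ≤ φ x + conj K φ (Z x) - ⟪x, Z x⟫_ℝ := by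
  have hK : ∀ᵐ x ∂(rho K), x ∈ K := by
    have := rho_compl K hKc
    rw [← mem_ae_iff] at this
    exact this
  filter_upwards [hK] with x hx
  have := fenchel K hKc φ hφ x (Z x) hx
  linarith

/-- the Bregman integrand is integrable. -/
theorem ws_breg_integrable (K : Set (E d)) (hKc : IsCompact K) (hKi : (interior K).Nonempty)
    (R : ℝ) (φ : E d → ℝ) (T : E d → E d) (h : IsPot K R φ T) (v : E d) :
    Integrable (fun x => φ (x + v) - φ x - ⟪T x, v⟫_ℝ) (rho K) := by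
  have := isProbabilityMeasure_rho K hKc hKi
  have hφ := h.continuous
  refine Integrable.of_bound ?_ (R * ‖v‖ + R * ‖v‖) ?_
  · apply Measurable.aestronglyMeasurable
    exact ((hφ.measurable.comp (measurable_id.add_const v)).sub hφ.measurable).sub
      (h.measT.inner measurable_const)
  · filter_upwards [(rho_absolutelyContinuous K).ae_le h.bdd] with x hx
    have h1 : |φ (x + v) - φ x| ≤ R * ‖v‖ := by
      have := h.lip (x + v) x
      simpa using this
    have h4 : ‖⟪T x, v⟫_ℝ‖ ≤ R * ‖v‖ :=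
      (norm_inner_le_norm _ _).trans (mul_le_mul_of_nonneg_right hx (norm_nonneg _))
    calc ‖φ (x + v) - φ x - ⟪T x, v⟫_ℝ‖ ≤ ‖φ (x + v) - φ x‖ + ‖⟪T x, v⟫_ℝ‖ := norm_sub_le _ _
      _ ≤ R * ‖v‖ + R * ‖v‖ := by
          gcongr
          simpa [Real.norm_eq_abs] using h1

theorem ws_diff_bound (K : Set (E d)) (R : ℝ) (φ : E d → ℝ) (T Z : E d → E d) (h : IsPot K R φ T)
    (hZb : ∀ᵐ x ∂(rho K), ‖Z x‖ ≤ R) : ∀ᵐ x ∂(rho K), ‖T x - Z x‖ ≤ 2 * R := by
  filter_upwards [(rho_absolutelyContinuous K).ae_le h.bdd, hZb] with x h1 h2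
  calc ‖T x - Z x‖ ≤ ‖T x‖ + ‖Z x‖ := norm_sub_le _ _
    _ ≤ 2 * R := by linarith

theorem ws_diff_integrable (K : Set (E d)) (hKc : IsCompact K) (hKi : (interior K).Nonempty)
    (R : ℝ) (φ : E d → ℝ) (T Z : E d → E d) (h : IsPot K R φ T) (hZ : Measurable Z)
    (hZb : ∀ᵐ x ∂(rho K), ‖Z x‖ ≤ R) : Integrable (fun x => ‖T x - Z x‖) (rho K) := by
  have := isProbabilityMeasure_rho K hKc hKi
  refine Integrable.of_bound ?_ (2 * R) ?_
  · exact (h.measT.sub hZ).norm.aestronglyMeasurable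
  · filter_upwards [ws_diff_bound K R φ T Z h hZb] with x hx
    simpa using hx

theorem weak_stab_r (K : Set (E d)) (hKc : IsCompact K) (hKv : Convex ℝ K) (hKi : (interior K).Nonempty)
    (R : ℝ) (hR : 0 ≤ R) :
    ∃ C r₀ : ℝ, 0 ≤ C ∧ 0 < r₀ ∧ ∀ (φ : E d → ℝ) (T Z : E d → E d), IsPot K R φ T → Measurable Z →
      (∀ᵐ x ∂(rho K), ‖Z x‖ ≤ R) → ∀ r, 0 < r → r ≤ r₀ →
      ∫ x, ‖T x - Z x‖ ∂(rho K) ≤
        (d / r) * ∫ x, (φ x + conj K φ (Z x) - ⟪x, Z x⟫_ℝ) ∂(rho K) + C * r := by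
  obtain ⟨c, r₀, hc, hr₀, hlayer⟩ := rho_diff_Kin_le K hKc hKv hKi
  refine ⟨4 * d * R * c + 2 * R * c, r₀, by positivity, hr₀, ?_⟩
  intro φ T Z h hZ hZb r hr hrr
  have := isProbabilityMeasure_rho K hKc hKi
  have hφ := h.continuous
  set G : E d → ℝ := fun x => φ x + conj K φ (Z x) - ⟪x, Z x⟫_ℝ with hG
  set Dv : E d → E d → ℝ := fun v x => φ (x + v) - φ x - ⟪T x, v⟫_ℝ with hDv
  have hGi : Integrable G (rho K) := ws_gap_integrable K hKc hKi R φ hφ Z hZ hZb
  have hG0 : ∀ᵐ x ∂(rho K), 0 ≤ G x := ws_gap_nonneg K hKc φ hφ Z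
  have hDi : ∀ v, Integrable (Dv v) (rho K) := fun v => ws_breg_integrable K hKc hKi R φ T h v
  have hfi : Integrable (fun x => ‖T x - Z x‖) (rho K) :=
    ws_diff_integrable K hKc hKi R φ T Z h hZ hZb
  have hmeas : MeasurableSet (Kin K r) := (isClosed_Kin K hKc.isClosed r).measurableSet
  have hL : (rho K (K \ Kin K r)).toReal ≤ c * r := hlayer r hr.le hrr
  have hsub : ∀ᵐ x ∂(rho K), ∀ v, 0 ≤ φ (x + v) - φ x - ⟪T x, v⟫_ℝ := by
    filter_upwards [(rho_absolutelyContinuous K).ae_le h.sub] with x hx v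
    have := hx (x + v)
    simp only [add_sub_cancel_left] at this
    linarith
  -- Bregman integrals
  have hB : ∀ (k : Fin d) (a : ℝ), |a| = r →
      ∫ x in Kin K r, Dv (EuclideanSpace.single k a) x ∂(rho K) ≤ 2 * R * r * (c * r) := by
    intro k a ha
    have hn : ‖(EuclideanSpace.single k a : E d)‖ = r := by simpa using ha
    have := integral_bregman_le K hKc hKi R φ T h r hr.le (EuclideanSpace.single k a) hn.le
    rw [hn] at this
    exact this.trans (mul_le_mul_of_nonneg_left hL (by positivity))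
  -- the inner part
  have h1 : r * ∫ x in Kin K r, ‖T x - Z x‖ ∂(rho K) ≤
      d * ∫ x, G x ∂(rho K) + d * (2 * R * r * (c * r) + 2 * R * r * (c * r)) := by
    have hDD : ∀ k : Fin d, Integrable (fun x => Dv (EuclideanSpace.single k r) x +
        Dv (EuclideanSpace.single k (-r)) x) (rho K) := fun k => (hDi _).add (hDi _)
    have e1 : r * ∫ x in Kin K r, ‖T x - Z x‖ ∂(rho K) =
        ∫ x in Kin K r, r * ‖T x - Z x‖ ∂(rho K) := (integral_const_mul _ _).symm
    have e2 : ∫ x in Kin K r, r * ‖T x - Z x‖ ∂(rho K) ≤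
        ∫ x in Kin K r, (d * G x + ∑ k : Fin d, (Dv (EuclideanSpace.single k r) x +
          Dv (EuclideanSpace.single k (-r)) x)) ∂(rho K) := by
      apply integral_mono_ae
      · exact (hfi.const_mul r).integrableOn
      · apply Integrable.integrableOn
        apply (hGi.const_mul _).add
        exact integrable_finsetSum _ (fun k _ => hDD k)
      · filter_upwards [ae_restrict_of_ae hsub, ae_restrict_mem hmeas] with x hx hxK
        exact ws_pointwise K hKc φ hφ x (T x) (Z x) r hr.le hxK hx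
    have e3 : ∫ x in Kin K r, (d * G x + ∑ k : Fin d, (Dv (EuclideanSpace.single k r) x +
          Dv (EuclideanSpace.single k (-r)) x)) ∂(rho K) =
        d * ∫ x in Kin K r, G x ∂(rho K) + ∑ k : Fin d,
          (∫ x in Kin K r, Dv (EuclideanSpace.single k r) x ∂(rho K) +
           ∫ x in Kin K r, Dv (EuclideanSpace.single k (-r)) x ∂(rho K)) := by
      have i1 : Integrable (fun x => (d : ℝ) * G x) ((rho K).restrict (Kin K r)) :=
        (hGi.const_mul _).integrableOn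
      have i2 : Integrable (fun x => ∑ k : Fin d, (Dv (EuclideanSpace.single k r) x +
          Dv (EuclideanSpace.single k (-r)) x)) ((rho K).restrict (Kin K r)) :=
        (integrable_finsetSum _ (fun k _ => hDD k)).integrableOn
      rw [integral_add i1 i2, integral_const_mul,
        integral_finsetSum _ (fun k _ => (hDD k).integrableOn)]
      congr 1
      apply Finset.sum_congr rfl
      intro k _
      exact integral_add (hDi _).integrableOn (hDi _).integrableOn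
    have e4 : ∫ x in Kin K r, G x ∂(rho K) ≤ ∫ x, G x ∂(rho K) :=
      setIntegral_le_integral hGi hG0
    have e5 : ∑ k : Fin d,
          (∫ x in Kin K r, Dv (EuclideanSpace.single k r) x ∂(rho K) +
           ∫ x in Kin K r, Dv (EuclideanSpace.single k (-r)) x ∂(rho K)) ≤
        ∑ _k : Fin d, (2 * R * r * (c * r) + 2 * R * r * (c * r)) := by
      apply Finset.sum_le_sum
      intro k _
      exact add_le_add (hB k r (abs_of_pos hr)) (hB k (-r) (by rw [abs_neg, abs_of_pos hr]))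
    rw [Finset.sum_const, Finset.card_univ, Fintype.card_fin, nsmul_eq_mul] at e5
    rw [e1]
    refine e2.trans ?_
    rw [e3]
    have : (d : ℝ) * ∫ x in Kin K r, G x ∂(rho K) ≤ d * ∫ x, G x ∂(rho K) :=
      mul_le_mul_of_nonneg_left e4 (Nat.cast_nonneg _)
    linarith
  -- the boundary layer
  have h2 : ∫ x in (Kin K r)ᶜ, ‖T x - Z x‖ ∂(rho K) ≤ 2 * R * (c * r) := by
    have e1 : ∫ x in (Kin K r)ᶜ, ‖T x - Z x‖ ∂(rho K) ≤ ∫ _x in (Kin K r)ᶜ, 2 * R ∂(rho K) := by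
      apply integral_mono_ae hfi.integrableOn (integrable_const _)
      exact ae_restrict_of_ae (ws_diff_bound K R φ T Z h hZb)
    have e2 : ∫ _x in (Kin K r)ᶜ, 2 * R ∂(rho K) = (rho K (Kin K r)ᶜ).toReal * (2 * R) := by
      rw [setIntegral_const]
      simp [Measure.real]
    have e3 : rho K (Kin K r)ᶜ ≤ rho K (K \ Kin K r) := by
      have hsubs : (Kin K r)ᶜ ⊆ (K \ Kin K r) ∪ Kᶜ := by
        intro x hx
        by_cases hxK : x ∈ K
        · exact Or.inl ⟨hxK, hx⟩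
        · exact Or.inr hxK
      calc rho K (Kin K r)ᶜ ≤ rho K ((K \ Kin K r) ∪ Kᶜ) := measure_mono hsubs
        _ ≤ rho K (K \ Kin K r) + rho K Kᶜ := measure_union_le _ _
        _ = rho K (K \ Kin K r) := by rw [rho_compl K hKc, add_zero]
    have e4 : (rho K (Kin K r)ᶜ).toReal ≤ c * r :=
      (ENNReal.toReal_mono (measure_ne_top _ _) e3).trans hL
    rw [e2] at e1
    nlinarith [mul_le_mul_of_nonneg_right e4 (by positivity : (0:ℝ) ≤ 2 * R)]
  have h3 : ∫ x, ‖T x - Z x‖ ∂(rho K) =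
      ∫ x in Kin K r, ‖T x - Z x‖ ∂(rho K) + ∫ x in (Kin K r)ᶜ, ‖T x - Z x‖ ∂(rho K) :=
    (integral_add_compl hmeas hfi).symm
  have h4 : ∫ x in Kin K r, ‖T x - Z x‖ ∂(rho K) ≤
      (d / r) * ∫ x, G x ∂(rho K) + 4 * d * R * c * r := by
    have : ∫ x in Kin K r, ‖T x - Z x‖ ∂(rho K) ≤
        (d * ∫ x, G x ∂(rho K) + d * (2 * R * r * (c * r) + 2 * R * r * (c * r))) / r := by
      rw [le_div_iff₀ hr]
      linarith
    refine this.trans (le_of_eq ?_)
    field_simp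
    ring
  rw [h3]
  linarith

theorem weak_stab (K : Set (E d)) (hKc : IsCompact K) (hKv : Convex ℝ K) (hKi : (interior K).Nonempty)
    (R : ℝ) (hR : 0 ≤ R) :
    ∃ C : ℝ, 0 ≤ C ∧ ∀ (φ : E d → ℝ) (T Z : E d → E d), IsPot K R φ T → Measurable Z →
      (∀ᵐ x ∂(rho K), ‖Z x‖ ≤ R) → ∀ G : ℝ,
      ∫ x, (φ x + conj K φ (Z x) - ⟪x, Z x⟫_ℝ) ∂(rho K) ≤ G →
      ∫ x, ‖T x - Z x‖ ∂(rho K) ≤ C * (Real.sqrt G + G) := by
  obtain ⟨C₁, r₀, hC₁, hr₀, hmain⟩ := weak_stab_r K hKc hKv hKi R hR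
  refine ⟨d + C₁ + 2 * R / r₀ ^ 2, by positivity, ?_⟩
  intro φ T Z h hZ hZb G hG
  have := isProbabilityMeasure_rho K hKc hKi
  have hφ := h.continuous
  set g : ℝ := ∫ x, (φ x + conj K φ (Z x) - ⟪x, Z x⟫_ℝ) ∂(rho K) with hg
  set I : ℝ := ∫ x, ‖T x - Z x‖ ∂(rho K) with hI
  have hg0 : 0 ≤ g := integral_nonneg_of_ae (ws_gap_nonneg K hKc φ hφ Z)
  have hG0 : 0 ≤ G := hg0.trans hG
  have hI0 : 0 ≤ I := integral_nonneg (fun _ => norm_nonneg _)
  have hI2 : I ≤ 2 * R := by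
    have e1 : I ≤ ∫ _x, 2 * R ∂(rho K) :=
      integral_mono_ae (ws_diff_integrable K hKc hKi R φ T Z h hZ hZb) (integrable_const _)
        (ws_diff_bound K R φ T Z h hZb)
    simpa using e1
  have hs0 : 0 ≤ Real.sqrt G := Real.sqrt_nonneg G
  have hq : 0 ≤ 2 * R / r₀ ^ 2 := by positivity
  rcases hG0.eq_or_lt with hGz | hGpos
  · -- G = 0
    have hgz : g = 0 := le_antisymm (hGz ▸ hG) hg0
    have hIz : I ≤ 0 := by
      by_contra hcon
      push_neg at hcon
      set r : ℝ := min r₀ (I / (2 * (C₁ + 1))) with hr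
      have hrpos : 0 < r := lt_min hr₀ (by positivity)
      have h1 := hmain φ T Z h hZ hZb r hrpos (min_le_left _ _)
      rw [← hg, ← hI, hgz, mul_zero, zero_add] at h1
      have h2 : r ≤ I / (2 * (C₁ + 1)) := min_le_right _ _
      have h3 : C₁ * r ≤ C₁ * (I / (2 * (C₁ + 1))) := mul_le_mul_of_nonneg_left h2 hC₁
      have h4 : C₁ * (I / (2 * (C₁ + 1))) ≤ I / 2 := by
        rw [mul_div_assoc', div_le_div_iff₀ (by positivity) (by norm_num)]
        nlinarith
      linarith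
    rw [← hGz]
    simpa using hIz
  · by_cases hcase : G ≤ r₀ ^ 2
    · have hsp : 0 < Real.sqrt G := Real.sqrt_pos.mpr hGpos
      have hsr : Real.sqrt G ≤ r₀ := by
        rw [Real.sqrt_le_left hr₀.le]
        exact hcase
      have h1 := hmain φ T Z h hZ hZb (Real.sqrt G) hsp hsr
      rw [← hg, ← hI] at h1
      have h2 : (d / Real.sqrt G) * g ≤ d * Real.sqrt G := by
        have : (d / Real.sqrt G) * g ≤ (d / Real.sqrt G) * G :=
          mul_le_mul_of_nonneg_left hG (by positivity)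
        refine this.trans (le_of_eq ?_)
        have hsq : Real.sqrt G * Real.sqrt G = G := Real.mul_self_sqrt hG0
        field_simp
        nlinarith
      have h3 : (d + C₁) * Real.sqrt G ≤ (d + C₁ + 2 * R / r₀ ^ 2) * (Real.sqrt G + G) := by
        have hdc : (0:ℝ) ≤ d + C₁ := by positivity
        nlinarith [mul_nonneg hdc hG0, mul_nonneg hq hs0, mul_nonneg hq hG0]
      linarith
    · push_neg at hcase
      have h1 : 2 * R ≤ 2 * R / r₀ ^ 2 * G := by
        rw [div_mul_eq_mul_div, le_div_iff₀ (by positivity)]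
        exact mul_le_mul_of_nonneg_left hcase.le (by positivity)
      have h3 : 2 * R / r₀ ^ 2 * G ≤ (d + C₁ + 2 * R / r₀ ^ 2) * (Real.sqrt G + G) := by
        have hdc : (0:ℝ) ≤ d + C₁ := by positivity
        nlinarith [mul_nonneg hdc hG0, mul_nonneg hq hs0, mul_nonneg hdc hs0]
      linarith

end Crest.Agent.R82
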