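import Crest.Agent.R82.Mix
import Crest.Agent.R82.WS
import Crest.Agent.R82.LP

/-!
# Row 82, task PAIRD: the pairing estimate (P) for finitely supported targets

Blueprint.  `|η| ≤ B` (`B > 0`), `∫ η dρ = 0`.  For `0 < ε ≤ 1/(2B)` let `ρ_ε = src K (ε η)`; `labeled_exists` + `IsLabSol.isPot` give potential pairs
`(φ_b^ε, T_b^ε)` with `ρ_ε.map T_b^ε = discMeas p Y_b` (`b = 0, 1`).  `a_b(ε) = ∫ ⟪x, T_b^ε x⟫ dρ_ε`, `a_b(0) = ∫ ⟪x, T_b x⟫ dρ`.
(i) `value_le` (both directions) + `integral_src`:  `ε ∫ η φ_b^ε dρ ≤ a_b(ε) - a_b(0) ≤ ε ∫ η φ_b dρ`.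
(ii) `mixed_diff` with `ε η`:  `|(a_1(ε) - a_0(ε)) - (a_1(0) - a_0(0))| ≤ C ε ‖η‖₂ W`.
(iii) `ω_b(ε) := |∫ η (φ_b - φ_b^ε) dρ| ≤ B ∫ |φ_b - φ_b^ε - c| dρ ≤ B C_LP ∫ ‖T_b - T_b^ε‖ dρ ≤ B C_LP C_WS (√G + G)` where, by `gap_eq` (pair `(φ_b^ε, T_b^ε)`, source `ρ_ε`; `Z = T_b`, source `ρ`),
   `∫ (φ_b^ε + conj K φ_b^ε (T_b x) - ⟪x, T_b x⟫) dρ = a_b(ε) - a_b(0) - ε ∫ η φ_b^ε dρ ≤ ε ∫ η (φ_b - φ_b^ε) dρ ≤ ε B 4 R D =: G`
   (`∫ η = 0`, so one may subtract the values at a fixed point `x₀ ∈ K`; `|φ x - φ x₀| ≤ 2 R D`).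
(iv) `ε ∫ η φ_1^ε - ε ∫ η φ_0 ≤ (a_1(ε) - a_1(0)) - (a_0(ε) - a_0(0)) ≤ C ε ‖η‖₂ W`, so `∫ η (φ_1 - φ_0) dρ ≤ C ‖η‖₂ W + ω_1(ε)`; let `ε → 0`.  Exchange the roles of `0` and `1`.
-/

set_option autoImplicit false

namespace Crest.Agent.R82

open MeasureTheory
open scoped ENNReal NNReal InnerProductSpace

variable {d : ℕ}

namespace PairD

theorem bm_of_continuous (K : Set (E d)) (hKc : IsCompact K) (φ : E d → ℝ) (hφ : Continuous φ) :
    GT.BM K φ := by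
  obtain ⟨M, hM⟩ := hKc.exists_bound_of_continuousOn hφ.continuousOn
  exact ⟨hφ.measurable, M, fun x hx => by simpa using hM x hx⟩

theorem bm_abs {K : Set (E d)} {φ : E d → ℝ} (h : GT.BM K φ) : GT.BM K (fun x => |φ x|) := by
  obtain ⟨hm, M, hM⟩ := h
  exact ⟨hm.abs, M, fun x hx => by rw [abs_abs]; exact hM x hx⟩

/-- integral of a bounded function against the perturbed source. -/
theorem integral_src_eq (K : Set (E d)) (hKc : IsCompact K) (hKi : (interior K).Nonempty)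
    (η : E d → ℝ) (hη : Measurable η) (hb : ∀ x, |η x| ≤ 1 / 2) (φ : E d → ℝ) (hφ : GT.BM K φ) :
    ∫ x, φ x ∂(src K η) = ∫ x, φ x ∂(rho K) + ∫ x, η x * φ x ∂(rho K) := by
  have bη : GT.BM K η := ⟨hη, 1 / 2, fun x _ => hb x⟩
  rw [integral_src K η hη hb φ, ← integral_add (hφ.integrable hKc hKi) ((bη.mul hφ).integrable hKc hKi)]
  congr 1
  ext x
  simp only [smul_eq_mul]
  ring

theorem pair_one_side (K : Set (E d)) (hKc : IsCompact K) (hKv : Convex ℝ K)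
    (hKi : (interior K).Nonempty) (R : ℝ) (hR : 0 ≤ R) :
    ∃ C : ℝ, 0 ≤ C ∧ ∀ (ι : Type) [Fintype ι] [Nonempty ι] (p : ι → ℝ) (Y0 Y1 : ι → E d)
      (φ0 φ1 : E d → ℝ) (T0 T1 : E d → E d),
      (∀ k, 0 < p k) → ∑ k, p k = 1 → (∀ k, ‖Y0 k‖ ≤ R) → (∀ k, ‖Y1 k‖ ≤ R) →
      IsPot K R φ0 T0 → (rho K).map T0 = discMeas p Y0 →
      IsPot K R φ1 T1 → (rho K).map T1 = discMeas p Y1 →
      ∀ η : E d → ℝ, Measurable η → (∃ B, ∀ x, |η x| ≤ B) → ∫ x, η x ∂(rho K) = 0 →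
        ∫ x, η x * (φ1 x - φ0 x) ∂(rho K)
          ≤ C * Real.sqrt (∫ x, η x ^ 2 ∂(rho K)) * Real.sqrt (∑ k, p k * ‖Y1 k - Y0 k‖ ^ 2) := by
  obtain ⟨CM, hCM0, hCM⟩ := mixed_diff K hKc hKv hKi R hR
  obtain ⟨CLP, hCLP0, hCLP⟩ := l1_poincare K hKc hKv hKi R hR
  obtain ⟨CWS, hCWS0, hCWS⟩ := weak_stab K hKc hKv hKi R hR
  obtain ⟨D, hD⟩ := hKc.isBounded.exists_norm_le
  refine ⟨CM, hCM0, ?_⟩
  intro ι _ _ p Y0 Y1 φ0 φ1 T0 T1 hp hsum hY0 hY1 hP0 hL0 hP1 hL1 η hη ⟨B', hB'⟩ hη0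
  set B := |B'| + 1 with hBdef
  have hB : ∀ x, |η x| ≤ B := fun x => by
    have := hB' x; have := le_abs_self B'; linarith
  have hBpos : 0 < B := by have := abs_nonneg B'; linarith
  have hKn : K.Nonempty := hKi.mono interior_subset
  obtain ⟨x0, hx0⟩ := hKn
  have hKn : K.Nonempty := ⟨x0, hx0⟩
  have hD0 : 0 ≤ D := (norm_nonneg _).trans (hD x0 hx0)
  have prob := isProbabilityMeasure_rho K hKc hKi
  have hacρ : rho K ≪ volume.restrict K := rho_absolutelyContinuous K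
  have bη : GT.BM K η := ⟨hη, B, fun x _ => hB x⟩
  have bφ0 : GT.BM K φ0 := bm_of_continuous K hKc φ0 hP0.continuous
  have bφ1 : GT.BM K φ1 := bm_of_continuous K hKc φ1 hP1.continuous
  set N := Real.sqrt (∫ x, η x ^ 2 ∂(rho K)) with hN
  set W := Real.sqrt (∑ k, p k * ‖Y1 k - Y0 k‖ ^ 2) with hW
  set M := B * (4 * R * D) with hM
  have step : ∀ ε : ℝ, 0 < ε → ε ≤ 1 / (2 * B) →
      ∫ x, η x * (φ1 x - φ0 x) ∂(rho K)
        ≤ CM * N * W + B * (CLP * (CWS * (Real.sqrt (ε * M) + ε * M))) := by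
    intro ε hε hεB
    set ηε : E d → ℝ := fun x => ε * η x with hηε
    have hηεm : Measurable ηε := hη.const_mul ε
    have hηεb : ∀ x, |ηε x| ≤ 1 / 2 := by
      intro x
      simp only [hηε, abs_mul, abs_of_pos hε]
      calc ε * |η x| ≤ 1 / (2 * B) * B := mul_le_mul hεB (hB x) (abs_nonneg _) (by positivity)
        _ = 1 / 2 := by field_simp
    have hηε0 : ∫ x, ηε x ∂(rho K) = 0 := by
      simp only [hηε]; rw [integral_const_mul, hη0, mul_zero]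
    have probε := isProbabilityMeasure_src K hKc hKi ηε hηεm hηεb hηε0
    have hacε : src K ηε ≪ volume.restrict K := src_ac K ηε
    have hacε' : src K ηε ≪ volume := hacε.trans Measure.restrict_le_self.absolutelyContinuous
    obtain ⟨ψ0e, T0e, hS0⟩ := labeled_exists K hKc.isBounded (src K ηε) hacε' (src_compl K hKc ηε)
      p hp hsum Y0
    obtain ⟨ψ1e, T1e, hS1⟩ := labeled_exists K hKc.isBounded (src K ηε) hacε' (src_compl K hKc ηε)
      p hp hsum Y1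
    set φ0e := lagPot (siteSet Y0) ψ0e with hφ0e
    set φ1e := lagPot (siteSet Y1) ψ1e with hφ1e
    have hP0e : IsPot K R φ0e T0e := hS0.isPot K R hR hY0
    have hP1e : IsPot K R φ1e T1e := hS1.isPot K R hR hY1
    have bφ0e : GT.BM K φ0e := bm_of_continuous K hKc φ0e hP0e.continuous
    have bφ1e : GT.BM K φ1e := bm_of_continuous K hKc φ1e hP1e.continuous
    -- the values
    set a0 := ∫ x, ⟪x, T0 x⟫_ℝ ∂(rho K) with ha0
    set a1 := ∫ x, ⟪x, T1 x⟫_ℝ ∂(rho K) with ha1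
    set a0e := ∫ x, ⟪x, T0e x⟫_ℝ ∂(src K ηε) with ha0e
    set a1e := ∫ x, ⟪x, T1e x⟫_ℝ ∂(src K ηε) with ha1e
    have srcdiff : ∀ φ : E d → ℝ, GT.BM K φ →
        ∫ x, φ x ∂(src K ηε) = ∫ x, φ x ∂(rho K) + ε * ∫ x, η x * φ x ∂(rho K) := by
      intro φ hφ
      rw [integral_src_eq K hKc hKi ηε hηεm hηεb φ hφ, ← integral_const_mul]
      congr 2
      ext x
      simp only [hηε]; ring
    have v1 := value_le K hKc hKn R φ0 T0 T0e hP0 (rho K) (src K ηε) hacρ hacε hS0.measT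
      (hacε.ae_le hP0e.bdd) (hL0.trans hS0.law.symm)
    have v2 := value_le K hKc hKn R φ1e T1e T1 hP1e (src K ηε) (rho K) hacε hacρ hP1.measT
      (hacρ.ae_le hP1.bdd) (hS1.law.trans hL1.symm)
    have v3 := value_le K hKc hKn R φ1 T1 T1e hP1 (rho K) (src K ηε) hacρ hacε hS1.measT
      (hacε.ae_le hP1e.bdd) (hL1.trans hS1.law.symm)
    have gp := gap_eq K hKc hKn R φ1e T1e T1 hP1e (src K ηε) (rho K) hacε hacρ hP1.measT
      (hacρ.ae_le hP1.bdd) (hS1.law.trans hL1.symm)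
    rw [srcdiff φ0 bφ0] at v1
    rw [srcdiff φ1e bφ1e] at v2 gp
    rw [srcdiff φ1 bφ1] at v3
    have md := hCM ι p Y0 Y1 ηε φ0 φ1 φ0e φ1e T0 T1 T0e T1e hp hsum hY0 hY1 hηεm hηεb hηε0
      hP0 hL0 hP1 hL1 hP0e hS0.law hP1e hS1.law
    have hsq : Real.sqrt (∫ x, ηε x ^ 2 ∂(rho K)) = ε * N := by
      have : ∀ x, ηε x ^ 2 = ε ^ 2 * η x ^ 2 := fun x => by simp only [hηε]; ring
      simp_rw [this]
      rw [integral_const_mul, Real.sqrt_mul (by positivity), Real.sqrt_sq hε.le]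
    rw [hsq] at md
    have md' := (abs_le.mp md).2
    set J0 := ∫ x, η x * φ0 x ∂(rho K) with hJ0
    set J1 := ∫ x, η x * φ1 x ∂(rho K) with hJ1
    set J1e := ∫ x, η x * φ1e x ∂(rho K) with hJ1e
    -- (iv)
    have h4 : ε * (J1e - J0) ≤ ε * (CM * N * W) := by nlinarith
    have h4' : J1e - J0 ≤ CM * N * W := le_of_mul_le_mul_left h4 hε
    -- (iii)
    have hJ : ∀ c : ℝ, J1 - J1e ≤ B * ∫ x, |φ1 x - φ1e x - c| ∂(rho K) := by
      intro c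
      have e1 : J1 - J1e = ∫ x, η x * (φ1 x - φ1e x - c) ∂(rho K) := by
        have : ∀ x, η x * (φ1 x - φ1e x - c) = η x * φ1 x - η x * φ1e x - c * η x := fun x => by ring
        simp_rw [this]
        rw [integral_sub (((bη.mul bφ1).sub (bη.mul bφ1e)).integrable hKc hKi)
          ((bη.integrable hKc hKi).const_mul c),
          integral_sub ((bη.mul bφ1).integrable hKc hKi) ((bη.mul bφ1e).integrable hKc hKi),
          integral_const_mul, hη0]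
        ring
      rw [e1, ← integral_const_mul]
      have bz : GT.BM K (fun x => φ1 x - φ1e x - c) := (bφ1.sub bφ1e).sub (GT.BM.const K c)
      refine integral_mono ((bη.mul bz).integrable hKc hKi)
        (((bm_abs bz).integrable hKc hKi).const_mul B) fun x => ?_
      calc η x * (φ1 x - φ1e x - c) ≤ |η x * (φ1 x - φ1e x - c)| := le_abs_self _
        _ = |η x| * |φ1 x - φ1e x - c| := abs_mul _ _
        _ ≤ B * |φ1 x - φ1e x - c| := by gcongr; exact hB x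
    have hJM : J1 - J1e ≤ M := by
      refine (hJ (φ1 x0 - φ1e x0)).trans ?_
      rw [hM]
      gcongr
      have bz : GT.BM K (fun x => φ1 x - φ1e x - (φ1 x0 - φ1e x0)) :=
        (bφ1.sub bφ1e).sub (GT.BM.const K _)
      calc ∫ x, |φ1 x - φ1e x - (φ1 x0 - φ1e x0)| ∂(rho K)
          ≤ ∫ _x, 4 * R * D ∂(rho K) := by
            refine integral_mono_ae ((bm_abs bz).integrable hKc hKi) (integrable_const _) ?_
            filter_upwards [GT.ae_mem K hKc] with x hx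
            have h1 := hP1.lip x x0
            have h2 := hP1e.lip x x0
            have h3 : ‖x - x0‖ ≤ D + D := (norm_sub_le _ _).trans (add_le_add (hD x hx) (hD x0 hx0))
            have h4 : R * ‖x - x0‖ ≤ R * (D + D) := by gcongr
            have h5 : |φ1 x - φ1e x - (φ1 x0 - φ1e x0)| ≤ |φ1 x - φ1 x0| + |φ1e x - φ1e x0| := by
              have := abs_sub (φ1 x - φ1 x0) (φ1e x - φ1e x0)
              calc |φ1 x - φ1e x - (φ1 x0 - φ1e x0)| = |(φ1 x - φ1 x0) - (φ1e x - φ1e x0)| := by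
                    congr 1; ring
                _ ≤ _ := this
            linarith
        _ = 4 * R * D := by simp
    have hgap : ∫ x, (φ1e x + conj K φ1e (T1 x) - ⟪x, T1 x⟫_ℝ) ∂(rho K) ≤ ε * M := by
      rw [gp]
      nlinarith
    have hws := hCWS φ1e T1e T1 hP1e hP1.measT (hacρ.ae_le hP1.bdd) (ε * M) hgap
    obtain ⟨c, hc⟩ := hCLP φ1 φ1e T1 T1e hP1 hP1e
    have hws' : ∫ x, ‖T1 x - T1e x‖ ∂(rho K) ≤ CWS * (Real.sqrt (ε * M) + ε * M) := by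
      simp_rw [norm_sub_rev (T1 _) (T1e _)]
      exact hws
    have h3 : J1 - J1e ≤ B * (CLP * (CWS * (Real.sqrt (ε * M) + ε * M))) := by
      refine (hJ c).trans ?_
      gcongr
      exact hc.trans (by gcongr)
    have e0 : ∫ x, η x * (φ1 x - φ0 x) ∂(rho K) = J1 - J0 := by
      simp_rw [mul_sub]
      rw [integral_sub ((bη.mul bφ1).integrable hKc hKi) ((bη.mul bφ0).integrable hKc hKi)]
    rw [e0]
    linarith
  have hlim : Filter.Tendsto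
      (fun ε : ℝ => CM * N * W + B * (CLP * (CWS * (Real.sqrt (ε * M) + ε * M))))
      (nhdsWithin 0 (Set.Ioi 0)) (nhds (CM * N * W)) := by
    have hc : Continuous
        (fun ε : ℝ => CM * N * W + B * (CLP * (CWS * (Real.sqrt (ε * M) + ε * M)))) := by
      fun_prop
    have h0 := hc.tendsto 0
    simp only [zero_mul, Real.sqrt_zero, add_zero, mul_zero] at h0
    exact h0.mono_left nhdsWithin_le_nhds
  refine ge_of_tendsto hlim ?_
  have hmem : Set.Ioc (0 : ℝ) (1 / (2 * B)) ∈ nhdsWithin (0 : ℝ) (Set.Ioi 0) :=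
    Ioc_mem_nhdsGT (by positivity)
  filter_upwards [hmem] with ε hε using step ε hε.1 hε.2

end PairD

theorem pair_discrete (K : Set (E d)) (hKc : IsCompact K) (hKv : Convex ℝ K) (hKi : (interior K).Nonempty)
    (R : ℝ) (hR : 0 ≤ R) :
    ∃ C : ℝ, 0 ≤ C ∧ ∀ (ι : Type) [Fintype ι] [Nonempty ι] (p : ι → ℝ) (Y0 Y1 : ι → E d)
      (φ0 φ1 : E d → ℝ) (T0 T1 : E d → E d),
      (∀ k, 0 < p k) → ∑ k, p k = 1 → (∀ k, ‖Y0 k‖ ≤ R) → (∀ k, ‖Y1 k‖ ≤ R) →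
      IsPot K R φ0 T0 → (rho K).map T0 = discMeas p Y0 →
      IsPot K R φ1 T1 → (rho K).map T1 = discMeas p Y1 →
      ∀ η : E d → ℝ, Measurable η → (∃ B, ∀ x, |η x| ≤ B) → ∫ x, η x ∂(rho K) = 0 →
        |∫ x, η x * (φ0 x - φ1 x) ∂(rho K)|
          ≤ C * Real.sqrt (∫ x, η x ^ 2 ∂(rho K)) * Real.sqrt (∑ k, p k * ‖Y1 k - Y0 k‖ ^ 2) := by
  obtain ⟨C, hC0, hC⟩ := PairD.pair_one_side K hKc hKv hKi R hR
  refine ⟨C, hC0, ?_⟩
  intro ι _ _ p Y0 Y1 φ0 φ1 T0 T1 hp hsum hY0 hY1 hP0 hL0 hP1 hL1 η hη hB hη0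
  have h1 := hC ι p Y0 Y1 φ0 φ1 T0 T1 hp hsum hY0 hY1 hP0 hL0 hP1 hL1 η hη hB hη0
  have h2 := hC ι p Y1 Y0 φ1 φ0 T1 T0 hp hsum hY1 hY0 hP1 hL1 hP0 hL0 η hη hB hη0
  simp_rw [norm_sub_rev (Y0 _) (Y1 _)] at h2
  have e : ∫ x, η x * (φ1 x - φ0 x) ∂(rho K) = - ∫ x, η x * (φ0 x - φ1 x) ∂(rho K) := by
    rw [← integral_neg]
    congr 1
    ext x
    ring
  rw [e] at h1
  rw [abs_le]
  constructor <;> linarith

end Crest.Agent.R82
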