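import Crest.Agent.R82.WS
import Crest.Agent.R82.LP
import Crest.Agent.R82.Val

/-!
# Row 82, task PAIRG, helper file 2: comparison of a potential pair with the solution for a perturbed target
-/

set_option autoImplicit false

namespace Crest.Agent.R82

open MeasureTheory
open scoped ENNReal NNReal InnerProductSpace

variable {d : ℕ}

theorem ae_mem_rho (K : Set (E d)) (hKc : IsCompact K) : ∀ᵐ x ∂(rho K), x ∈ K := by
  have h := rho_compl K hKc
  rw [measure_eq_zero_iff_ae_notMem] at h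
  filter_upwards [h] with x hx
  simpa using hx

theorem integrable_of_ae_abs_le {α : Type*} [MeasurableSpace α] {μ : Measure α} [IsFiniteMeasure μ]
    {f : α → ℝ} (hf : Measurable f) (C : ℝ) (h : ∀ᵐ x ∂μ, |f x| ≤ C) : Integrable f μ :=
  Integrable.of_bound hf.aestronglyMeasurable C (by simpa using h)

/-- continuous functions are `rho K`-integrable. -/
theorem integrable_rho_of_continuous (K : Set (E d)) (hKc : IsCompact K) (hKi : (interior K).Nonempty)
    (f : E d → ℝ) (hf : Continuous f) : Integrable f (rho K) := by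
  have := isProbabilityMeasure_rho K hKc hKi
  obtain ⟨C, hC⟩ := hKc.exists_bound_of_continuousOn hf.continuousOn
  refine integrable_of_ae_abs_le hf.measurable C ?_
  filter_upwards [ae_mem_rho K hKc] with x hx using hC x hx

/-- `f ∘ Z` is integrable for continuous `f` and a.e. bounded measurable `Z`. -/
theorem integrable_comp_of_ae_bdd {α : Type*} [MeasurableSpace α] {μ : Measure α} [IsFiniteMeasure μ]
    (f : E d → ℝ) (hf : Continuous f) (Z : α → E d) (hZ : Measurable Z) (R : ℝ)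
    (hZb : ∀ᵐ x ∂μ, ‖Z x‖ ≤ R) : Integrable (fun x => f (Z x)) μ := by
  obtain ⟨C, hC⟩ := (isCompact_closedBall (0 : E d) R).exists_bound_of_continuousOn hf.continuousOn
  refine integrable_of_ae_abs_le (hf.measurable.comp hZ) C ?_
  filter_upwards [hZb] with x hx using hC (Z x) (by simpa using hx)

/-- `⟪x, Z x⟫` is `rho K`-integrable. -/
theorem integrable_inner_rho (K : Set (E d)) (hKc : IsCompact K) (hKi : (interior K).Nonempty)
    (Z : E d → E d) (hZ : Measurable Z) (R : ℝ) (hZb : ∀ᵐ x ∂(rho K), ‖Z x‖ ≤ R) :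
    Integrable (fun x => ⟪x, Z x⟫_ℝ) (rho K) := by
  have := isProbabilityMeasure_rho K hKc hKi
  obtain ⟨D, hD⟩ := hKc.isBounded.exists_norm_le
  refine integrable_of_ae_abs_le (measurable_id.inner hZ) (D * R) ?_
  filter_upwards [ae_mem_rho K hKc, hZb] with x hx hx'
  refine (abs_real_inner_le_norm _ _).trans ?_
  exact mul_le_mul (hD x hx) hx' (norm_nonneg _) ((norm_nonneg _).trans (hD x hx))

theorem compare_discrete (K : Set (E d)) (hKc : IsCompact K) (hKv : Convex ℝ K)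
    (hKi : (interior K).Nonempty) (R : ℝ) (hR : 0 ≤ R) :
    ∃ Φ : ℝ → ℝ, Continuous Φ ∧ Φ 0 = 0 ∧ ∀ (φ φn : E d → ℝ) (T Tn Z : E d → E d) (δ : ℝ), 0 ≤ δ →
      IsPot K R φ T → IsPot K R φn Tn → Measurable Z → (∀ᵐ x ∂(rho K), ‖Z x‖ ≤ R) →
      (∀ᵐ x ∂(rho K), ‖Z x - T x‖ ≤ δ) → (rho K).map Tn = (rho K).map Z →
      ∃ c : ℝ, ∫ x, |φ x - φn x - c| ∂(rho K) ≤ Φ δ := by
  have := isProbabilityMeasure_rho K hKc hKi
  have hKn : K.Nonempty := hKi.mono interior_subset
  obtain ⟨D, hD⟩ := hKc.isBounded.exists_norm_le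
  have hD0 : 0 ≤ D := by
    obtain ⟨x, hx⟩ := hKn
    exact (norm_nonneg _).trans (hD x hx)
  obtain ⟨CW, hCW0, hWS⟩ := weak_stab K hKc hKv hKi R hR
  obtain ⟨CL, hCL0, hLP⟩ := l1_poincare K hKc hKv hKi R hR
  refine ⟨fun δ => CL * (CW * (Real.sqrt (2 * D * δ) + 2 * D * δ) + δ), by fun_prop, by simp, ?_⟩
  intro φ φn T Tn Z δ hδ h hn hZ hZb hZT hlaw
  have hac : rho K ≪ volume.restrict K := rho_absolutelyContinuous K
  have hK := ae_mem_rho K hKc
  have hTb : ∀ᵐ x ∂(rho K), ‖T x‖ ≤ R := hac.ae_le h.bdd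
  have hTnb : ∀ᵐ x ∂(rho K), ‖Tn x‖ ≤ R := hac.ae_le hn.bdd
  have hφc : Continuous φ := h.continuous
  have hcc : Continuous (conj K φ) := continuous_conj K hKc hKn φ hφc
  -- integrability
  have i1 : Integrable (fun x => ⟪x, Tn x⟫_ℝ) (rho K) :=
    integrable_inner_rho K hKc hKi Tn hn.measT R hTnb
  have i2 : Integrable φ (rho K) := integrable_rho_of_continuous K hKc hKi φ hφc
  have i3 : Integrable (fun x => conj K φ (Tn x)) (rho K) :=
    integrable_comp_of_ae_bdd _ hcc Tn hn.measT R hTnb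
  have i4 : Integrable (fun x => conj K φ (Z x)) (rho K) :=
    integrable_comp_of_ae_bdd _ hcc Z hZ R hZb
  have i5 : Integrable (fun x => ⟪x, Z x⟫_ℝ) (rho K) :=
    integrable_inner_rho K hKc hKi Z hZ R hZb
  -- the gap
  have hgap := gap_eq K hKc hKn R φn Tn Z hn (rho K) (rho K) hac hac hZ hZb hlaw
  have e1 : ∫ x, ⟪x, Tn x⟫_ℝ ∂(rho K) ≤ ∫ x, φ x ∂(rho K) + ∫ x, conj K φ (Tn x) ∂(rho K) := by
    rw [← integral_add i2 i3]
    refine integral_mono_ae i1 (i2.add i3) ?_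
    filter_upwards [hK] with x hx using fenchel K hKc φ hφc x (Tn x) hx
  have e2 : ∫ x, conj K φ (Tn x) ∂(rho K) = ∫ x, conj K φ (Z x) ∂(rho K) := by
    rw [← integral_map hn.measT.aemeasurable hcc.aestronglyMeasurable,
      ← integral_map hZ.aemeasurable hcc.aestronglyMeasurable, hlaw]
  have e3 : ∫ x, φ x ∂(rho K) + ∫ x, conj K φ (Z x) ∂(rho K)
      ≤ ∫ x, ⟪x, Z x⟫_ℝ ∂(rho K) + 2 * D * δ := by
    have : ∫ x, ⟪x, Z x⟫_ℝ ∂(rho K) + 2 * D * δ = ∫ x, (⟪x, Z x⟫_ℝ + 2 * D * δ) ∂(rho K) := by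
      rw [integral_add i5 (integrable_const _)]
      simp
    rw [this, ← integral_add i2 i4]
    refine integral_mono_ae (i2.add i4) (i5.add (integrable_const _)) ?_
    filter_upwards [hK, hac.ae_le (h.conj_eq hKc), hZT] with x hx hx1 hx2
    have a1 : conj K φ (Z x) ≤ conj K φ (T x) + D * δ := by
      have := conj_lip K hKc hKn φ hφc D hD (Z x) (T x)
      have h2 : D * ‖Z x - T x‖ ≤ D * δ := mul_le_mul_of_nonneg_left hx2 hD0
      linarith [(abs_le.1 this).2]
    have a2 : ⟪x, T x⟫_ℝ ≤ ⟪x, Z x⟫_ℝ + D * δ := by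
      have h3 : ⟪x, T x⟫_ℝ - ⟪x, Z x⟫_ℝ = ⟪x, T x - Z x⟫_ℝ := by rw [inner_sub_right]
      have h4 : ⟪x, T x - Z x⟫_ℝ ≤ ‖x‖ * ‖T x - Z x‖ := real_inner_le_norm _ _
      have h5 : ‖x‖ * ‖T x - Z x‖ ≤ D * δ := by
        rw [norm_sub_rev (T x) (Z x)]
        exact mul_le_mul (hD x hx) hx2 (norm_nonneg _) hD0
      linarith
    show φ x + conj K φ (Z x) ≤ ⟪x, Z x⟫_ℝ + 2 * D * δ
    linarith
  have hG : ∫ x, (φn x + conj K φn (Z x) - ⟪x, Z x⟫_ℝ) ∂(rho K) ≤ 2 * D * δ := by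
    rw [hgap]
    linarith
  have hws := hWS φn Tn Z hn hZ hZb (2 * D * δ) hG
  -- triangle inequality
  have j1 : Integrable (fun x => ‖Tn x - Z x‖) (rho K) := by
    refine integrable_of_ae_abs_le (hn.measT.sub hZ).norm (R + R) ?_
    filter_upwards [hTnb, hZb] with x h1 h2
    rw [abs_of_nonneg (norm_nonneg _)]
    exact (norm_sub_le _ _).trans (add_le_add h1 h2)
  have j2 : Integrable (fun x => ‖T x - Tn x‖) (rho K) := by
    refine integrable_of_ae_abs_le (h.measT.sub hn.measT).norm (R + R) ?_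
    filter_upwards [hTb, hTnb] with x h1 h2
    rw [abs_of_nonneg (norm_nonneg _)]
    exact (norm_sub_le _ _).trans (add_le_add h1 h2)
  have htri : ∫ x, ‖T x - Tn x‖ ∂(rho K) ≤ CW * (Real.sqrt (2 * D * δ) + 2 * D * δ) + δ := by
    have : ∫ x, ‖T x - Tn x‖ ∂(rho K) ≤ ∫ x, (‖Tn x - Z x‖ + δ) ∂(rho K) := by
      refine integral_mono_ae j2 (j1.add (integrable_const _)) ?_
      filter_upwards [hZT] with x hx
      have : T x - Tn x = -(Tn x - Z x) - (Z x - T x) := by abel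
      show ‖T x - Tn x‖ ≤ ‖Tn x - Z x‖ + δ
      rw [this]
      refine (norm_sub_le _ _).trans ?_
      rw [norm_neg]
      linarith
    rw [integral_add j1 (integrable_const _)] at this
    simp only [integral_const, probReal_univ, smul_eq_mul, one_mul] at this
    linarith
  obtain ⟨c, hc⟩ := hLP φ φn T Tn h hn
  exact ⟨c, hc.trans (mul_le_mul_of_nonneg_left htri hCL0)⟩

end Crest.Agent.R82
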