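import Crest.Agent.R82.Defs

/-!
# Row 82, task PAIRG, helper file 1: finite-valued approximation of the identity and labelled discretisation of a coupling
-/

set_option autoImplicit false

namespace Crest.Agent.R82

open MeasureTheory
open scoped ENNReal NNReal InnerProductSpace

variable {d : ℕ}

/-- a finite-valued measurable map which is `δ`-close to the identity on `closedBall 0 R`. -/
theorem exists_grid (R δ : ℝ) (hR : 0 ≤ R) (hδ : 0 < δ) :
    ∃ q : SimpleFunc (E d) (E d), (∀ y, ‖q y‖ ≤ R + δ) ∧ ∀ y, ‖y‖ ≤ R → ‖q y - y‖ ≤ δ := by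
  classical
  let e : ℕ → E d := TopologicalSpace.denseSeq (E d)
  have hcover : Metric.closedBall (0 : E d) R ⊆ ⋃ k : ℕ, Metric.ball (e k) δ := by
    intro y _
    obtain ⟨k, hk⟩ := (TopologicalSpace.denseRange_denseSeq (E d)).exists_dist_lt y hδ
    exact Set.mem_iUnion.2 ⟨k, hk⟩
  obtain ⟨t, ht⟩ := (isCompact_closedBall (0 : E d) R).elim_finite_subcover
    (fun k => Metric.ball (e k) δ) (fun _ => Metric.isOpen_ball) hcover
  let N : ℕ := t.sup id
  let q₀ : SimpleFunc (E d) (E d) := SimpleFunc.nearestPt e N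
  have hq₀ : ∀ y, ‖y‖ ≤ R → ‖q₀ y - y‖ ≤ δ := by
    intro y hy
    have hy' : y ∈ Metric.closedBall (0 : E d) R := by simpa using hy
    obtain ⟨k, hkt, hk⟩ := Set.mem_iUnion₂.1 (ht hy')
    have hkN : k ≤ N := Finset.le_sup (f := id) hkt
    have h1 := SimpleFunc.edist_nearestPt_le e y hkN
    rw [edist_dist, edist_dist, ENNReal.ofReal_le_ofReal_iff dist_nonneg] at h1
    rw [← dist_eq_norm]
    refine h1.trans ?_
    rw [dist_comm]
    exact (Metric.mem_ball.1 hk).le
  refine ⟨SimpleFunc.piecewise (Metric.closedBall (0 : E d) R) Metric.isClosed_closedBall.measurableSet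
    q₀ (SimpleFunc.const _ 0), ?_, ?_⟩
  · intro y
    rw [SimpleFunc.piecewise_apply]
    split_ifs with h
    · have hy : ‖y‖ ≤ R := by simpa using h
      have := hq₀ y hy
      calc ‖q₀ y‖ = ‖y + (q₀ y - y)‖ := by congr 1; abel
        _ ≤ ‖y‖ + ‖q₀ y - y‖ := norm_add_le _ _
        _ ≤ R + δ := add_le_add hy this
    · simp only [SimpleFunc.const_apply, norm_zero]
      positivity
  · intro y hy
    rw [SimpleFunc.piecewise_apply, if_pos (by simpa using hy)]
    exact hq₀ y hy

/-- the law of a simple function is a finite sum of Dirac masses. -/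
theorem map_simpleFunc {α β : Type*} [MeasurableSpace α] [MeasurableSpace β]
    (π : Measure α) (Q : SimpleFunc α β) :
    π.map Q = ∑ c ∈ Q.range, π (Q ⁻¹' {c}) • Measure.dirac c := by
  classical
  ext A hA
  rw [Measure.map_apply Q.measurable hA]
  simp only [Measure.coe_finsetSum, Finset.sum_apply, Measure.smul_apply, smul_eq_mul,
    Measure.dirac_apply' _ hA]
  have h1 : Q ⁻¹' A = Q ⁻¹' (↑(Q.range.filter (· ∈ A)) : Set β) := by
    ext x
    simp
  rw [h1, ← SimpleFunc.sum_measure_preimage_singleton, Finset.sum_filter]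
  refine Finset.sum_congr rfl (fun c _ => ?_)
  by_cases hc : c ∈ A <;> simp [hc]

theorem map_map_simpleFunc {α β γ : Type*} [MeasurableSpace α] [MeasurableSpace β]
    [MeasurableSpace γ] (π : Measure α) (Q : SimpleFunc α β) (g : β → γ) (hg : Measurable g) :
    (π.map Q).map g = ∑ c ∈ Q.range, π (Q ⁻¹' {c}) • Measure.dirac (g c) := by
  ext A hA
  rw [Measure.map_apply hg hA, map_simpleFunc]
  simp only [Measure.coe_finsetSum, Finset.sum_apply, Measure.smul_apply, smul_eq_mul]
  refine Finset.sum_congr rfl (fun c _ => ?_)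
  rw [Measure.dirac_apply' _ (hg hA), Measure.dirac_apply' _ hA]
  rfl

/-- labelled discretisation of a coupling by a finite-valued map `q`. -/
theorem exists_labels (π : Measure (E d × E d)) [IsProbabilityMeasure π]
    (q : SimpleFunc (E d) (E d)) :
    ∃ (ι : Type) (_ : Fintype ι) (_ : Nonempty ι) (p : ι → ℝ) (Y0 Y1 : ι → E d),
      (∀ k, 0 < p k) ∧ ∑ k, p k = 1 ∧ (∀ k, ∃ y, q y = Y0 k) ∧ (∀ k, ∃ y, q y = Y1 k) ∧
      (π.map Prod.fst).map q = discMeas p Y0 ∧ (π.map Prod.snd).map q = discMeas p Y1 ∧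
      ∑ k, p k * ‖Y1 k - Y0 k‖ ^ 2 = ∫ z, ‖q z.2 - q z.1‖ ^ 2 ∂π := by
  classical
  let Q : SimpleFunc (E d × E d) (E d × E d) :=
    (q.comp Prod.fst measurable_fst).pair (q.comp Prod.snd measurable_snd)
  have hQ : ∀ z, Q z = (q z.1, q z.2) := fun z => rfl
  let s : Finset (E d × E d) := Q.range.filter (fun c => 0 < π (Q ⁻¹' {c}))
  have hs : ∀ c, c ∈ s ↔ c ∈ Q.range ∧ 0 < π (Q ⁻¹' {c}) := fun c => by simp [s]
  -- general conversion of sums
  have hconvM : ∀ (g : E d × E d → E d),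
      ∑ c ∈ Q.range, π (Q ⁻¹' {c}) • Measure.dirac (g c)
        = ∑ k : ↥s, ENNReal.ofReal ((π (Q ⁻¹' {k.1})).toReal) • Measure.dirac (g k.1) := by
    intro g
    rw [Finset.sum_coe_sort s
      (fun c => ENNReal.ofReal ((π (Q ⁻¹' {c})).toReal) • Measure.dirac (g c))]
    rw [Finset.sum_filter]
    refine Finset.sum_congr rfl (fun c _ => ?_)
    split_ifs with h
    · rw [ENNReal.ofReal_toReal (measure_ne_top π _)]
    · have : π (Q ⁻¹' {c}) = 0 := le_antisymm (not_lt.1 h) zero_le
      rw [this, zero_smul]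
  have hconvR : ∀ (g : E d × E d → ℝ),
      ∑ c ∈ Q.range, (π (Q ⁻¹' {c})).toReal * g c
        = ∑ k : ↥s, (π (Q ⁻¹' {k.1})).toReal * g k.1 := by
    intro g
    rw [Finset.sum_coe_sort s (fun c => (π (Q ⁻¹' {c})).toReal * g c)]
    rw [Finset.sum_filter]
    refine Finset.sum_congr rfl (fun c _ => ?_)
    split_ifs with h
    · rfl
    · have : π (Q ⁻¹' {c}) = 0 := le_antisymm (not_lt.1 h) zero_le
      rw [this]; simp
  have hsum : ∑ k : ↥s, (π (Q ⁻¹' {k.1})).toReal = 1 := by
    have h1 := hconvR (fun _ => 1)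
    simp only [mul_one] at h1
    rw [← h1, ← ENNReal.toReal_sum (fun c _ => measure_ne_top π _),
      SimpleFunc.sum_range_measure_preimage_singleton, measure_univ, ENNReal.toReal_one]
  have hne : Nonempty ↥s := by
    by_contra h
    rw [not_nonempty_iff] at h
    rw [Finset.univ_eq_empty, Finset.sum_empty] at hsum
    exact zero_ne_one hsum
  refine ⟨↥s, inferInstance, hne, fun k => (π (Q ⁻¹' {k.1})).toReal, fun k => k.1.1,
    fun k => k.1.2, ?_, hsum, ?_, ?_, ?_, ?_, ?_⟩
  · intro k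
    exact ENNReal.toReal_pos ((hs k.1).1 k.2).2.ne' (measure_ne_top π _)
  · intro k
    obtain ⟨z, hz⟩ := SimpleFunc.mem_range.1 ((hs k.1).1 k.2).1
    exact ⟨z.1, by show q z.1 = (k.1).1; rw [← hz, hQ]⟩
  · intro k
    obtain ⟨z, hz⟩ := SimpleFunc.mem_range.1 ((hs k.1).1 k.2).1
    exact ⟨z.2, by show q z.2 = (k.1).2; rw [← hz, hQ]⟩
  · have h1 : (π.map Prod.fst).map q = (π.map Q).map Prod.fst := by
      rw [Measure.map_map q.measurable measurable_fst, Measure.map_map measurable_fst Q.measurable]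
      rfl
    rw [h1, map_map_simpleFunc π Q Prod.fst measurable_fst, hconvM Prod.fst]
    rfl
  · have h1 : (π.map Prod.snd).map q = (π.map Q).map Prod.snd := by
      rw [Measure.map_map q.measurable measurable_snd, Measure.map_map measurable_snd Q.measurable]
      rfl
    rw [h1, map_map_simpleFunc π Q Prod.snd measurable_snd, hconvM Prod.snd]
    rfl
  · have h1 := SimpleFunc.map_integral (μ := π) Q (fun c : E d × E d => ‖c.2 - c.1‖ ^ 2)
      (SimpleFunc.integrable_of_isFiniteMeasure Q) (by simp)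
    rw [SimpleFunc.integral_eq_integral _ (SimpleFunc.integrable_of_isFiniteMeasure _)] at h1
    have h2 : ∫ z, ‖q z.2 - q z.1‖ ^ 2 ∂π
        = ∫ z, (Q.map (fun c : E d × E d => ‖c.2 - c.1‖ ^ 2)) z ∂π := rfl
    rw [h2, h1]
    exact (hconvR (fun c => ‖c.2 - c.1‖ ^ 2)).symm

end Crest.Agent.R82
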