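import Crest.Agent.R82.PairD
import Crest.Agent.R82.PairG_Grid
import Crest.Agent.R82.PairG_Cmp

/-!
# Row 82, task PAIRG: the pairing estimate (P) for general targets, by grid discretisation

Blueprint.  `μ = ρ.map T0`, `ν = ρ.map T1` are carried by `closedBall 0 R`; `π` a coupling; `W² = ∫ ‖y - z‖² dπ`.
For `n ≥ 1` let `q = q_n : E d → E d`, `(q y)_i = ⌊n y_i⌋ / n`: measurable, `‖q y - y‖ ≤ δ_n := √d / n`, finitely many values on `closedBall 0 R`,
`‖q y‖ ≤ R' := R + √d`.  Labels: `ι = {(α,β) ∈ G × G | 0 < π (q⁻¹{α} ×ˢ q⁻¹{β})}` (`G` the finite set of values of `q` on the ball), `p (α,β) = (π (..)).toReal`,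
`Y0 (α,β) = α`, `Y1 (α,β) = β`.  Then `discMeas p Y0 = μ.map q = ρ.map (q ∘ T0)`, `discMeas p Y1 = ρ.map (q ∘ T1)`, and
`∑ p ‖Y1 - Y0‖² = ∫ ‖q z - q y‖² dπ ≤ (W + 2 δ_n)²` (Minkowski in `L²(π)`, or `‖q z - q y‖ ≤ ‖z - y‖ + 2δ_n` and Cauchy–Schwarz).
`labeled_exists` gives potential pairs `(φ0ⁿ, T0ⁿ)`, `(φ1ⁿ, T1ⁿ)` (slope bound `R'`) for `(ρ, discMeas p Y_b)`.
Comparison of `(φ0, T0)` with `(φ0ⁿ, T0ⁿ)`: `Z = q ∘ T0` has the law of `T0ⁿ`.  By `gap_eq` (`ϱ = ϱ' = ρ`) the gap of `Z` w.r.t. `(φ0ⁿ,T0ⁿ)` is `∫⟪x,T0ⁿ x⟫dρ - ∫⟪x,Z x⟫dρ`.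
By Fenchel for `φ0`: `∫⟪x,T0ⁿ x⟫ ≤ ∫ φ0 + ∫ conj K φ0 (T0ⁿ x) = ∫ φ0 + ∫ conj K φ0 (Z x) ≤ ∫ φ0 + ∫ conj K φ0 (T0 x) + D δ_n = ∫ ⟪x, T0 x⟫ + D δ_n ≤ ∫ ⟪x, Z x⟫ + 2 D δ_n`
(`conj_lip`, `IsPot.conj_eq`).  So the gap is `≤ 2 D δ_n`; `weak_stab`: `∫ ‖T0ⁿ - Z‖ ≤ C_WS (√(2Dδ_n) + 2Dδ_n)`, `∫ ‖Z - T0‖ ≤ δ_n`; `l1_poincare`:
`|∫ η (φ0 - φ0ⁿ) dρ| ≤ B C_LP ∫ ‖T0 - T0ⁿ‖ dρ → 0`.  Same for `b = 1`.  `pair_discrete` (with `R'`) for the middle term.  Let `n → ∞`.
-/

set_option autoImplicit false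

namespace Crest.Agent.R82

open MeasureTheory Crest.AnalysisR.OT
open scoped ENNReal NNReal InnerProductSpace

variable {d : ℕ}

theorem pair_general (K : Set (E d)) (hKc : IsCompact K) (hKv : Convex ℝ K) (hKi : (interior K).Nonempty)
    (R : ℝ) (hR : 0 ≤ R) :
    ∃ C : ℝ, 0 ≤ C ∧ ∀ (φ0 φ1 : E d → ℝ) (T0 T1 : E d → E d) (π : Measure (E d × E d)),
      IsPot K R φ0 T0 → IsPot K R φ1 T1 → IsPairCoupling ((rho K).map T0) ((rho K).map T1) π →
      ∀ η : E d → ℝ, Measurable η → (∃ B, ∀ x, |η x| ≤ B) → ∫ x, η x ∂(rho K) = 0 →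
        |∫ x, η x * (φ0 x - φ1 x) ∂(rho K)|
          ≤ C * Real.sqrt (∫ x, η x ^ 2 ∂(rho K)) * Real.sqrt (∫ z, ‖z.1 - z.2‖ ^ 2 ∂π) := by
  have hprob := isProbabilityMeasure_rho K hKc hKi
  have hR1 : 0 ≤ R + 1 := by positivity
  obtain ⟨C, hC0, hPD⟩ := pair_discrete K hKc hKv hKi (R + 1) hR1
  obtain ⟨Φ, hΦc, hΦ0, hcmp⟩ := compare_discrete K hKc hKv hKi (R + 1) hR1
  refine ⟨C, hC0, ?_⟩
  intro φ0 φ1 T0 T1 π h0 h1 hπ η hη hB hη0
  obtain ⟨B, hB⟩ := hB
  have hB0 : 0 ≤ B := (abs_nonneg _).trans (hB 0)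
  have hac : rho K ≪ volume.restrict K := rho_absolutelyContinuous K
  have hacv : rho K ≪ volume := hac.trans Measure.restrict_le_self.absolutelyContinuous
  have hT0b : ∀ᵐ x ∂(rho K), ‖T0 x‖ ≤ R := hac.ae_le h0.bdd
  have hT1b : ∀ᵐ x ∂(rho K), ‖T1 x‖ ≤ R := hac.ae_le h1.bdd
  -- `π` is a probability measure
  have hπprob : IsProbabilityMeasure π := by
    constructor
    have e1 : π Set.univ = (π.map Prod.fst) Set.univ := by
      rw [Measure.map_apply measurable_fst MeasurableSet.univ, Set.preimage_univ]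
    rw [e1, hπ.1, Measure.map_apply h0.measT MeasurableSet.univ, Set.preimage_univ, measure_univ]
  -- `π` is carried by the product of balls
  have hπ1 : ∀ᵐ z ∂π, ‖z.1‖ ≤ R := by
    have e1 : ∀ᵐ y ∂(π.map Prod.fst), ‖y‖ ≤ R := by
      rw [hπ.1, ae_map_iff h0.measT.aemeasurable (measurableSet_le measurable_norm measurable_const)]
      exact hT0b
    exact ae_of_ae_map measurable_fst.aemeasurable e1
  have hπ2 : ∀ᵐ z ∂π, ‖z.2‖ ≤ R := by
    have e1 : ∀ᵐ y ∂(π.map Prod.snd), ‖y‖ ≤ R := by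
      rw [hπ.2, ae_map_iff h1.measT.aemeasurable (measurableSet_le measurable_norm measurable_const)]
      exact hT1b
    exact ae_of_ae_map measurable_snd.aemeasurable e1
  set W2 : ℝ := ∫ z, ‖z.1 - z.2‖ ^ 2 ∂π with hW2
  set N2 : ℝ := Real.sqrt (∫ x, η x ^ 2 ∂(rho K)) with hN2
  have hN20 : 0 ≤ N2 := Real.sqrt_nonneg _
  -- the estimate at scale `δ`
  have key : ∀ δ : ℝ, 0 < δ → δ ≤ 1 →
      |∫ x, η x * (φ0 x - φ1 x) ∂(rho K)|
        ≤ 2 * B * Φ δ + C * N2 * Real.sqrt (W2 + 8 * R * δ + 4 * δ ^ 2) := by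
    intro δ hδ hδ1
    obtain ⟨q, hq1, hq2⟩ := exists_grid (d := d) R δ hR hδ
    obtain ⟨ι, hF, hN, p, Y0, Y1, hp, hsum, hY0, hY1, hl0, hl1, hcost⟩ := exists_labels π q
    have hY0b : ∀ k, ‖Y0 k‖ ≤ R + 1 := by
      intro k
      obtain ⟨y, hy⟩ := hY0 k
      rw [← hy]
      exact (hq1 y).trans (by linarith)
    have hY1b : ∀ k, ‖Y1 k‖ ≤ R + 1 := by
      intro k
      obtain ⟨y, hy⟩ := hY1 k
      rw [← hy]
      exact (hq1 y).trans (by linarith)
    obtain ⟨ψ0, S0, hs0⟩ := labeled_exists K hKc.isBounded (rho K) hacv (rho_compl K hKc) p hp hsum Y0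
    obtain ⟨ψ1, S1, hs1⟩ := labeled_exists K hKc.isBounded (rho K) hacv (rho_compl K hKc) p hp hsum Y1
    have hp0 := hs0.isPot K (R + 1) hR1 hY0b
    have hp1 := hs1.isPot K (R + 1) hR1 hY1b
    set f0 := lagPot (siteSet Y0) ψ0 with hf0
    set f1 := lagPot (siteSet Y1) ψ1 with hf1
    -- comparison
    have law0 : (rho K).map S0 = (rho K).map (fun x => q (T0 x)) := by
      rw [hs0.law, ← hl0, hπ.1, Measure.map_map q.measurable h0.measT]
      rfl
    have law1 : (rho K).map S1 = (rho K).map (fun x => q (T1 x)) := by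
      rw [hs1.law, ← hl1, hπ.2, Measure.map_map q.measurable h1.measT]
      rfl
    obtain ⟨c0, hc0⟩ := hcmp φ0 f0 T0 S0 (fun x => q (T0 x)) δ hδ.le (h0.mono (by linarith)) hp0
      (q.measurable.comp h0.measT)
      (Filter.Eventually.of_forall (fun x => (hq1 _).trans (by linarith)))
      (by filter_upwards [hT0b] with x hx using hq2 _ hx) law0
    obtain ⟨c1, hc1⟩ := hcmp φ1 f1 T1 S1 (fun x => q (T1 x)) δ hδ.le (h1.mono (by linarith)) hp1
      (q.measurable.comp h1.measT)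
      (Filter.Eventually.of_forall (fun x => (hq1 _).trans (by linarith)))
      (by filter_upwards [hT1b] with x hx using hq2 _ hx) law1
    have hmid := hPD ι p Y0 Y1 f0 f1 S0 S1 hp hsum hY0b hY1b hp0 hs0.law hp1 hs1.law η hη ⟨B, hB⟩ hη0
    -- the cost
    have hcost2 : ∑ k, p k * ‖Y1 k - Y0 k‖ ^ 2 ≤ W2 + 8 * R * δ + 4 * δ ^ 2 := by
      rw [hcost]
      have i1 : Integrable (fun z : E d × E d => ‖z.1 - z.2‖ ^ 2) π := by
        refine integrable_of_ae_abs_le ((measurable_fst.sub measurable_snd).norm.pow_const 2)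
          ((R + R) ^ 2) ?_
        filter_upwards [hπ1, hπ2] with z hz1 hz2
        rw [abs_of_nonneg (by positivity)]
        exact pow_le_pow_left₀ (norm_nonneg _) ((norm_sub_le _ _).trans (add_le_add hz1 hz2)) 2
      have i2 : Integrable (fun z : E d × E d => ‖q z.2 - q z.1‖ ^ 2) π := by
        refine integrable_of_ae_abs_le
          (((q.measurable.comp measurable_snd).sub (q.measurable.comp measurable_fst)).norm.pow_const 2)
          (((R + δ) + (R + δ)) ^ 2) ?_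
        refine Filter.Eventually.of_forall (fun z => ?_)
        rw [abs_of_nonneg (by positivity)]
        exact pow_le_pow_left₀ (norm_nonneg _) ((norm_sub_le _ _).trans (add_le_add (hq1 _) (hq1 _))) 2
      have e1 : ∫ z, ‖q z.2 - q z.1‖ ^ 2 ∂π ≤ ∫ z, (‖z.1 - z.2‖ ^ 2 + (8 * R * δ + 4 * δ ^ 2)) ∂π := by
        refine integral_mono_ae i2 (i1.add (integrable_const _)) ?_
        filter_upwards [hπ1, hπ2] with z hz1 hz2
        have a1 : ‖q z.2 - q z.1‖ ≤ ‖z.1 - z.2‖ + 2 * δ := by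
          have : q z.2 - q z.1 = (q z.2 - z.2) - (q z.1 - z.1) - (z.1 - z.2) := by abel
          rw [this]
          refine (norm_sub_le _ _).trans ?_
          have := norm_sub_le (q z.2 - z.2) (q z.1 - z.1)
          linarith [hq2 _ hz1, hq2 _ hz2]
        have a2 : ‖z.1 - z.2‖ ≤ 2 * R := by
          refine (norm_sub_le _ _).trans ?_
          linarith
        have a3 : ‖q z.2 - q z.1‖ ^ 2 ≤ (‖z.1 - z.2‖ + 2 * δ) ^ 2 :=
          pow_le_pow_left₀ (norm_nonneg _) a1 2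
        show ‖q z.2 - q z.1‖ ^ 2 ≤ ‖z.1 - z.2‖ ^ 2 + (8 * R * δ + 4 * δ ^ 2)
        nlinarith [norm_nonneg (z.1 - z.2)]
      rw [integral_add i1 (integrable_const _)] at e1
      simp only [integral_const, probReal_univ, smul_eq_mul, one_mul] at e1
      linarith
    -- integrability of the pieces
    have hcont : ∀ (f : E d → ℝ), Continuous f → Integrable (fun x => η x * f x) (rho K) := by
      intro f hf
      exact (integrable_rho_of_continuous K hKc hKi f hf).bdd_mul hη.aestronglyMeasurable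
        (Filter.Eventually.of_forall (fun x => by simpa using hB x))
    have hφ0c := h0.continuous
    have hφ1c := h1.continuous
    have hf0c := hp0.continuous
    have hf1c := hp1.continuous
    have I0 := hcont (fun x => φ0 x - f0 x - c0) (by fun_prop)
    have I1 := hcont (fun x => φ1 x - f1 x - c1) (by fun_prop)
    have Im := hcont (fun x => f0 x - f1 x) (by fun_prop)
    have Iη : Integrable η (rho K) := integrable_of_ae_abs_le hη B (Filter.Eventually.of_forall hB)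
    have hsplit : ∫ x, η x * (φ0 x - φ1 x) ∂(rho K)
        = ∫ x, η x * (φ0 x - f0 x - c0) ∂(rho K) + ∫ x, η x * (f0 x - f1 x) ∂(rho K)
          - ∫ x, η x * (φ1 x - f1 x - c1) ∂(rho K) := by
      have e0 : ∫ x, (c0 - c1) * η x ∂(rho K) = 0 := by
        rw [integral_const_mul, hη0, mul_zero]
      have I01 : Integrable (fun x => η x * (φ0 x - f0 x - c0) + η x * (f0 x - f1 x)) (rho K) :=
        I0.add Im
      have I012 : Integrable (fun x => η x * (φ0 x - f0 x - c0) + η x * (f0 x - f1 x)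
          - η x * (φ1 x - f1 x - c1)) (rho K) := I01.sub I1
      have EE : (fun x => η x * (φ0 x - φ1 x)) = fun x => (η x * (φ0 x - f0 x - c0)
          + η x * (f0 x - f1 x) - η x * (φ1 x - f1 x - c1)) + (c0 - c1) * η x := by
        funext x
        ring
      rw [EE, integral_add I012 (Iη.const_mul _), integral_sub I01 I1, integral_add I0 Im, e0,
        add_zero]
    have hbd : ∀ (g : E d → ℝ), Continuous g → |∫ x, η x * g x ∂(rho K)| ≤ B * ∫ x, |g x| ∂(rho K) := by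
      intro g hg
      have ig : Integrable (fun x => |g x|) (rho K) :=
        (integrable_rho_of_continuous K hKc hKi g hg).abs
      calc |∫ x, η x * g x ∂(rho K)| ≤ ∫ x, |η x * g x| ∂(rho K) := abs_integral_le_integral_abs
        _ ≤ ∫ x, B * |g x| ∂(rho K) := by
            refine integral_mono (hcont g hg).abs (ig.const_mul _) (fun x => ?_)
            show |η x * g x| ≤ B * |g x|
            rw [abs_mul]
            exact mul_le_mul_of_nonneg_right (hB x) (abs_nonneg _)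
        _ = B * ∫ x, |g x| ∂(rho K) := integral_const_mul _ _
    have b0 := hbd (fun x => φ0 x - f0 x - c0) (by fun_prop)
    have b1 := hbd (fun x => φ1 x - f1 x - c1) (by fun_prop)
    have b0' : |∫ x, η x * (φ0 x - f0 x - c0) ∂(rho K)| ≤ B * Φ δ :=
      b0.trans (mul_le_mul_of_nonneg_left hc0 hB0)
    have b1' : |∫ x, η x * (φ1 x - f1 x - c1) ∂(rho K)| ≤ B * Φ δ :=
      b1.trans (mul_le_mul_of_nonneg_left hc1 hB0)
    have bm : |∫ x, η x * (f0 x - f1 x) ∂(rho K)|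
        ≤ C * N2 * Real.sqrt (W2 + 8 * R * δ + 4 * δ ^ 2) :=
      hmid.trans (mul_le_mul_of_nonneg_left (Real.sqrt_le_sqrt hcost2) (mul_nonneg hC0 hN20))
    rw [hsplit]
    have t1 := abs_sub (∫ x, η x * (φ0 x - f0 x - c0) ∂(rho K) + ∫ x, η x * (f0 x - f1 x) ∂(rho K))
      (∫ x, η x * (φ1 x - f1 x - c1) ∂(rho K))
    have t2 := abs_add_le (∫ x, η x * (φ0 x - f0 x - c0) ∂(rho K)) (∫ x, η x * (f0 x - f1 x) ∂(rho K))
    linarith
  -- let `δ → 0`
  have hlim : Filter.Tendsto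
      (fun δ : ℝ => 2 * B * Φ δ + C * N2 * Real.sqrt (W2 + 8 * R * δ + 4 * δ ^ 2))
      (nhdsWithin 0 (Set.Ioi 0)) (nhds (C * N2 * Real.sqrt W2)) := by
    have hc : Continuous
        (fun δ : ℝ => 2 * B * Φ δ + C * N2 * Real.sqrt (W2 + 8 * R * δ + 4 * δ ^ 2)) := by fun_prop
    have := hc.tendsto 0
    simp only [hΦ0, mul_zero, zero_add, add_zero, ne_eq, OfNat.ofNat_ne_zero, not_false_eq_true,
      zero_pow] at this
    exact this.mono_left nhdsWithin_le_nhds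
  refine ge_of_tendsto hlim ?_
  filter_upwards [Ioc_mem_nhdsGT (zero_lt_one' ℝ)] with δ hδ using key δ hδ.1 hδ.2

end Crest.Agent.R82
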