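-- Row 82, task SD2. Blueprint: see the header of SD.lean
import Crest.Agent.R82.SD

set_option autoImplicit false

namespace Crest.Agent.R82

open MeasureTheory
open scoped ENNReal NNReal InnerProductSpace

variable {d : ℕ}

namespace SDex

theorem lagPot_le (S : Finset (E d)) (hS : S.Nonempty) (ψ : E d → ℝ) (x : E d) (a : ℝ)
    (h : ∀ y ∈ S, ⟪x, y⟫_ℝ - ψ y ≤ a) : lagPot S ψ x ≤ a := by
  unfold lagPot
  rw [dif_pos hS]
  exact Finset.sup'_le hS _ h

theorem norm_le_sum (S : Finset (E d)) (y : E d) (hy : y ∈ S) : ‖y‖ ≤ ∑ z ∈ S, ‖z‖ :=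
  Finset.single_le_sum (f := fun z => ‖z‖) (fun z _ => norm_nonneg z) hy

theorem continuous_lagPot (S : Finset (E d)) (ψ : E d → ℝ) : Continuous (lagPot S ψ) := by
  have hR0 : (0 : ℝ) ≤ ∑ z ∈ S, ‖z‖ := Finset.sum_nonneg (fun z _ => norm_nonneg z)
  have hl : LipschitzWith (∑ z ∈ S, ‖z‖).toNNReal (lagPot S ψ) := by
    refine LipschitzWith.of_dist_le_mul (fun x w => ?_)
    rw [Real.dist_eq, dist_eq_norm, Real.coe_toNNReal _ hR0]
    exact lagPot_lip S ψ _ hR0 (norm_le_sum S) x w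
  exact hl.continuous

theorem integrable_lagPot (K : Set (E d)) (hKb : Bornology.IsBounded K)
    (ϱ : Measure (E d)) [IsProbabilityMeasure ϱ] (hK : ϱ Kᶜ = 0)
    (S : Finset (E d)) (ψ : E d → ℝ) : Integrable (lagPot S ψ) ϱ := by
  obtain ⟨D, hD⟩ := hKb.exists_norm_le
  have hR0 : (0 : ℝ) ≤ ∑ z ∈ S, ‖z‖ := Finset.sum_nonneg (fun z _ => norm_nonneg z)
  have hae : ∀ᵐ x ∂ϱ, x ∈ K := mem_ae_iff.2 hK
  refine Integrable.of_bound (continuous_lagPot S ψ).aestronglyMeasurable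
    (|lagPot S ψ 0| + (∑ z ∈ S, ‖z‖) * D) ?_
  filter_upwards [hae] with x hx
  have h1 := lagPot_lip S ψ _ hR0 (norm_le_sum S) x 0
  rw [sub_zero] at h1
  have h2 : (∑ z ∈ S, ‖z‖) * ‖x‖ ≤ (∑ z ∈ S, ‖z‖) * D :=
    mul_le_mul_of_nonneg_left (hD x hx) hR0
  rw [Real.norm_eq_abs]
  have h3 : |lagPot S ψ x| ≤ |lagPot S ψ x - lagPot S ψ 0| + |lagPot S ψ 0| := by
    have := abs_add_le (lagPot S ψ x - lagPot S ψ 0) (lagPot S ψ 0)
    simpa using this
  linarith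

/-- the Kantorovich functional. -/
noncomputable def Phi (ϱ : Measure (E d)) (S : Finset (E d)) (m : E d → ℝ) (ψ : E d → ℝ) : ℝ :=
  ∫ x, lagPot S ψ x ∂ϱ + ∑ y ∈ S, m y * ψ y

theorem lagPot_le_add_sum (S : Finset (E d)) (hS : S.Nonempty) (ψ ψ' : E d → ℝ) (x : E d) :
    lagPot S ψ x ≤ lagPot S ψ' x + ∑ y ∈ S, |ψ y - ψ' y| := by
  refine lagPot_le S hS ψ x _ (fun y hy => ?_)
  have h1 := lagPot_ge S ψ' x y hy
  have h2 : |ψ y - ψ' y| ≤ ∑ z ∈ S, |ψ z - ψ' z| :=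
    Finset.single_le_sum (f := fun z => |ψ z - ψ' z|) (fun z _ => abs_nonneg _) hy
  have h3 := neg_abs_le (ψ y - ψ' y)
  linarith

theorem integral_lagPot_le (K : Set (E d)) (hKb : Bornology.IsBounded K)
    (ϱ : Measure (E d)) [IsProbabilityMeasure ϱ] (hK : ϱ Kᶜ = 0)
    (S : Finset (E d)) (hS : S.Nonempty) (ψ ψ' : E d → ℝ) :
    ∫ x, lagPot S ψ x ∂ϱ ≤ ∫ x, lagPot S ψ' x ∂ϱ + ∑ y ∈ S, |ψ y - ψ' y| := by
  have h1 : ∫ x, lagPot S ψ x ∂ϱ ≤ ∫ x, (lagPot S ψ' x + ∑ y ∈ S, |ψ y - ψ' y|) ∂ϱ :=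
    integral_mono (integrable_lagPot K hKb ϱ hK S ψ)
      ((integrable_lagPot K hKb ϱ hK S ψ').add (integrable_const _))
      (fun x => lagPot_le_add_sum S hS ψ ψ' x)
  rw [integral_add (integrable_lagPot K hKb ϱ hK S ψ') (integrable_const _)] at h1
  simpa using h1

theorem continuous_Phi (K : Set (E d)) (hKb : Bornology.IsBounded K)
    (ϱ : Measure (E d)) [IsProbabilityMeasure ϱ] (hK : ϱ Kᶜ = 0)
    (S : Finset (E d)) (hS : S.Nonempty) (m : E d → ℝ) : Continuous (Phi ϱ S m) := by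
  unfold Phi
  refine Continuous.add ?_ ?_
  · rw [continuous_iff_continuousAt]
    intro ψ0
    unfold ContinuousAt
    rw [tendsto_iff_dist_tendsto_zero]
    have hb : Filter.Tendsto (fun ψ : E d → ℝ => ∑ y ∈ S, |ψ y - ψ0 y|) (nhds ψ0) (nhds 0) := by
      have hc : Continuous (fun ψ : E d → ℝ => ∑ y ∈ S, |ψ y - ψ0 y|) := by
        refine continuous_finsetSum _ (fun y _ => ?_)
        exact ((continuous_apply y).sub continuous_const).abs
      have := hc.tendsto ψ0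
      simpa using this
    refine squeeze_zero (fun _ => dist_nonneg) (fun ψ => ?_) hb
    rw [Real.dist_eq, abs_le]
    have h1 := integral_lagPot_le K hKb ϱ hK S hS ψ ψ0
    have h2 := integral_lagPot_le K hKb ϱ hK S hS ψ0 ψ
    have h3 : ∑ y ∈ S, |ψ0 y - ψ y| = ∑ y ∈ S, |ψ y - ψ0 y| :=
      Finset.sum_congr rfl (fun y _ => abs_sub_comm _ _)
    constructor <;> linarith
  · refine continuous_finsetSum _ (fun y _ => ?_)
    exact continuous_const.mul (continuous_apply y)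

/-- reduction to the box. -/
theorem exists_box_le (K : Set (E d)) (hKb : Bornology.IsBounded K)
    (ϱ : Measure (E d)) [IsProbabilityMeasure ϱ] (hK : ϱ Kᶜ = 0)
    (S : Finset (E d)) (hS : S.Nonempty) (m : E d → ℝ) (hm : ∀ y ∈ S, 0 < m y)
    (hsum : ∑ y ∈ S, m y = 1) (D : ℝ) (hD : ∀ x ∈ K, ‖x‖ ≤ D) (M : ℝ)
    (hM : 2 * (D * ∑ z ∈ S, ‖z‖) ≤ M) (hM0 : 0 ≤ M) (ψ : E d → ℝ) :
    ∃ ψ' : E d → ℝ, (∀ y, ψ' y ∈ Set.Icc 0 M) ∧ Phi ϱ S m ψ' ≤ Phi ϱ S m ψ := by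
  obtain ⟨y0, hy0, hmin⟩ := Finset.exists_min_image S ψ hS
  set c := ψ y0 with hc
  refine ⟨fun y => max 0 (min (ψ y - c) M), fun y => ⟨le_max_left _ _, max_le hM0 (min_le_right _ _)⟩, ?_⟩
  have hae : ∀ᵐ x ∂ϱ, x ∈ K := mem_ae_iff.2 hK
  have hval : ∀ y ∈ S, max 0 (min (ψ y - c) M) = min (ψ y - c) M := by
    intro y hy
    refine max_eq_right (le_min ?_ hM0)
    have := hmin y hy
    linarith
  have h1 : ∫ x, lagPot S (fun y => max 0 (min (ψ y - c) M)) x ∂ϱ ≤ ∫ x, (lagPot S ψ x + c) ∂ϱ := by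
    refine integral_mono_ae (integrable_lagPot K hKb ϱ hK S _)
      ((integrable_lagPot K hKb ϱ hK S ψ).add (integrable_const _)) ?_
    filter_upwards [hae] with x hx
    refine lagPot_le S hS _ x _ (fun y hy => ?_)
    rw [hval y hy]
    by_cases hcase : ψ y - c ≤ M
    · rw [min_eq_left hcase]
      have := lagPot_ge S ψ x y hy
      linarith
    · rw [min_eq_right (le_of_not_ge hcase)]
      have h0 := lagPot_ge S ψ x y0 hy0
      have hxD := hD x hx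
      have hD0 : 0 ≤ D := le_trans (norm_nonneg x) hxD
      have hR0 : (0 : ℝ) ≤ ∑ z ∈ S, ‖z‖ := Finset.sum_nonneg (fun z _ => norm_nonneg z)
      have e1 : ⟪x, y⟫_ℝ ≤ D * ∑ z ∈ S, ‖z‖ :=
        le_trans (real_inner_le_norm x y)
          (mul_le_mul hxD (norm_le_sum S y hy) (norm_nonneg _) hD0)
      have e2 : -(D * ∑ z ∈ S, ‖z‖) ≤ ⟪x, y0⟫_ℝ := by
        have := abs_real_inner_le_norm x y0
        have h3 : ‖x‖ * ‖y0‖ ≤ D * ∑ z ∈ S, ‖z‖ :=
          mul_le_mul hxD (norm_le_sum S y0 hy0) (norm_nonneg _) hD0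
        have h4 := neg_abs_le (⟪x, y0⟫_ℝ)
        linarith
      linarith
  rw [integral_add (integrable_lagPot K hKb ϱ hK S ψ) (integrable_const _)] at h1
  have h2 : ∑ y ∈ S, m y * max 0 (min (ψ y - c) M) ≤ ∑ y ∈ S, m y * ψ y - c := by
    have : ∑ y ∈ S, m y * ψ y - c = ∑ y ∈ S, m y * (ψ y - c) := by
      simp only [mul_sub, Finset.sum_sub_distrib, ← Finset.sum_mul, hsum, one_mul]
    rw [this]
    refine Finset.sum_le_sum (fun y hy => ?_)
    rw [hval y hy]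
    exact mul_le_mul_of_nonneg_left (min_le_left _ _) (hm y hy).le
  unfold Phi
  simp only [integral_const, probReal_univ, smul_eq_mul, one_mul] at h1
  linarith

/-- a global minimiser exists. -/
theorem exists_minimiser (K : Set (E d)) (hKb : Bornology.IsBounded K)
    (ϱ : Measure (E d)) [IsProbabilityMeasure ϱ] (hK : ϱ Kᶜ = 0)
    (S : Finset (E d)) (hS : S.Nonempty) (m : E d → ℝ) (hm : ∀ y ∈ S, 0 < m y)
    (hsum : ∑ y ∈ S, m y = 1) :
    ∃ ψ : E d → ℝ, ∀ ψ' : E d → ℝ, Phi ϱ S m ψ ≤ Phi ϱ S m ψ' := by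
  obtain ⟨D, hD⟩ := hKb.exists_norm_le
  set M : ℝ := max 0 (2 * (D * ∑ z ∈ S, ‖z‖)) with hMdef
  have hM0 : 0 ≤ M := le_max_left _ _
  have hM : 2 * (D * ∑ z ∈ S, ‖z‖) ≤ M := le_max_right _ _
  have hcomp : IsCompact (Set.pi Set.univ (fun _ : E d => Set.Icc (0 : ℝ) M)) :=
    isCompact_univ_pi (fun _ => isCompact_Icc)
  have hne : (Set.pi Set.univ (fun _ : E d => Set.Icc (0 : ℝ) M)).Nonempty :=
    ⟨fun _ => 0, fun _ _ => ⟨le_refl _, hM0⟩⟩
  obtain ⟨ψ, _, hψ⟩ := hcomp.exists_isMinOn hne (continuous_Phi K hKb ϱ hK S hS m).continuousOn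
  refine ⟨ψ, fun ψ' => ?_⟩
  obtain ⟨ψ'', hbox, hle⟩ := exists_box_le K hKb ϱ hK S hS m hm hsum D hD M hM hM0 ψ'
  exact le_trans (hψ (fun y _ => hbox y)) hle

/-- lowering the weight of `y` by `t`. -/
noncomputable def lower (ψ : E d → ℝ) (y : E d) (t : ℝ) : E d → ℝ :=
  fun z => ψ z - (if z = y then t else 0)

theorem mem_cell_lower (S : Finset (E d)) (ψ : E d → ℝ) (y : E d) (t : ℝ) (x : E d) :
    x ∈ cell S (lower ψ y t) y ↔ ∀ y' ∈ S, y' ≠ y → ⟪x, y'⟫_ℝ - ψ y' ≤ ⟪x, y⟫_ℝ - ψ y + t := by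
  unfold cell lower
  simp only [Set.mem_ofPred_eq, if_true]
  constructor
  · intro h y' hy' hne
    have := h y' hy'
    rw [if_neg hne] at this
    linarith
  · intro h y' hy'
    by_cases hne : y' = y
    · subst hne; simp
    · rw [if_neg hne]
      have := h y' hy' hne
      linarith

theorem lagPot_lower_le (S : Finset (E d)) (hS : S.Nonempty) (ψ : E d → ℝ) (y : E d) (hy : y ∈ S)
    (t : ℝ) (ht : 0 ≤ t) (x : E d) :
    lagPot S (lower ψ y t) x ≤
      lagPot S ψ x + (cell S (lower ψ y t) y).indicator (fun _ => t) x := by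
  classical
  refine lagPot_le S hS _ x _ (fun y' hy' => ?_)
  have hge := lagPot_ge S ψ x y' hy'
  by_cases hx : x ∈ cell S (lower ψ y t) y
  · rw [Set.indicator_of_mem hx]
    unfold lower
    split_ifs <;> linarith
  · rw [Set.indicator_of_notMem hx]
    by_cases hne : y' = y
    · subst hne
      rw [mem_cell_lower] at hx
      push Not at hx
      obtain ⟨z, hz, _, hlt⟩ := hx
      have hz' := lagPot_ge S ψ x z hz
      unfold lower
      rw [if_pos rfl]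
      linarith
    · unfold lower
      rw [if_neg hne]
      linarith

theorem mass_le_cell_lower (K : Set (E d)) (hKb : Bornology.IsBounded K)
    (ϱ : Measure (E d)) [IsProbabilityMeasure ϱ] (hK : ϱ Kᶜ = 0)
    (S : Finset (E d)) (hS : S.Nonempty) (m : E d → ℝ) (ψ : E d → ℝ)
    (hmin : ∀ ψ' : E d → ℝ, Phi ϱ S m ψ ≤ Phi ϱ S m ψ') (y : E d) (hy : y ∈ S)
    (t : ℝ) (ht : 0 < t) : m y ≤ (ϱ (cell S (lower ψ y t) y)).toReal := by
  classical
  have h0 := hmin (lower ψ y t)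
  unfold Phi at h0
  have hmeas : MeasurableSet (cell S (lower ψ y t) y) := measurableSet_cell _ _ _
  have hint : Integrable ((cell S (lower ψ y t) y).indicator (fun _ => t)) ϱ :=
    (integrable_const t).indicator hmeas
  have h1 : ∫ x, lagPot S (lower ψ y t) x ∂ϱ ≤
      ∫ x, (lagPot S ψ x + (cell S (lower ψ y t) y).indicator (fun _ => t) x) ∂ϱ :=
    integral_mono (integrable_lagPot K hKb ϱ hK S _)
      ((integrable_lagPot K hKb ϱ hK S ψ).add hint)
      (fun x => lagPot_lower_le S hS ψ y hy t ht.le x)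
  rw [integral_add (integrable_lagPot K hKb ϱ hK S ψ) hint, integral_indicator_const _ hmeas] at h1
  have h2 : ∑ z ∈ S, m z * lower ψ y t z = ∑ z ∈ S, m z * ψ z - m y * t := by
    unfold lower
    simp only [mul_sub, Finset.sum_sub_distrib, mul_ite, mul_zero, Finset.sum_ite_eq', hy, if_true]
  rw [h2] at h0
  have h3 : m y * t ≤ (ϱ (cell S (lower ψ y t) y)).toReal * t := by
    have : ϱ.real (cell S (lower ψ y t) y) • t = (ϱ (cell S (lower ψ y t) y)).toReal * t := rfl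
    rw [this] at h1
    linarith
  exact le_of_mul_le_mul_right h3 ht

theorem iInter_cell_lower (S : Finset (E d)) (ψ : E d → ℝ) (y : E d) :
    (⋂ n : ℕ, cell S (lower ψ y (1 / ((n : ℝ) + 1))) y) = cell S ψ y := by
  ext x
  simp only [Set.mem_iInter, mem_cell_lower]
  constructor
  · intro h y' hy'
    by_cases hne : y' = y
    · subst hne; exact le_refl _
    · have hlim : Filter.Tendsto (fun n : ℕ => ⟪x, y⟫_ℝ - ψ y + 1 / ((n : ℝ) + 1)) Filter.atTop
          (nhds (⟪x, y⟫_ℝ - ψ y + 0)) :=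
        tendsto_const_nhds.add tendsto_one_div_add_atTop_nhds_zero_nat
      rw [add_zero] at hlim
      exact ge_of_tendsto' hlim (fun n => h n y' hy' hne)
  · intro h n y' hy' _
    have h1 := h y' hy'
    have h2 : (0 : ℝ) < 1 / ((n : ℝ) + 1) := Nat.one_div_pos_of_nat
    linarith

theorem mass_le_cell (K : Set (E d)) (hKb : Bornology.IsBounded K)
    (ϱ : Measure (E d)) [IsProbabilityMeasure ϱ] (hK : ϱ Kᶜ = 0)
    (S : Finset (E d)) (hS : S.Nonempty) (m : E d → ℝ) (ψ : E d → ℝ)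
    (hmin : ∀ ψ' : E d → ℝ, Phi ϱ S m ψ ≤ Phi ϱ S m ψ') (y : E d) (hy : y ∈ S) :
    m y ≤ (ϱ (cell S ψ y)).toReal := by
  have hanti : Antitone (fun n : ℕ => cell S (lower ψ y (1 / ((n : ℝ) + 1))) y) := by
    intro a b hab x hx
    rw [mem_cell_lower] at hx ⊢
    intro y' hy' hne
    have h1 := hx y' hy' hne
    have h2 : 1 / ((b : ℝ) + 1) ≤ 1 / ((a : ℝ) + 1) := Nat.one_div_le_one_div hab
    linarith
  have hlim := tendsto_measure_iInter_atTop (μ := ϱ)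
    (s := fun n : ℕ => cell S (lower ψ y (1 / ((n : ℝ) + 1))) y)
    (fun n => (measurableSet_cell S (lower ψ y (1 / ((n : ℝ) + 1))) y).nullMeasurableSet) hanti
    ⟨0, measure_ne_top _ _⟩
  rw [iInter_cell_lower] at hlim
  have hlim' := (ENNReal.tendsto_toReal (measure_ne_top ϱ (cell S ψ y))).comp hlim
  refine ge_of_tendsto' hlim' (fun n => ?_)
  exact mass_le_cell_lower K hKb ϱ hK S hS m ψ hmin y hy _ Nat.one_div_pos_of_nat

theorem sum_cell (ϱ : Measure (E d)) [IsProbabilityMeasure ϱ] (hac : ϱ ≪ volume)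
    (S : Finset (E d)) (hS : S.Nonempty) (ψ : E d → ℝ) :
    ∑ y ∈ S, ϱ (cell S ψ y) = 1 := by
  have h1 : ϱ (⋃ y ∈ S, cell S ψ y) = ∑ y ∈ S, ϱ (cell S ψ y) := by
    refine measure_biUnion_finset₀ ?_ (fun y _ => (measurableSet_cell S ψ y).nullMeasurableSet)
    intro y hy y' hy' hne
    exact hac (volume_cell_inter S ψ y y' hy hy' hne)
  rw [← h1, iUnion_cell S hS ψ, measure_univ]

end SDex

open SDex in
/-- **Existence of the semi-discrete optimal partition.** -/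
theorem semidiscrete_exists (K : Set (E d)) (hKb : Bornology.IsBounded K)
    (ϱ : Measure (E d)) [IsProbabilityMeasure ϱ] (hac : ϱ ≪ volume) (hK : ϱ Kᶜ = 0)
    (S : Finset (E d)) (hS : S.Nonempty) (m : E d → ℝ) (hm : ∀ y ∈ S, 0 < m y)
    (hsum : ∑ y ∈ S, m y = 1) :
    ∃ ψ : E d → ℝ, ∀ y ∈ S, ϱ (cell S ψ y) = ENNReal.ofReal (m y) := by
  obtain ⟨ψ, hmin⟩ := exists_minimiser K hKb ϱ hK S hS m hm hsum
  refine ⟨ψ, ?_⟩
  have hle : ∀ y ∈ S, m y ≤ (ϱ (cell S ψ y)).toReal :=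
    fun y hy => mass_le_cell K hKb ϱ hK S hS m ψ hmin y hy
  have hs : ∑ y ∈ S, (ϱ (cell S ψ y)).toReal = 1 := by
    rw [← ENNReal.toReal_sum (fun y _ => measure_ne_top _ _), sum_cell ϱ hac S hS ψ]
    simp
  have heq : ∀ y ∈ S, m y = (ϱ (cell S ψ y)).toReal :=
    (Finset.sum_eq_sum_iff_of_le hle).1 (by rw [hsum, hs])
  intro y hy
  rw [heq y hy, ENNReal.ofReal_toReal (measure_ne_top _ _)]

end Crest.Agent.R82
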