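import Crest.Agent.R82.SharpDefs

/-!
# S0110b: verification (duality) lemma for three-atomic targets

Blueprint.  `T x = y (idx x)`, `μ = ρ.map T`.  Put `Ψ z = ∑ k, if z = y k then ψ k else 0` (so `Ψ (y k) = ψ k`),
`φ x = ⟪x, T x⟫ - ψ (idx x)`.  For measurable `S` with `ρ.map S = μ`: `S x ∈ range y` a.e. (`μ (range y)ᶜ = 0`), and
`‖x - S x‖² = (‖x‖² - 2 φ x) + (‖S x‖² - 2 Ψ (S x)) + 2 exc_S x`, `exc_S x = φ x - ⟪x, S x⟫ + Ψ (S x) ≥ 0` a.e., `exc_T = 0`.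
`∫ a (S x) dρ = ∫ a dμ = ∫ a (T x) dρ` (`integral_map`) for `a z = ‖z‖² - 2 Ψ z`.  Everything is measurable and a.e. bounded, hence
integrable; `∫⁻ ‖x - S x‖ₑ² = ENNReal.ofReal (∫ ‖x - S x‖²)` (`ofReal_integral_eq_lintegral_ofReal`).
So `∫ ‖x - S x‖² - ∫ ‖x - T x‖² = 2 ∫ exc_S ≥ 0`; if `S` is optimal too, `∫ exc_S = 0`, hence `exc_S = 0` a.e.
-/

set_option autoImplicit false

namespace Crest.Agent.R82.Sharp

open MeasureTheory
open scoped ENNReal NNReal InnerProductSpace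
open Crest.AnalysisR.OT

theorem dual_opt {d : ℕ} (ρ : Measure (EuclideanSpace ℝ (Fin d))) [IsProbabilityMeasure ρ]
    (R : ℝ) (hR : ∀ᵐ x ∂ρ, ‖x‖ ≤ R)
    (y : Fin 3 → EuclideanSpace ℝ (Fin d)) (hy : Function.Injective y) (ψ : Fin 3 → ℝ)
    (idx : EuclideanSpace ℝ (Fin d) → Fin 3) (hidx : Measurable idx)
    (hmax : ∀ᵐ x ∂ρ, ∀ j, ⟪x, y j⟫_ℝ - ψ j ≤ ⟪x, y (idx x)⟫_ℝ - ψ (idx x)) :
    IsOptimalMap ρ (ρ.map (fun x => y (idx x))) (fun x => y (idx x)) ∧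
    ∀ S : EuclideanSpace ℝ (Fin d) → EuclideanSpace ℝ (Fin d),
      IsOptimalMap ρ (ρ.map (fun x => y (idx x))) S →
      ∀ᵐ x ∂ρ, ∃ k, S x = y k ∧ ∀ j, ⟪x, y j⟫_ℝ - ψ j ≤ ⟪x, y k⟫_ℝ - ψ k := by
  classical
  set T : EuclideanSpace ℝ (Fin d) → EuclideanSpace ℝ (Fin d) := fun x => y (idx x) with hTdef
  have hym : Measurable y := measurable_of_finite y
  have hT : Measurable T := hym.comp hidx
  set μ := ρ.map T with hμ
  set A : Set (EuclideanSpace ℝ (Fin d)) := Set.range y with hA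
  have hAm : MeasurableSet A := (Set.finite_range y).measurableSet
  have hμA : μ Aᶜ = 0 := by
    rw [hμ, Measure.map_apply hT hAm.compl]
    have : T ⁻¹' Aᶜ = ∅ := by
      ext x; simp [hA, hTdef]
    rw [this, measure_empty]
  set Ψ : EuclideanSpace ℝ (Fin d) → ℝ := fun z => ∑ k, if z = y k then ψ k else 0 with hΨ
  have hΨm : Measurable Ψ :=
    Finset.measurable_sum _ (fun k _ =>
      Measurable.ite (measurableSet_singleton (y k)) measurable_const measurable_const)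
  have hΨy : ∀ k, Ψ (y k) = ψ k := by
    intro k
    simp only [hΨ, hy.eq_iff]
    simp
  set φ : EuclideanSpace ℝ (Fin d) → ℝ := fun x => ⟪x, T x⟫_ℝ - ψ (idx x) with hφ
  have hφm : Measurable φ :=
    (measurable_id.inner hT).sub ((measurable_of_finite ψ).comp hidx)
  set Y : ℝ := ∑ k, ‖y k‖ with hY
  set P : ℝ := ∑ k, |ψ k| with hP
  have hYk : ∀ k, ‖y k‖ ≤ Y := fun k =>
    Finset.single_le_sum (f := fun k => ‖y k‖) (fun _ _ => norm_nonneg _) (Finset.mem_univ k)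
  have hPk : ∀ k, |ψ k| ≤ P := fun k =>
    Finset.single_le_sum (f := fun k => |ψ k|) (fun _ _ => abs_nonneg _) (Finset.mem_univ k)
  have hY0 : 0 ≤ Y := Finset.sum_nonneg (fun _ _ => norm_nonneg _)
  have hP0 : 0 ≤ P := Finset.sum_nonneg (fun _ _ => abs_nonneg _)
  have hR' : ∀ᵐ x ∂ρ, ‖x‖ ≤ |R| := by
    filter_upwards [hR] with x hx using hx.trans (le_abs_self R)
  have hφb : ∀ᵐ x ∂ρ, |φ x| ≤ |R| * Y + P := by
    filter_upwards [hR'] with x hx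
    have h1 : |⟪x, T x⟫_ℝ| ≤ |R| * Y :=
      (abs_real_inner_le_norm _ _).trans (mul_le_mul hx (hYk _) (norm_nonneg _) (abs_nonneg _))
    have h2 := hPk (idx x)
    calc |φ x| ≤ |⟪x, T x⟫_ℝ| + |ψ (idx x)| := abs_sub _ _
      _ ≤ _ := add_le_add h1 h2
  have key : ∀ S : EuclideanSpace ℝ (Fin d) → EuclideanSpace ℝ (Fin d), Measurable S →
      ρ.map S = μ →
      (∀ᵐ x ∂ρ, S x ∈ A) ∧ Integrable (fun x => ‖x - S x‖ ^ 2) ρ ∧
      Integrable (fun x => ‖S x‖ ^ 2 - 2 * Ψ (S x)) ρ ∧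
      Integrable (fun x => φ x - ⟪x, S x⟫_ℝ + Ψ (S x)) ρ ∧
      (∀ᵐ x ∂ρ, 0 ≤ φ x - ⟪x, S x⟫_ℝ + Ψ (S x)) ∧
      ∫ x, (‖S x‖ ^ 2 - 2 * Ψ (S x)) ∂ρ = ∫ z, (‖z‖ ^ 2 - 2 * Ψ z) ∂μ ∧
      ∫⁻ x, ‖x - S x‖ₑ ^ 2 ∂ρ = ENNReal.ofReal (∫ x, ‖x - S x‖ ^ 2 ∂ρ) := by
    intro S hS hSμ
    have hSA : ∀ᵐ x ∂ρ, S x ∈ A := by
      rw [ae_iff]
      have : {x | ¬ S x ∈ A} = S ⁻¹' Aᶜ := rfl
      rw [this, ← Measure.map_apply hS hAm.compl, hSμ, hμA]
    have hSb : ∀ᵐ x ∂ρ, ‖S x‖ ≤ Y ∧ |Ψ (S x)| ≤ P := by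
      filter_upwards [hSA] with x hx
      obtain ⟨k, hk⟩ := hx
      rw [← hk, hΨy]
      exact ⟨hYk k, hPk k⟩
    have i1 : Integrable (fun x => ‖x - S x‖ ^ 2) ρ := by
      refine Integrable.of_bound (by fun_prop) ((|R| + Y) ^ 2) ?_
      filter_upwards [hR', hSb] with x hx hx2
      rw [Real.norm_of_nonneg (by positivity)]
      have : ‖x - S x‖ ≤ |R| + Y := (norm_sub_le _ _).trans (add_le_add hx hx2.1)
      exact pow_le_pow_left₀ (norm_nonneg _) this 2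
    have i2 : Integrable (fun x => ‖S x‖ ^ 2 - 2 * Ψ (S x)) ρ := by
      refine Integrable.of_bound
        (((hS.norm.pow_const 2).sub ((hΨm.comp hS).const_mul 2)).aestronglyMeasurable)
        (Y ^ 2 + 2 * P) ?_
      filter_upwards [hSb] with x hx2
      rw [Real.norm_eq_abs]
      have h1 : ‖S x‖ ^ 2 ≤ Y ^ 2 := pow_le_pow_left₀ (norm_nonneg _) hx2.1 2
      have h2 := abs_le.mp hx2.2
      have h0 : 0 ≤ ‖S x‖ ^ 2 := by positivity
      rw [abs_le]; constructor <;> nlinarith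
    have i3 : Integrable (fun x => φ x - ⟪x, S x⟫_ℝ + Ψ (S x)) ρ := by
      refine Integrable.of_bound
        (((hφm.sub (measurable_id.inner hS)).add (hΨm.comp hS)).aestronglyMeasurable)
        ((|R| * Y + P) + |R| * Y + P) ?_
      filter_upwards [hR', hSb, hφb] with x hx hx2 hx3
      rw [Real.norm_eq_abs]
      have h1 : |⟪x, S x⟫_ℝ| ≤ |R| * Y :=
        (abs_real_inner_le_norm _ _).trans (mul_le_mul hx hx2.1 (norm_nonneg _) (abs_nonneg _))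
      calc |φ x - ⟪x, S x⟫_ℝ + Ψ (S x)| ≤ |φ x - ⟪x, S x⟫_ℝ| + |Ψ (S x)| := abs_add_le _ _
        _ ≤ (|φ x| + |⟪x, S x⟫_ℝ|) + |Ψ (S x)| := by gcongr; exact abs_sub _ _
        _ ≤ _ := by gcongr; exact hx2.2
    refine ⟨hSA, i1, i2, i3, ?_, ?_, ?_⟩
    · filter_upwards [hSA, hmax] with x hx hm
      obtain ⟨k, hk⟩ := hx
      rw [← hk, hΨy]
      have := hm k
      simp only [hφ, hTdef]
      linarith
    · rw [← hSμ]
      exact (integral_map hS.aemeasurable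
        (((measurable_norm.pow_const 2).sub (hΨm.const_mul 2)).aestronglyMeasurable)).symm
    · rw [ofReal_integral_eq_lintegral_ofReal i1 (Filter.Eventually.of_forall (fun x => by positivity))]
      refine lintegral_congr (fun x => ?_)
      rw [ENNReal.ofReal_pow (norm_nonneg _), ofReal_norm]
  -- decomposition of the cost
  have hexcT : ∀ x, φ x - ⟪x, T x⟫_ℝ + Ψ (T x) = 0 := by
    intro x
    simp only [hφ]
    rw [show T x = y (idx x) from rfl, hΨy]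
    ring
  obtain ⟨-, t1, t2, t3, -, t5, t6⟩ := key T hT rfl
  have hg : Integrable (fun x => ‖x‖ ^ 2 - 2 * φ x) ρ := by
    have := (t1.sub t2).sub (t3.const_mul 2)
    refine this.congr (Filter.Eventually.of_forall (fun x => ?_))
    simp only [Pi.sub_apply]
    rw [norm_sub_sq_real]
    ring
  have decomp : ∀ S : EuclideanSpace ℝ (Fin d) → EuclideanSpace ℝ (Fin d), Measurable S →
      ρ.map S = μ →
      ∫ x, ‖x - S x‖ ^ 2 ∂ρ = ∫ x, (‖x‖ ^ 2 - 2 * φ x) ∂ρ + ∫ z, (‖z‖ ^ 2 - 2 * Ψ z) ∂μ +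
        2 * ∫ x, (φ x - ⟪x, S x⟫_ℝ + Ψ (S x)) ∂ρ := by
    intro S hS hSμ
    obtain ⟨-, s1, s2, s3, -, s5, -⟩ := key S hS hSμ
    have hga : Integrable (fun x => (‖x‖ ^ 2 - 2 * φ x) + (‖S x‖ ^ 2 - 2 * Ψ (S x))) ρ := hg.add s2
    have h2e : Integrable (fun x => 2 * (φ x - ⟪x, S x⟫_ℝ + Ψ (S x))) ρ := s3.const_mul 2
    calc ∫ x, ‖x - S x‖ ^ 2 ∂ρ
        = ∫ x, (((‖x‖ ^ 2 - 2 * φ x) + (‖S x‖ ^ 2 - 2 * Ψ (S x))) +
            2 * (φ x - ⟪x, S x⟫_ℝ + Ψ (S x))) ∂ρ := by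
          refine integral_congr_ae (Filter.Eventually.of_forall (fun x => ?_))
          simp only []
          rw [norm_sub_sq_real]
          ring
      _ = ∫ x, ((‖x‖ ^ 2 - 2 * φ x) + (‖S x‖ ^ 2 - 2 * Ψ (S x))) ∂ρ +
            ∫ x, 2 * (φ x - ⟪x, S x⟫_ℝ + Ψ (S x)) ∂ρ := integral_add hga h2e
      _ = _ := by
          rw [integral_add hg s2, integral_const_mul, s5]
  have hTcost : ∫ x, ‖x - T x‖ ^ 2 ∂ρ =
      ∫ x, (‖x‖ ^ 2 - 2 * φ x) ∂ρ + ∫ z, (‖z‖ ^ 2 - 2 * Ψ z) ∂μ := by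
    rw [decomp T hT rfl]
    simp only [hexcT, integral_zero, mul_zero, add_zero]
  refine ⟨⟨hT, rfl, ?_⟩, ?_⟩
  · intro S hS hSμ
    obtain ⟨-, -, -, -, s4, -, s6⟩ := key S hS hSμ
    rw [t6, s6]
    apply ENNReal.ofReal_le_ofReal
    rw [decomp S hS hSμ, hTcost]
    have := integral_nonneg_of_ae s4
    linarith
  · intro S hSopt
    obtain ⟨hS, hSμ, hSmin⟩ := hSopt
    obtain ⟨sA, -, -, s3, s4, -, s6⟩ := key S hS hSμ
    have hle := hSmin T hT rfl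
    rw [t6, s6] at hle
    have hTnn : 0 ≤ ∫ x, ‖x - T x‖ ^ 2 ∂ρ := integral_nonneg (fun x => by positivity)
    have hle' := (ENNReal.ofReal_le_ofReal_iff hTnn).mp hle
    rw [decomp S hS hSμ, hTcost] at hle'
    have hnn := integral_nonneg_of_ae s4
    have hzero : ∫ x, (φ x - ⟪x, S x⟫_ℝ + Ψ (S x)) ∂ρ = 0 := by linarith
    have hae := (integral_eq_zero_iff_of_nonneg_ae s4 s3).mp hzero
    filter_upwards [hae, sA, hmax] with x hx hxA hm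
    obtain ⟨k, hk⟩ := hxA
    refine ⟨k, hk.symm, fun j => ?_⟩
    have h0 : φ x - ⟪x, S x⟫_ℝ + Ψ (S x) = 0 := hx
    rw [← hk, hΨy] at h0
    have := hm j
    simp only [hφ, hTdef] at h0
    linarith

end Crest.Agent.R82.Sharp
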