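import Crest.Agent.R82.SharpDefs

/-!
# S0110c: push-forward under a three-valued map, atomic couplings, the scalar inequality
-/

set_option autoImplicit false

namespace Crest.Agent.R82.Sharp

open MeasureTheory
open scoped ENNReal NNReal InnerProductSpace
open Crest.AnalysisR.OT

theorem map_idx {d : ℕ} (ρ : Measure (EuclideanSpace ℝ (Fin d)))
    (y : Fin 3 → EuclideanSpace ℝ (Fin d))
    (idx : EuclideanSpace ℝ (Fin d) → Fin 3) (hidx : Measurable idx) :
    ρ.map (fun x => y (idx x)) = ∑ k, ρ (idx ⁻¹' {k}) • Measure.dirac (y k) := by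
  have hy : Measurable y := measurable_of_finite y
  have h1 : ρ.map (fun x => y (idx x)) = (ρ.map idx).map y := by
    rw [Measure.map_map hy hidx]; rfl
  have h2 : ρ.map idx = ∑ k, ρ (idx ⁻¹' {k}) • Measure.dirac k := by
    conv_lhs => rw [← Measure.sum_smul_dirac (ρ.map idx)]
    rw [Measure.sum_fintype]
    refine Finset.sum_congr rfl (fun k _ => ?_)
    rw [Measure.map_apply hidx (measurableSet_singleton k)]
  rw [h1, h2]
  simp only [Fin.sum_univ_three]
  rw [Measure.map_add _ _ hy, Measure.map_add _ _ hy, Measure.map_smul, Measure.map_smul,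
    Measure.map_smul, Measure.map_dirac' hy, Measure.map_dirac' hy, Measure.map_dirac' hy]

theorem coupling_atoms {d : ℕ} (M : Fin 3 → ℝ≥0∞) (y z : Fin 3 → EuclideanSpace ℝ (Fin d)) :
    IsPairCoupling (∑ k, M k • Measure.dirac (y k)) (∑ k, M k • Measure.dirac (z k))
      (∑ k, M k • Measure.dirac (y k, z k)) ∧
    quadCost (∑ k, M k • Measure.dirac (y k, z k)) = ∑ k, M k * ‖y k - z k‖ₑ ^ 2 := by
  refine ⟨⟨?_, ?_⟩, ?_⟩
  · simp only [Fin.sum_univ_three]
    rw [Measure.map_add _ _ measurable_fst, Measure.map_add _ _ measurable_fst, Measure.map_smul,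
      Measure.map_smul, Measure.map_smul, Measure.map_dirac' measurable_fst,
      Measure.map_dirac' measurable_fst, Measure.map_dirac' measurable_fst]
  · simp only [Fin.sum_univ_three]
    rw [Measure.map_add _ _ measurable_snd, Measure.map_add _ _ measurable_snd, Measure.map_smul,
      Measure.map_smul, Measure.map_smul, Measure.map_dirac' measurable_snd,
      Measure.map_dirac' measurable_snd, Measure.map_dirac' measurable_snd]
  · unfold quadCost
    have hm : Measurable (fun p : EuclideanSpace ℝ (Fin d) × EuclideanSpace ℝ (Fin d) =>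
        ‖p.1 - p.2‖ₑ ^ 2) := by fun_prop
    rw [lintegral_finsetSum_measure]
    refine Finset.sum_congr rfl (fun k _ => ?_)
    rw [lintegral_smul_measure, lintegral_dirac' _ hm]
    rfl

theorem exists_w (α : ℝ) (hα : 1 / 3 < α) (C : ℝ) (hC : 0 ≤ C) :
    ∃ w : ℝ, 0 < w ∧ w ≤ 1 / 4 ∧ C * (2 * w ^ 3) ^ α < w / 64 := by
  have hβ : 0 < 3 * α - 1 := by linarith
  have hα0 : 0 < α := by linarith
  set K : ℝ := 64 * (C + 1) * 2 ^ α with hK
  have hKpos : 0 < K := by positivity
  have ht : Filter.Tendsto (fun w : ℝ => w ^ (3 * α - 1)) (nhdsWithin 0 (Set.Ioi 0)) (nhds 0) := by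
    have hc : ContinuousAt (fun w : ℝ => w ^ (3 * α - 1)) 0 :=
      Real.continuousAt_rpow_const 0 _ (Or.inr hβ.le)
    have := hc.tendsto
    rw [Real.zero_rpow hβ.ne'] at this
    exact this.mono_left nhdsWithin_le_nhds
  have h1 : ∀ᶠ w in nhdsWithin (0 : ℝ) (Set.Ioi 0), w ^ (3 * α - 1) < 1 / K :=
    ht.eventually (gt_mem_nhds (by positivity))
  have h2 : ∀ᶠ w in nhdsWithin (0 : ℝ) (Set.Ioi 0), w ∈ Set.Ioc (0 : ℝ) (1 / 4) :=
    Ioc_mem_nhdsGT (by norm_num)
  obtain ⟨w, hw1, hw2⟩ := (h1.and h2).exists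
  refine ⟨w, hw2.1, hw2.2, ?_⟩
  have hw0 := hw2.1
  have e1 : (2 * w ^ 3) ^ α = 2 ^ α * (w ^ (3 * α - 1) * w) := by
    rw [Real.mul_rpow (by norm_num) (by positivity)]
    congr 1
    rw [← Real.rpow_natCast w 3, ← Real.rpow_mul hw0.le]
    have : w ^ (3 * α - 1) * w = w ^ (3 * α - 1) * w ^ (1 : ℝ) := by rw [Real.rpow_one]
    rw [this, ← Real.rpow_add hw0]
    congr 1
    push_cast
    ring
  rw [e1]
  have h2α : (0 : ℝ) < 2 ^ α := by positivity
  have hb : w ^ (3 * α - 1) * K < 1 := by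
    rw [lt_div_iff₀ hKpos] at hw1
    exact hw1
  have hwβ : 0 ≤ w ^ (3 * α - 1) := by positivity
  have : C * (2 ^ α * (w ^ (3 * α - 1) * w)) * 64 ≤ (w ^ (3 * α - 1) * K) * w := by
    rw [hK]
    have : 0 ≤ 64 * 2 ^ α * (w ^ (3 * α - 1) * w) := by positivity
    nlinarith
  have h3 : (w ^ (3 * α - 1) * K) * w < 1 * w := by
    exact mul_lt_mul_of_pos_right hb hw0
  linarith

end Crest.Agent.R82.Sharp
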