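import Crest.Agent.R82.SharpBox
import Crest.Agent.R82.SharpDual
import Crest.Agent.R82.SharpMap

/-!
# S0110: assembly of the sharpness example
-/

set_option autoImplicit false

namespace Crest.Agent.R82.Sharp

open MeasureTheory
open scoped ENNReal NNReal InnerProductSpace
open Crest.AnalysisR.OT

variable {d : ℕ}

local notation "𝔼" => EuclideanSpace ℝ (Fin d)

/-- monotonicity of `rhoQ` for inclusions that hold on the cube. -/
theorem rhoQ_mono {A B : Set 𝔼} (h : ∀ x ∈ Q d, x ∈ A → x ∈ B) : rhoQ d A ≤ rhoQ d B := by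
  apply measure_mono_ae
  filter_upwards [ae_mem_Q d] with x hx hxA
  exact h x hx hxA

theorem sum_idx (ρ : Measure 𝔼) [IsProbabilityMeasure ρ] (idx : 𝔼 → Fin 3) (hidx : Measurable idx) :
    ∑ k, ρ (idx ⁻¹' {k}) = 1 := by
  have h := map_idx ρ (fun _ => (0 : 𝔼)) idx hidx
  have h2 := congrArg (fun m : Measure 𝔼 => m Set.univ) h
  simp only [Measure.map_const] at h2
  simpa [Fin.sum_univ_three] using h2.symm

/-- the three-valued index map of a (possibly tilted) strip `-(l x) ≤ x i0 ≤ u x`. -/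
noncomputable def stripIdx (i0 : Fin d) (l u : 𝔼 → ℝ) (x : 𝔼) : Fin 3 :=
  if u x < x i0 then 2 else if x i0 < -(l x) then 0 else 1

theorem measurable_coord (i : Fin d) : Measurable (fun x : 𝔼 => x i) := by
  fun_prop

theorem measurable_stripIdx (i0 : Fin d) (l u : 𝔼 → ℝ) (hl : Measurable l) (hu : Measurable u) :
    Measurable (stripIdx i0 l u) := by
  unfold stripIdx
  refine Measurable.ite (measurableSet_lt hu (measurable_coord i0)) measurable_const ?_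
  exact Measurable.ite (measurableSet_lt (measurable_coord i0) hl.neg) measurable_const
    measurable_const

theorem box2_ofReal (i0 i1 : Fin d) (h : i0 ≠ i1) (S0 S1 : Set ℝ)
    (h0 : MeasurableSet S0) (h1 : MeasurableSet S1) (v0 v1 : ℝ) (hv0' : 0 ≤ v0)
    (hv0 : volume (S0 ∩ Set.Icc (-1 : ℝ) 1) = ENNReal.ofReal v0)
    (hv1 : volume (S1 ∩ Set.Icc (-1 : ℝ) 1) = ENNReal.ofReal v1) :
    rhoQ d {x | x i0 ∈ S0 ∧ x i1 ∈ S1} = ENNReal.ofReal (v0 / 2 * (v1 / 2)) := by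
  rw [rhoQ_box2 i0 i1 h S0 S1 h0 h1, hv0, hv1, ENNReal.ofReal_mul (by positivity),
    ENNReal.ofReal_div_of_pos (by norm_num), ENNReal.ofReal_div_of_pos (by norm_num)]
  simp

theorem box1_ofReal (i0 i1 : Fin d) (h : i0 ≠ i1) (S0 : Set ℝ)
    (h0 : MeasurableSet S0) (v0 : ℝ)
    (hv0 : volume (S0 ∩ Set.Icc (-1 : ℝ) 1) = ENNReal.ofReal v0) :
    rhoQ d {x | x i0 ∈ S0} = ENNReal.ofReal (v0 / 2) := by
  rw [rhoQ_box1 i0 i1 h S0 h0, hv0, ENNReal.ofReal_div_of_pos (by norm_num)]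
  simp

theorem vol_Ioi (b : ℝ) (hb : -1 ≤ b) :
    volume (Set.Ioi b ∩ Set.Icc (-1 : ℝ) 1) = ENNReal.ofReal (1 - b) := by
  have : Set.Ioi b ∩ Set.Icc (-1 : ℝ) 1 = Set.Ioc b 1 := by
    ext t; simp only [Set.mem_inter_iff, Set.mem_Ioi, Set.mem_Icc, Set.mem_Ioc]
    constructor
    · rintro ⟨h1, _, h3⟩; exact ⟨h1, h3⟩
    · rintro ⟨h1, h3⟩; exact ⟨h1, by linarith, h3⟩
  rw [this, Real.volume_Ioc]

theorem vol_Iio (c : ℝ) (hc : c ≤ 1) :
    volume (Set.Iio c ∩ Set.Icc (-1 : ℝ) 1) = ENNReal.ofReal (c + 1) := by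
  have : Set.Iio c ∩ Set.Icc (-1 : ℝ) 1 = Set.Ico (-1) c := by
    ext t; simp only [Set.mem_inter_iff, Set.mem_Iio, Set.mem_Icc, Set.mem_Ico]
    constructor
    · rintro ⟨h1, h2, _⟩; exact ⟨h2, h1⟩
    · rintro ⟨h1, h3⟩; exact ⟨h3, h1, by linarith⟩
  rw [this, Real.volume_Ico]; congr 1; ring

theorem vol_Icc (a b : ℝ) (ha : -1 ≤ a) (hb : b ≤ 1) :
    volume (Set.Icc a b ∩ Set.Icc (-1 : ℝ) 1) = ENNReal.ofReal (b - a) := by
  rw [Set.inter_eq_left.mpr (Set.Icc_subset_Icc ha hb), Real.volume_Icc]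

theorem vol_Ioc (a b : ℝ) (ha : -1 ≤ a) (hb : b ≤ 1) :
    volume (Set.Ioc a b ∩ Set.Icc (-1 : ℝ) 1) = ENNReal.ofReal (b - a) := by
  rw [Set.inter_eq_left.mpr (Set.Ioc_subset_Icc_self.trans (Set.Icc_subset_Icc ha hb)),
    Real.volume_Ioc]

theorem vol_Ioo (a b : ℝ) (ha : -1 ≤ a) (hb : b ≤ 1) :
    volume (Set.Ioo a b ∩ Set.Icc (-1 : ℝ) 1) = ENNReal.ofReal (b - a) := by
  rw [Set.inter_eq_left.mpr (Set.Ioo_subset_Icc_self.trans (Set.Icc_subset_Icc ha hb)),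
    Real.volume_Ioo]

/-- general package: probability on the cube and three-atomic. -/
theorem package (y : Fin 3 → 𝔼) (hy : Function.Injective y) (hyQ : ∀ k, y k ∈ Q d)
    (idx : 𝔼 → Fin 3) (hidx : Measurable idx) (hpos : ∀ k, 0 < rhoQ d (idx ⁻¹' {k})) :
    IsProbabilityOn (Q d) ((rhoQ d).map (fun x => y (idx x))) ∧
      IsThreeAtomic ((rhoQ d).map (fun x => y (idx x))) := by
  have := rhoQ_prob d
  have hT : Measurable (fun x => y (idx x)) := (measurable_of_finite y).comp hidx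
  refine ⟨⟨Measure.isProbabilityMeasure_map hT.aemeasurable, ?_⟩, ?_⟩
  · rw [Measure.map_apply hT (measurableSet_Q d).compl]
    have : (fun x => y (idx x)) ⁻¹' (Q d)ᶜ = ∅ := by
      ext x
      simp only [Set.mem_preimage, Set.mem_compl_iff, Set.mem_empty_iff_false, iff_false, not_not]
      exact hyQ _
    rw [this, measure_empty]
  · refine ⟨y, hy, fun k => (rhoQ d (idx ⁻¹' {k})).toReal, fun k => ?_, ?_⟩
    · exact ENNReal.toReal_pos (hpos k).ne' (measure_ne_top _ _)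
    · rw [map_idx _ y idx hidx]
      refine Finset.sum_congr rfl (fun k _ => ?_)
      rw [ENNReal.ofReal_toReal (measure_ne_top _ _)]


theorem stripIdx_pre2 (i0 : Fin d) (l u : 𝔼 → ℝ) :
    stripIdx i0 l u ⁻¹' {2} = {x | u x < x i0} := by
  ext x
  simp only [Set.mem_preimage, Set.mem_singleton_iff, Set.mem_ofPred_eq, stripIdx]
  split_ifs <;> simp_all

theorem stripIdx_pre0 (i0 : Fin d) (l u : 𝔼 → ℝ) :
    stripIdx i0 l u ⁻¹' {0} = {x | ¬ u x < x i0 ∧ x i0 < -(l x)} := by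
  ext x
  simp only [Set.mem_preimage, Set.mem_singleton_iff, Set.mem_ofPred_eq, stripIdx]
  split_ifs <;> simp_all

theorem stripIdx_pre1 (i0 : Fin d) (l u : 𝔼 → ℝ) :
    stripIdx i0 l u ⁻¹' {1} = {x | ¬ u x < x i0 ∧ ¬ x i0 < -(l x)} := by
  ext x
  simp only [Set.mem_preimage, Set.mem_singleton_iff, Set.mem_ofPred_eq, stripIdx]
  split_ifs <;> simp_all

theorem inner_e (i : Fin d) (x : 𝔼) (c : ℝ) : ⟪x, EuclideanSpace.single i c⟫_ℝ = c * x i := by
  simp [EuclideanSpace.inner_single_right]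

/-- the sites. -/
noncomputable def sites (i0 : Fin d) (c : 𝔼) : Fin 3 → 𝔼 :=
  ![-(EuclideanSpace.single i0 (1 : ℝ)), c, EuclideanSpace.single i0 (1 : ℝ)]

theorem sites_inj (i0 : Fin d) (c : 𝔼) (hc : c i0 = 0) : Function.Injective (sites i0 c) := by
  intro j k hjk
  have h := congrArg (fun v : 𝔼 => v i0) hjk
  fin_cases j <;> fin_cases k <;> simp [sites, hc] at h ⊢ <;> norm_num at h

theorem sites_mem_Q (i0 : Fin d) (c : 𝔼) (hc : c ∈ Q d) (k : Fin 3) : sites i0 c k ∈ Q d := by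
  fin_cases k
  · intro i
    by_cases h : i = i0 <;> simp [sites, h]
  · exact hc
  · intro i
    by_cases h : i = i0 <;> simp [sites, h]


/-- the tilted index map. -/
noncomputable def idxN (i0 i1 : Fin d) (w : ℝ) : 𝔼 → Fin 3 :=
  stripIdx i0 (fun x => w * (1 + x i1)) (fun x => w * (1 + x i1))

theorem measurable_idxN (i0 i1 : Fin d) (w : ℝ) : Measurable (idxN i0 i1 w) := by
  have h : Measurable (fun x : 𝔼 => w * (1 + x i1)) :=
    ((measurable_coord i1).const_add 1).const_mul w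
  exact measurable_stripIdx i0 _ _ h h

theorem mem_Q_iff {x : 𝔼} : x ∈ Q d ↔ ∀ i, -1 ≤ x i ∧ x i ≤ 1 := by
  simp only [Q, Set.mem_ofPred_eq, abs_le]

theorem massN (i0 i1 : Fin d) (h01 : i0 ≠ i1) (w : ℝ) (hw0 : 0 < w) (hw1 : w ≤ 1 / 4) :
    (rhoQ d (idxN i0 i1 w ⁻¹' {2})).toReal ≤ 1 / 2 - w / 4 ∧
    0 < rhoQ d (idxN i0 i1 w ⁻¹' {2}) ∧
    (rhoQ d (idxN i0 i1 w ⁻¹' {0})).toReal ≤ 1 / 2 ∧
    0 < rhoQ d (idxN i0 i1 w ⁻¹' {0}) ∧
    rhoQ d (idxN i0 i1 w ⁻¹' {1}) ≤ ENNReal.ofReal (2 * w) ∧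
    0 < rhoQ d (idxN i0 i1 w ⁻¹' {1}) := by
  have := rhoQ_prob d
  unfold idxN
  rw [stripIdx_pre2, stripIdx_pre0, stripIdx_pre1]
  refine ⟨?_, ?_, ?_, ?_, ?_, ?_⟩
  · -- M2 + ρ U1 ≤ 1/2
    set V2 : Set 𝔼 := {x | w * (1 + x i1) < x i0} with hV2
    set U1 : Set 𝔼 := {x | x i0 ∈ Set.Ioc 0 w ∧ x i1 ∈ Set.Icc (0 : ℝ) 1} with hU1
    have hU1m : MeasurableSet U1 :=
      ((measurable_coord i0) measurableSet_Ioc).inter ((measurable_coord i1) measurableSet_Icc)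
    have hdisj : Disjoint V2 U1 := by
      rw [Set.disjoint_left]
      intro x hx hx'
      have h1 : w * (1 + x i1) < x i0 := hx
      have h2 : x i0 ≤ w := hx'.1.2
      have h3 : 0 ≤ x i1 := hx'.2.1
      nlinarith
    have hU1v : rhoQ d U1 = ENNReal.ofReal (w / 4) := by
      rw [hU1, box2_ofReal i0 i1 h01 _ _ measurableSet_Ioc measurableSet_Icc (w - 0) (1 - 0)
        (by linarith) (vol_Ioc 0 w (by norm_num) (by linarith)) (vol_Icc 0 1 (by norm_num) le_rfl)]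
      congr 1; ring
    have hle : rhoQ d (V2 ∪ U1) ≤ rhoQ d {x | x i0 ∈ Set.Ioi (0 : ℝ)} := by
      apply rhoQ_mono
      intro x hxQ hx
      rcases hx with hx | hx
      · have h1 : w * (1 + x i1) < x i0 := hx
        have h2 := (mem_Q_iff.mp hxQ i1).1
        have : 0 ≤ w * (1 + x i1) := mul_nonneg hw0.le (by linarith)
        exact lt_of_le_of_lt this h1
      · exact hx.1.1
    rw [measure_union hdisj hU1m, hU1v,
      box1_ofReal i0 i1 h01 _ measurableSet_Ioi (1 - 0) (vol_Ioi 0 (by norm_num))] at hle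
    have h3 := ENNReal.toReal_mono ENNReal.ofReal_ne_top hle
    rw [ENNReal.toReal_add (measure_ne_top _ _) ENNReal.ofReal_ne_top,
      ENNReal.toReal_ofReal (by positivity), ENNReal.toReal_ofReal (by norm_num)] at h3
    linarith
  · have hle : rhoQ d {x | x i0 ∈ Set.Ioi (2 * w)} ≤ rhoQ d {x : 𝔼 | w * (1 + x i1) < x i0} := by
      apply rhoQ_mono
      intro x hxQ hx
      have h1 : 2 * w < x i0 := hx
      have h2 := (mem_Q_iff.mp hxQ i1).2
      show w * (1 + x i1) < x i0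
      nlinarith
    rw [box1_ofReal i0 i1 h01 _ measurableSet_Ioi (1 - 2 * w) (vol_Ioi _ (by linarith))] at hle
    exact lt_of_lt_of_le (ENNReal.ofReal_pos.mpr (by linarith)) hle
  · have hle : rhoQ d {x : 𝔼 | ¬ w * (1 + x i1) < x i0 ∧ x i0 < -(w * (1 + x i1))} ≤
        rhoQ d {x | x i0 ∈ Set.Iio (0 : ℝ)} := by
      apply rhoQ_mono
      intro x hxQ hx
      have h1 : x i0 < -(w * (1 + x i1)) := hx.2
      have h2 := (mem_Q_iff.mp hxQ i1).1
      have : 0 ≤ w * (1 + x i1) := mul_nonneg hw0.le (by linarith)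
      show x i0 < 0
      linarith
    rw [box1_ofReal i0 i1 h01 _ measurableSet_Iio (0 + 1) (vol_Iio 0 (by norm_num))] at hle
    have h3 := ENNReal.toReal_mono ENNReal.ofReal_ne_top hle
    rw [ENNReal.toReal_ofReal (by norm_num)] at h3
    linarith
  · have hle : rhoQ d {x | x i0 ∈ Set.Iio (-(2 * w))} ≤
        rhoQ d {x : 𝔼 | ¬ w * (1 + x i1) < x i0 ∧ x i0 < -(w * (1 + x i1))} := by
      apply rhoQ_mono
      intro x hxQ hx
      have h1 : x i0 < -(2 * w) := hx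
      have h2 := (mem_Q_iff.mp hxQ i1)
      have : 0 ≤ w * (1 + x i1) := mul_nonneg hw0.le (by linarith [h2.1])
      refine ⟨by linarith, ?_⟩
      nlinarith [h2.2]
    rw [box1_ofReal i0 i1 h01 _ measurableSet_Iio (-(2 * w) + 1) (vol_Iio _ (by linarith))] at hle
    exact lt_of_lt_of_le (ENNReal.ofReal_pos.mpr (by linarith)) hle
  · have hle : rhoQ d {x : 𝔼 | ¬ w * (1 + x i1) < x i0 ∧ ¬ x i0 < -(w * (1 + x i1))} ≤
        rhoQ d {x | x i0 ∈ Set.Icc (-(2 * w)) (2 * w)} := by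
      apply rhoQ_mono
      intro x hxQ hx
      have h1 := not_lt.mp hx.1
      have h1' := not_lt.mp hx.2
      have h2 := (mem_Q_iff.mp hxQ i1)
      constructor
      · nlinarith [h2.2]
      · nlinarith [h2.2]
    rw [box1_ofReal i0 i1 h01 _ measurableSet_Icc (2 * w - -(2 * w))
      (vol_Icc _ _ (by linarith) (by linarith))] at hle
    refine hle.trans (le_of_eq ?_)
    congr 1; ring
  · have hle : rhoQ d {x | x i0 ∈ Set.Icc (-w) w ∧ x i1 ∈ Set.Icc (0 : ℝ) 1} ≤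
        rhoQ d {x : 𝔼 | ¬ w * (1 + x i1) < x i0 ∧ ¬ x i0 < -(w * (1 + x i1))} := by
      apply rhoQ_mono
      intro x _ hx
      have h1 := hx.1
      have h2 := hx.2
      constructor
      · rw [not_lt]; nlinarith [h1.2, h2.1]
      · rw [not_lt]; nlinarith [h1.1, h2.1]
    rw [box2_ofReal i0 i1 h01 _ _ measurableSet_Icc measurableSet_Icc (w - -w) (1 - 0)
        (by linarith) (vol_Icc _ _ (by linarith) (by linarith)) (vol_Icc 0 1 (by norm_num) le_rfl)]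
      at hle
    exact lt_of_lt_of_le (ENNReal.ofReal_pos.mpr (by nlinarith)) hle


/-- the straight index map. -/
noncomputable def idxM (i0 : Fin d) (a b : ℝ) : 𝔼 → Fin 3 :=
  stripIdx i0 (fun _ => a) (fun _ => b)

theorem measurable_idxM (i0 : Fin d) (a b : ℝ) : Measurable (idxM (d := d) i0 a b) :=
  measurable_stripIdx i0 _ _ measurable_const measurable_const

/-- masses of the straight strip. -/
theorem massM (i0 i1 : Fin d) (h01 : i0 ≠ i1) (a b : ℝ) (ha0 : 0 ≤ a)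
    (hb0 : 0 ≤ b) :
    rhoQ d (idxM i0 a b ⁻¹' {2}) = ENNReal.ofReal ((1 - b) / 2) ∧
    rhoQ d (idxM i0 a b ⁻¹' {0}) = ENNReal.ofReal ((1 - a) / 2) := by
  unfold idxM
  rw [stripIdx_pre2, stripIdx_pre0]
  constructor
  · exact box1_ofReal i0 i1 h01 _ measurableSet_Ioi (1 - b) (vol_Ioi b (by linarith))
  · have : {x : 𝔼 | ¬ b < x i0 ∧ x i0 < -a} = {x | x i0 ∈ Set.Iio (-a)} := by
      ext x
      simp only [Set.mem_ofPred_eq, Set.mem_Iio]
      constructor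
      · exact fun h => h.2
      · exact fun h => ⟨by linarith, h⟩
    rw [this, box1_ofReal i0 i1 h01 _ measurableSet_Iio (-a + 1) (vol_Iio _ (by linarith))]
    congr 1; ring

/-- values `⟪x, y j⟫ - ψ j`. -/
theorem val_sites (i0 : Fin d) (c : 𝔼) (ψ : Fin 3 → ℝ) (x : 𝔼) (j : Fin 3) :
    ⟪x, sites i0 c j⟫_ℝ - ψ j =
      ![-(x i0) - ψ 0, ⟪x, c⟫_ℝ - ψ 1, x i0 - ψ 2] j := by
  fin_cases j <;> simp [sites, inner_e]

theorem hmaxM (i0 : Fin d) (a b : ℝ) (ha0 : 0 ≤ a) (hb0 : 0 ≤ b) (x : 𝔼) (j : Fin 3) :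
    ⟪x, sites i0 0 j⟫_ℝ - (![a, 0, b] : Fin 3 → ℝ) j ≤
      ⟪x, sites i0 0 (idxM i0 a b x)⟫_ℝ - (![a, 0, b] : Fin 3 → ℝ) (idxM i0 a b x) := by
  rw [val_sites, val_sites]
  unfold idxM stripIdx
  split_ifs with h1 h2 <;> fin_cases j <;> simp <;> linarith

theorem hmaxN (i0 i1 : Fin d) (w : ℝ) (hw0 : 0 < w) (x : 𝔼) (hx : x ∈ Q d) (j : Fin 3) :
    ⟪x, sites i0 (EuclideanSpace.single i1 w) j⟫_ℝ - (![w, 0, w] : Fin 3 → ℝ) j ≤
      ⟪x, sites i0 (EuclideanSpace.single i1 w) (idxN i0 i1 w x)⟫_ℝ -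
        (![w, 0, w] : Fin 3 → ℝ) (idxN i0 i1 w x) := by
  rw [val_sites, val_sites]
  have h2 := (mem_Q_iff.mp hx i1).1
  have h3 : 0 ≤ w * (1 + x i1) := mul_nonneg hw0.le (by linarith)
  unfold idxN stripIdx
  split_ifs with h1 h2 <;> fin_cases j <;> simp [inner_e] <;> linarith


theorem sharp_example (i0 i1 : Fin d) (h01 : i0 ≠ i1) (w : ℝ) (hw0 : 0 < w) (hw1 : w ≤ 1 / 4) :
    ∃ μ ν : Measure 𝔼, IsProbabilityOn (Q d) μ ∧ IsProbabilityOn (Q d) ν ∧
      IsThreeAtomic μ ∧ IsThreeAtomic ν ∧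
      (∃ T, IsOptimalMap (rhoQ d) μ T) ∧ (∃ T, IsOptimalMap (rhoQ d) ν T) ∧
      ∀ Tμ Tν : 𝔼 → 𝔼, IsOptimalMap (rhoQ d) μ Tμ → IsOptimalMap (rhoQ d) ν Tν →
        ∃ π : Measure (𝔼 × 𝔼), IsPairCoupling μ ν π ∧ quadCost π ≤ ENNReal.ofReal (2 * w ^ 3) ∧
          ENNReal.ofReal (w / 64) ≤ ∫⁻ x, ‖Tμ x - Tν x‖ₑ ^ 2 ∂(rhoQ d) := by
  have hprob := rhoQ_prob d
  obtain ⟨hm2, hp2, hm0, hp0, hm1, hp1⟩ := massN i0 i1 h01 w hw0 hw1
  set M : Fin 3 → ℝ≥0∞ := fun k => rhoQ d (idxN i0 i1 w ⁻¹' {k}) with hM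
  have hMtop : ∀ k, M k ≠ ⊤ := fun k => measure_ne_top _ _
  set b : ℝ := 1 - 2 * (M 2).toReal with hb
  set a : ℝ := 1 - 2 * (M 0).toReal with ha
  have hbw : w / 2 ≤ b := by
    have : (M 2).toReal ≤ 1 / 2 - w / 4 := hm2
    rw [hb]; linarith
  have hb0 : 0 ≤ b := by linarith
  have ha0 : 0 ≤ a := by
    have : (M 0).toReal ≤ 1 / 2 := hm0
    rw [ha]; linarith
  obtain ⟨hM2, hM0⟩ := massM i0 i1 h01 a b ha0 hb0
  have e2 : rhoQ d (idxM i0 a b ⁻¹' {2}) = M 2 := by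
    rw [hM2, hb]
    have : (1 - (1 - 2 * (M 2).toReal)) / 2 = (M 2).toReal := by ring
    rw [this, ENNReal.ofReal_toReal (hMtop 2)]
  have e0 : rhoQ d (idxM i0 a b ⁻¹' {0}) = M 0 := by
    rw [hM0, ha]
    have : (1 - (1 - 2 * (M 0).toReal)) / 2 = (M 0).toReal := by ring
    rw [this, ENNReal.ofReal_toReal (hMtop 0)]
  have e1 : rhoQ d (idxM i0 a b ⁻¹' {1}) = M 1 := by
    have s1 := sum_idx (rhoQ d) (idxM i0 a b) (measurable_idxM i0 a b)
    have s2 := sum_idx (rhoQ d) (idxN i0 i1 w) (measurable_idxN i0 i1 w)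
    rw [Fin.sum_univ_three] at s1 s2
    rw [e0, e2] at s1
    have s3 : M 0 + rhoQ d (idxM i0 a b ⁻¹' {1}) + M 2 = M 0 + M 1 + M 2 := by
      rw [s1]; exact s2.symm
    have s4 := (ENNReal.add_left_inj (hMtop 2)).mp s3
    exact (ENNReal.add_right_inj (hMtop 0)).mp s4
  have eall : ∀ k, rhoQ d (idxM i0 a b ⁻¹' {k}) = M k := by
    intro k; fin_cases k
    · exact e0
    · exact e1
    · exact e2
  have hMpos : ∀ k, 0 < M k := by
    intro k; fin_cases k
    · exact hp0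
    · exact hp1
    · exact hp2
  set cN : 𝔼 := EuclideanSpace.single i1 w with hcN
  have hcN0 : cN i0 = 0 := by simp [hcN, h01]
  have hcNQ : cN ∈ Q d := by
    intro i
    by_cases h : i = i1
    · simp [hcN, h, abs_of_pos hw0]; linarith
    · simp [hcN, h]
  have h0Q : (0 : 𝔼) ∈ Q d := by intro i; simp
  set yM : Fin 3 → 𝔼 := sites i0 0 with hyM
  set yN : Fin 3 → 𝔼 := sites i0 cN with hyN
  have hyMinj : Function.Injective yM := sites_inj i0 0 (by simp)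
  have hyNinj : Function.Injective yN := sites_inj i0 cN hcN0
  have hR : ∀ᵐ x ∂(rhoQ d), ‖x‖ ≤ (d : ℝ) := by
    filter_upwards [ae_mem_Q d] with x hx using norm_le_of_mem_Q hx
  have pM := package yM hyMinj (sites_mem_Q i0 0 h0Q) (idxM i0 a b) (measurable_idxM i0 a b)
    (fun k => by rw [eall k]; exact hMpos k)
  have pN := package yN hyNinj (sites_mem_Q i0 cN hcNQ) (idxN i0 i1 w) (measurable_idxN i0 i1 w)
    hMpos
  have dM := dual_opt (rhoQ d) d hR yM hyMinj ![a, 0, b] (idxM i0 a b) (measurable_idxM i0 a b)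
    (Filter.Eventually.of_forall (fun x j => hmaxM i0 a b ha0 hb0 x j))
  have dN := dual_opt (rhoQ d) d hR yN hyNinj ![w, 0, w] (idxN i0 i1 w) (measurable_idxN i0 i1 w)
    (by filter_upwards [ae_mem_Q d] with x hx j using hmaxN i0 i1 w hw0 x hx j)
  refine ⟨(rhoQ d).map (fun x => yM (idxM i0 a b x)), (rhoQ d).map (fun x => yN (idxN i0 i1 w x)),
    pM.1, pN.1, pM.2, pN.2, ⟨_, dM.1⟩, ⟨_, dN.1⟩, ?_⟩
  intro Tμ Tν hTμ hTν
  have uM := dM.2 Tμ hTμ
  have uN := dN.2 Tν hTν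
  have hμ : (rhoQ d).map (fun x => yM (idxM i0 a b x)) = ∑ k, M k • Measure.dirac (yM k) := by
    rw [map_idx _ yM _ (measurable_idxM i0 a b)]
    exact Finset.sum_congr rfl (fun k _ => by rw [eall k])
  have hν : (rhoQ d).map (fun x => yN (idxN i0 i1 w x)) = ∑ k, M k • Measure.dirac (yN k) :=
    map_idx _ yN _ (measurable_idxN i0 i1 w)
  obtain ⟨hcoup, hcost⟩ := coupling_atoms M yM yN
  refine ⟨∑ k, M k • Measure.dirac (yM k, yN k), by rw [hμ, hν]; exact hcoup, ?_, ?_⟩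
  · rw [hcost, Fin.sum_univ_three]
    have z0 : yM 0 - yN 0 = 0 := by simp [hyM, hyN, sites]
    have z2 : yM 2 - yN 2 = 0 := by simp [hyM, hyN, sites]
    have z1 : ‖yM 1 - yN 1‖ₑ = ENNReal.ofReal w := by
      have : yM 1 - yN 1 = -cN := by simp [hyM, hyN, sites]
      rw [this, enorm_neg, ← ofReal_norm, hcN, EuclideanSpace.norm_single, Real.norm_of_nonneg hw0.le]
    rw [z0, z2, z1]
    simp only [enorm_zero, ne_eq, OfNat.ofNat_ne_zero, not_false_eq_true, zero_pow, mul_zero,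
      zero_add, add_zero]
    calc M 1 * ENNReal.ofReal w ^ 2 ≤ ENNReal.ofReal (2 * w) * ENNReal.ofReal w ^ 2 := by
          gcongr
      _ = ENNReal.ofReal (2 * w ^ 3) := by
          rw [← ENNReal.ofReal_pow hw0.le, ← ENNReal.ofReal_mul (by positivity)]
          congr 1; ring
  · set Box : Set 𝔼 := {x | x i0 ∈ Set.Ioo (w / 4) (w / 2) ∧ x i1 ∈ Set.Icc (-1 : ℝ) (-3 / 4)}
      with hBox
    have hBoxm : MeasurableSet Box :=
      ((measurable_coord i0) measurableSet_Ioo).inter ((measurable_coord i1) measurableSet_Icc)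
    have hBoxv : rhoQ d Box = ENNReal.ofReal (w / 64) := by
      rw [hBox, box2_ofReal i0 i1 h01 _ _ measurableSet_Ioo measurableSet_Icc (w / 2 - w / 4)
        (-3 / 4 - -1) (by linarith) (vol_Ioo _ _ (by linarith) (by linarith))
        (vol_Icc _ _ le_rfl (by norm_num))]
      congr 1; ring
    rw [← hBoxv, ← lintegral_indicator_one hBoxm]
    apply lintegral_mono_ae
    filter_upwards [uM, uN] with x hxM hxN
    by_cases hx : x ∈ Box
    · rw [Set.indicator_of_mem hx]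
      obtain ⟨⟨hx1, hx2⟩, hx3, hx4⟩ := hx
      obtain ⟨k, hk, hkmax⟩ := hxM
      obtain ⟨k', hk', hkmax'⟩ := hxN
      have hk1 : k = 1 := by
        have h := hkmax 1
        rw [val_sites, val_sites] at h
        fin_cases k
        · simp at h; linarith
        · rfl
        · simp at h; linarith
      have hk2 : k' = 2 := by
        have h := hkmax' 2
        rw [val_sites, val_sites] at h
        fin_cases k'
        · simp at h; linarith
        · simp [hcN, inner_e] at h; nlinarith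
        · rfl
      rw [hk, hk', hk1, hk2]
      have : yM 1 - yN 2 = -(EuclideanSpace.single i0 (1 : ℝ)) := by simp [hyM, hyN, sites]
      rw [this, enorm_neg, ← ofReal_norm, EuclideanSpace.norm_single]
      simp
    · rw [Set.indicator_of_notMem hx]
      exact zero_le


end Crest.Agent.R82.Sharp
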