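import Crest.Agent.R82.SharpDefs

/-!
# S0110a: the uniform measure on the cube, measure of boxes

Blueprint.  `EuclideanSpace.volume_preserving_measurableEquiv` (or `PiLp.volume_preserving_ofLp`) transfers
`volume` on `EuclideanSpace ℝ (Fin d)` to `Measure.pi`; `Measure.pi_pi` computes the volume of `Set.pi univ t`.
`Q d` corresponds to `t i = Icc (-1) 1` (volume `2^d`), the box to `t i0 = S0 ∩ Icc`, `t i1 = S1 ∩ Icc`, other `Icc`.
`Fintype.prod_eq_mul` evaluates the product of the ratios.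
-/

set_option autoImplicit false

namespace Crest.Agent.R82.Sharp

open MeasureTheory
open scoped ENNReal NNReal InnerProductSpace

theorem measurable_coord' {d : ℕ} (i : Fin d) :
    Measurable (fun x : EuclideanSpace ℝ (Fin d) => x i) := by
  fun_prop

theorem volume_prodSet {d : ℕ} (t : Fin d → Set ℝ) (ht : ∀ i, MeasurableSet (t i)) :
    volume {x : EuclideanSpace ℝ (Fin d) | ∀ i, x i ∈ t i} = ∏ i, volume (t i) := by
  have h1 : {x : EuclideanSpace ℝ (Fin d) | ∀ i, x i ∈ t i} =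
      (@WithLp.ofLp 2 (Fin d → ℝ)) ⁻¹' (Set.pi Set.univ t) := by
    ext x
    simp [Set.mem_pi]
  rw [h1, (PiLp.volume_preserving_ofLp (Fin d)).measure_preimage
    (MeasurableSet.univ_pi ht).nullMeasurableSet, volume_pi_pi]

theorem Q_eq (d : ℕ) : Q d = {x : EuclideanSpace ℝ (Fin d) | ∀ i, x i ∈ Set.Icc (-1 : ℝ) 1} := by
  ext x
  simp only [Q, Set.mem_ofPred_eq, Set.mem_Icc, abs_le]

theorem measurableSet_Q (d : ℕ) : MeasurableSet (Q d) := by
  rw [Q_eq]
  have : {x : EuclideanSpace ℝ (Fin d) | ∀ i, x i ∈ Set.Icc (-1 : ℝ) 1} =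
      ⋂ i, (fun x : EuclideanSpace ℝ (Fin d) => x i) ⁻¹' Set.Icc (-1 : ℝ) 1 := by
    ext x; simp
  rw [this]
  exact MeasurableSet.iInter (fun i => measurable_coord' i measurableSet_Icc)

theorem volume_Q (d : ℕ) : volume (Q d) = 2 ^ d := by
  rw [Q_eq, volume_prodSet _ (fun _ => measurableSet_Icc)]
  simp only [Real.volume_Icc, Finset.prod_const, Finset.card_univ, Fintype.card_fin]
  norm_num

theorem rhoQ_apply (d : ℕ) (A : Set (EuclideanSpace ℝ (Fin d))) (hA : MeasurableSet A) :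
    rhoQ d A = (2 ^ d)⁻¹ * volume (A ∩ Q d) := by
  simp only [rhoQ, Crest.AnalysisR.OT.uniformProbOn, Measure.smul_apply, smul_eq_mul,
    Measure.restrict_apply hA, volume_Q]

theorem rhoQ_prob (d : ℕ) : IsProbabilityMeasure (rhoQ d) := by
  constructor
  rw [rhoQ_apply d _ MeasurableSet.univ, Set.univ_inter, volume_Q]
  exact ENNReal.inv_mul_cancel (by positivity) (by finiteness)

theorem rhoQ_compl (d : ℕ) : rhoQ d (Q d)ᶜ = 0 := by
  rw [rhoQ_apply d _ (measurableSet_Q d).compl, Set.compl_inter_self, measure_empty, mul_zero]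

theorem ae_mem_Q (d : ℕ) : ∀ᵐ x ∂(rhoQ d), x ∈ Q d := by
  rw [ae_iff]
  exact rhoQ_compl d

theorem norm_le_of_mem_Q {d : ℕ} {x : EuclideanSpace ℝ (Fin d)} (hx : x ∈ Q d) : ‖x‖ ≤ d := by
  have h1 : ‖x‖ ^ 2 ≤ (d : ℝ) ^ 2 := by
    rw [EuclideanSpace.norm_sq_eq]
    calc ∑ i, ‖x i‖ ^ 2 ≤ ∑ _i : Fin d, (1 : ℝ) := by
          refine Finset.sum_le_sum (fun i _ => ?_)
          have := hx i
          rw [Real.norm_eq_abs]
          exact pow_le_one₀ (abs_nonneg _) this
      _ = d := by simp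
      _ ≤ (d : ℝ) ^ 2 := by
          have : ((d : ℕ) : ℝ) ≤ ((d ^ 2 : ℕ) : ℝ) := by
            exact_mod_cast Nat.le_self_pow (by norm_num) d
          simpa using this
  exact (abs_le_of_sq_le_sq' h1 (by positivity)).2

/-- measure of a two-coordinate box. -/
theorem rhoQ_box2 {d : ℕ} (i0 i1 : Fin d) (h : i0 ≠ i1) (S0 S1 : Set ℝ)
    (h0 : MeasurableSet S0) (h1 : MeasurableSet S1) :
    rhoQ d {x | x i0 ∈ S0 ∧ x i1 ∈ S1} =
      volume (S0 ∩ Set.Icc (-1 : ℝ) 1) / 2 * (volume (S1 ∩ Set.Icc (-1 : ℝ) 1) / 2) := by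
  have hA : MeasurableSet {x : EuclideanSpace ℝ (Fin d) | x i0 ∈ S0 ∧ x i1 ∈ S1} :=
    (measurable_coord' i0 h0).inter (measurable_coord' i1 h1)
  rw [rhoQ_apply d _ hA]
  set t : Fin d → Set ℝ := fun i =>
    if i = i0 then S0 ∩ Set.Icc (-1 : ℝ) 1 else if i = i1 then S1 ∩ Set.Icc (-1 : ℝ) 1
      else Set.Icc (-1 : ℝ) 1 with ht
  have htm : ∀ i, MeasurableSet (t i) := by
    intro i
    simp only [ht]
    split_ifs
    · exact h0.inter measurableSet_Icc
    · exact h1.inter measurableSet_Icc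
    · exact measurableSet_Icc
  have hset : {x : EuclideanSpace ℝ (Fin d) | x i0 ∈ S0 ∧ x i1 ∈ S1} ∩ Q d =
      {x | ∀ i, x i ∈ t i} := by
    rw [Q_eq]
    ext x
    simp only [Set.mem_inter_iff, Set.mem_ofPred_eq, ht]
    constructor
    · rintro ⟨⟨hx0, hx1⟩, hxQ⟩ i
      split_ifs with hi0 hi1
      · subst hi0; exact ⟨hx0, hxQ _⟩
      · subst hi1; exact ⟨hx1, hxQ _⟩
      · exact hxQ i
    · intro hx
      have a0 := hx i0
      have a1 := hx i1
      simp only [if_true] at a0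
      rw [if_neg h.symm, if_pos rfl] at a1
      refine ⟨⟨a0.1, a1.1⟩, fun i => ?_⟩
      have ai := hx i
      split_ifs at ai
      · exact ai.2
      · exact ai.2
      · exact ai
  rw [hset, volume_prodSet t htm]
  have hprod : (2 ^ d : ℝ≥0∞)⁻¹ * ∏ i, volume (t i) = ∏ i, (volume (t i) / 2) := by
    simp only [div_eq_mul_inv]
    rw [Finset.prod_mul_distrib, Finset.prod_const, Finset.card_univ, Fintype.card_fin,
      ENNReal.inv_pow, mul_comm]
  rw [hprod, Fintype.prod_eq_mul i0 i1 h]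
  · simp only [ht, if_true]
    rw [if_neg h.symm]
  · rintro i ⟨hi0, hi1⟩
    simp only [ht]
    rw [if_neg hi0, if_neg hi1, Real.volume_Icc]
    norm_num
    exact ENNReal.div_self (by norm_num) (by norm_num)

/-- measure of a one-coordinate slab (needs a second coordinate only through `rhoQ_box2`). -/
theorem rhoQ_box1 {d : ℕ} (i0 i1 : Fin d) (h : i0 ≠ i1) (S0 : Set ℝ) (h0 : MeasurableSet S0) :
    rhoQ d {x | x i0 ∈ S0} = volume (S0 ∩ Set.Icc (-1 : ℝ) 1) / 2 := by
  have := rhoQ_box2 i0 i1 h S0 Set.univ h0 MeasurableSet.univ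
  simp only [Set.mem_univ, and_true, Set.univ_inter, Real.volume_Icc] at this
  rw [this]
  norm_num
  rw [ENNReal.div_self (by norm_num) (by norm_num), mul_one]

end Crest.Agent.R82.Sharp
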