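import Mathlib
import Crest.Prelude.Def_QuadraticTransport

/-!
# Row 82, statement S0110 (sharpness of the exponent 1/3): shared definitions

`Q d` is the cube, `rhoQ d` the uniform probability measure on it.
-/

set_option autoImplicit false

namespace Crest.Agent.R82.Sharp

open MeasureTheory
open scoped ENNReal NNReal InnerProductSpace

/-- the cube `[-1,1]^d` in Euclidean space. -/
abbrev Q (d : ℕ) : Set (EuclideanSpace ℝ (Fin d)) := {x | ∀ i, |x i| ≤ 1}

/-- the uniform probability measure on the cube. -/
noncomputable abbrev rhoQ (d : ℕ) : Measure (EuclideanSpace ℝ (Fin d)) :=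
  Crest.AnalysisR.OT.uniformProbOn (Q d)

end Crest.Agent.R82.Sharp
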